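import Vale.Agent.P267.H533.HasInt

/-!
# P267 / H533: real smooth functions, cut-off functions and finite smooth partitions of unity
-/

set_option linter.unusedVariables false
set_option linter.unusedSectionVars false

open scoped Manifold ContDiff ComplexConjugate Matrix ComplexOrder
open MeasureTheory Set Filter Topology

noncomputable section

namespace Vale.Agent.P267.H533

open FL

variable {X : Type*} [TopologicalSpace X] [ChartedSpace C2 X]

/-- real smooth function -/
def RSm (f : X → ℝ) : Prop :=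
  ∀ e ∈ atlas C2 X, ContDiffOn ℝ ∞ (fun z => f (e.symm z)) e.target

theorem rsm_iff {f : X → ℝ} : RSm f ↔ Reg0 ∞ 0 (fun x => (f x : ℂ)) := by
  constructor
  · intro h e he
    rw [LB.loc0_zero]
    exact Complex.ofRealCLM.contDiff.comp_contDiffOn (h e he)
  · intro h e he
    have h1 := h e he
    rw [LB.loc0_zero] at h1
    exact Complex.reCLM.contDiff.comp_contDiffOn h1

theorem RSm.reg {f : X → ℝ} (h : RSm f) : Reg0 ∞ 0 (fun x => (f x : ℂ)) := rsm_iff.1 h

theorem RSm.contDiffAt {f : X → ℝ} (h : RSm f) {e : Ch X} (he : e ∈ atlas C2 X) {z : C2}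
    (hz : z ∈ e.target) : ContDiffAt ℝ ∞ (fun z => f (e.symm z)) z :=
  (h e he).contDiffAt (e.open_target.mem_nhds hz)

theorem RSm.const (c : ℝ) : RSm (fun _ : X => c) := fun e he => contDiffOn_const

theorem RSm.add {f g : X → ℝ} (hf : RSm f) (hg : RSm g) : RSm (fun x => f x + g x) :=
  fun e he => (hf e he).add (hg e he)

theorem RSm.sub {f g : X → ℝ} (hf : RSm f) (hg : RSm g) : RSm (fun x => f x - g x) :=
  fun e he => (hf e he).sub (hg e he)

theorem RSm.neg {f : X → ℝ} (hf : RSm f) : RSm (fun x => -f x) :=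
  fun e he => (hf e he).neg

theorem RSm.mul {f g : X → ℝ} (hf : RSm f) (hg : RSm g) : RSm (fun x => f x * g x) :=
  fun e he => (hf e he).mul (hg e he)

theorem RSm.comp {f : X → ℝ} (hf : RSm f) {g : ℝ → ℝ} (hg : ContDiff ℝ ∞ g) :
    RSm (fun x => g (f x)) :=
  fun e he => hg.comp_contDiffOn (hf e he)

theorem RSm.sum {ι : Type*} (s : Finset ι) {f : ι → X → ℝ} (hf : ∀ i ∈ s, RSm (f i)) :
    RSm (fun x => ∑ i ∈ s, f i x) :=
  fun e he => ContDiffOn.sum fun i hi => hf i hi e he

theorem RSm.prod {ι : Type*} (s : Finset ι) {f : ι → X → ℝ} (hf : ∀ i ∈ s, RSm (f i)) :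
    RSm (fun x => ∏ i ∈ s, f i x) :=
  fun e he => contDiffOn_prod fun i hi => hf i hi e he

section mfd

variable [IsManifold 𝓘(ℂ, C2) ω X]

theorem rsm_of_at {f : X → ℝ} (h : ∀ x, ∃ e ∈ atlas C2 X, x ∈ e.source ∧
    ContDiffAt ℝ ∞ (fun z => f (e.symm z)) (e x)) : RSm f := by
  intro e' he' z hz
  obtain ⟨e, he, hx, h1⟩ := h (e'.symm z)
  have h3 : ContDiffAt ℝ ∞ (fun y => e (e'.symm y)) z :=
    ((trans_analyticAt' he' he hz hx).contDiffAt (n := ∞)).restrict_scalars ℝ
  have h4 : ContDiffAt ℝ ∞ (fun y => f (e.symm (e (e'.symm y)))) z :=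
    ContDiffAt.comp (g := fun w => f (e.symm w)) z h1 h3
  refine (h4.congr_of_eventuallyEq ?_).contDiffWithinAt
  have hz' : z ∈ e'.target ∩ e'.symm ⁻¹' e.source := ⟨hz, hx⟩
  filter_upwards [(isOpen_trans e' e).mem_nhds hz'] with y hy
  rw [e.left_inv hy.2]

theorem RSm.continuous {f : X → ℝ} (hf : RSm f) : Continuous f := by
  rw [continuous_iff_continuousAt]
  intro x
  have h1 := (hf.contDiffAt (chart_mem_atlas C2 x) (mem_chart_target C2 x)).continuousAt
  have h2 : ContinuousAt (fun y => f ((chartAt C2 x).symm (chartAt C2 x y))) x :=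
    ContinuousAt.comp (g := fun z => f ((chartAt C2 x).symm z)) h1
      ((chartAt C2 x).continuousAt (mem_chart_source C2 x))
  refine h2.congr ?_
  filter_upwards [(chartAt C2 x).open_source.mem_nhds (mem_chart_source C2 x)] with y hy
  rw [(chartAt C2 x).left_inv hy]

open Classical in
/-- extension by zero of a function in a chart -/
def ext0 {V : Type*} [Zero V] (e : Ch X) (u : C2 → V) (x : X) : V :=
  if x ∈ e.source then u (e x) else 0

theorem ext0_of_mem {V : Type*} [Zero V] {e : Ch X} {u : C2 → V} {x : X} (hx : x ∈ e.source) :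
    ext0 e u x = u (e x) := if_pos hx

theorem ext0_of_notMem {V : Type*} [Zero V] {e : Ch X} {u : C2 → V} {x : X} (hx : x ∉ e.source) :
    ext0 e u x = 0 := if_neg hx

theorem support_ext0 {V : Type*} [Zero V] {e : Ch X} {u : C2 → V} (hut : tsupport u ⊆ e.target) :
    Function.support (ext0 e u) ⊆ e.symm '' tsupport u := by
  intro x hx
  by_cases h : x ∈ e.source
  · have h1 : u (e x) ≠ 0 := by
      have : ext0 e u x ≠ 0 := hx
      rwa [ext0_of_mem h] at this
    exact ⟨e x, subset_tsupport _ h1, e.left_inv h⟩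
  · exact absurd (ext0_of_notMem h) hx

theorem isCompact_ext0 {V : Type*} [Zero V] {e : Ch X} {u : C2 → V} (hu : HasCompactSupport u)
    (hut : tsupport u ⊆ e.target) : IsCompact (e.symm '' tsupport u) :=
  IsCompact.image_of_continuousOn hu (e.continuousOn_symm.mono hut)

theorem tsupport_ext0 [T2Space X] {V : Type*} [Zero V] {e : Ch X} {u : C2 → V}
    (hu : HasCompactSupport u) (hut : tsupport u ⊆ e.target) :
    tsupport (ext0 e u) ⊆ e.symm '' tsupport u :=
  closure_minimal (support_ext0 hut) (isCompact_ext0 hu hut).isClosed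

theorem tsupport_ext0_subset [T2Space X] {V : Type*} [Zero V] {e : Ch X} {u : C2 → V}
    (hu : HasCompactSupport u) (hut : tsupport u ⊆ e.target) :
    tsupport (ext0 e u) ⊆ e.source := by
  refine (tsupport_ext0 hu hut).trans ?_
  rintro _ ⟨z, hz, rfl⟩
  exact e.map_target (hut hz)

theorem hasCompactSupport_ext0 [T2Space X] {V : Type*} [Zero V] {e : Ch X} {u : C2 → V}
    (hu : HasCompactSupport u) (hut : tsupport u ⊆ e.target) : HasCompactSupport (ext0 e u) :=
  (isCompact_ext0 hu hut).of_isClosed_subset (isClosed_tsupport _) (tsupport_ext0 hu hut)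

theorem ext0_symm {V : Type*} [Zero V] {e : Ch X} {u : C2 → V} {z : C2} (hz : z ∈ e.target) :
    ext0 e u (e.symm z) = u z := by
  rw [ext0_of_mem (e.map_target hz), e.right_inv hz]

theorem rsm_ext0 [T2Space X] {e : Ch X} (he : e ∈ atlas C2 X) {u : C2 → ℝ}
    (hus : ContDiff ℝ ∞ u) (hu : HasCompactSupport u) (hut : tsupport u ⊆ e.target) :
    RSm (ext0 e u) := by
  apply rsm_of_at
  intro x
  by_cases hx : x ∈ e.source
  · refine ⟨e, he, hx, ?_⟩
    refine (hus.contDiffAt (x := e x)).congr_of_eventuallyEq ?_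
    filter_upwards [e.open_target.mem_nhds (e.map_source hx)] with z hz
    rw [ext0_symm hz]
  · refine ⟨chartAt C2 x, chart_mem_atlas C2 x, mem_chart_source C2 x, ?_⟩
    have h1 : x ∉ tsupport (ext0 e u) := fun h => hx (tsupport_ext0_subset hu hut h)
    have h2 : ext0 e u =ᶠ[𝓝 x] 0 := notMem_tsupport_iff_eventuallyEq.1 h1
    have h3 : Tendsto (chartAt C2 x).symm (𝓝 (chartAt C2 x x)) (𝓝 x) := by
      have := (chartAt C2 x).continuousAt_symm (mem_chart_target C2 x)
      rw [ContinuousAt, (chartAt C2 x).left_inv (mem_chart_source C2 x)] at this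
      exact this
    refine (contDiffAt_const (c := (0 : ℝ))).congr_of_eventuallyEq ?_
    filter_upwards [h3.eventually h2] with z hz
    exact hz

theorem reg0_ext0 [T2Space X] {e : Ch X} (he : e ∈ atlas C2 X) {u : C2 → ℂ}
    (hus : ContDiff ℝ ∞ u) (hu : HasCompactSupport u) (hut : tsupport u ⊆ e.target) :
    Reg0 ∞ 0 (ext0 e u) := by
  rw [reg0_iff]
  intro x
  have key : ∀ e' ∈ atlas C2 X, x ∈ e'.source → ContDiffAt ℝ ∞ (loc0 0 e' (ext0 e u)) (e' x) →
      ContDiffAt ℝ ∞ (loc0 0 (chartAt C2 x) (ext0 e u)) (chartAt C2 x x) := fun e' he' hx' h =>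
    loc0_contDiffAt_change (chart_mem_atlas C2 x) he' (mem_chart_source C2 x) hx' h
  by_cases hx : x ∈ e.source
  · apply key e he hx
    rw [LB.loc0_zero]
    refine (hus.contDiffAt (x := e x)).congr_of_eventuallyEq ?_
    filter_upwards [e.open_target.mem_nhds (e.map_source hx)] with z hz
    exact ext0_symm hz
  · apply key _ (chart_mem_atlas C2 x) (mem_chart_source C2 x)
    rw [LB.loc0_zero]
    have h1 : x ∉ tsupport (ext0 e u) := fun h => hx (tsupport_ext0_subset hu hut h)
    have h2 : ext0 e u =ᶠ[𝓝 x] 0 := notMem_tsupport_iff_eventuallyEq.1 h1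
    have h3 : Tendsto (chartAt C2 x).symm (𝓝 (chartAt C2 x x)) (𝓝 x) := by
      have := (chartAt C2 x).continuousAt_symm (mem_chart_target C2 x)
      rw [ContinuousAt, (chartAt C2 x).left_inv (mem_chart_source C2 x)] at this
      exact this
    refine (contDiffAt_const (c := (0 : ℂ))).congr_of_eventuallyEq ?_
    filter_upwards [h3.eventually h2] with z hz
    exact hz

variable [T2Space X]

/-- a bump function at a point -/
theorem exists_bump_at {U : Set X} (hU : IsOpen U) {x : X} (hx : x ∈ U) :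
    ∃ χ : X → ℝ, RSm χ ∧ HasCompactSupport χ ∧ tsupport χ ⊆ (chartAt C2 x).source ∩ U ∧
      (∀ y, 0 ≤ χ y ∧ χ y ≤ 1) ∧ ∀ᶠ y in 𝓝 x, χ y = 1 := by
  set e := chartAt C2 x with he
  have hxs : x ∈ e.source := mem_chart_source C2 x
  have hW : IsOpen (e.target ∩ e.symm ⁻¹' U) := e.symm.isOpen_inter_preimage hU
  have hxW : e x ∈ e.target ∩ e.symm ⁻¹' U :=
    ⟨e.map_source hxs, by simpa [e.left_inv hxs] using hx⟩
  obtain ⟨r, hr, hball⟩ := Metric.nhds_basis_closedBall.mem_iff.1 (hW.mem_nhds hxW)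
  let f : ContDiffBump (e x) := ⟨r / 2, r, by positivity, by linarith⟩
  have hcs : HasCompactSupport (f : C2 → ℝ) := f.hasCompactSupport
  have hts : tsupport (f : C2 → ℝ) ⊆ e.target ∩ e.symm ⁻¹' U := by
    rw [f.tsupport_eq]
    exact hball
  have hts' : tsupport (f : C2 → ℝ) ⊆ e.target := hts.trans inter_subset_left
  refine ⟨ext0 e f, rsm_ext0 (chart_mem_atlas C2 x) f.contDiff hcs hts',
    hasCompactSupport_ext0 hcs hts', ?_, ?_, ?_⟩
  · refine (tsupport_ext0 hcs hts').trans ?_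
    rintro _ ⟨z, hz, rfl⟩
    exact ⟨e.map_target (hts' hz), (hts hz).2⟩
  · intro y
    by_cases hy : y ∈ e.source
    · rw [ext0_of_mem hy]
      exact ⟨f.nonneg, f.le_one⟩
    · rw [ext0_of_notMem hy]
      exact ⟨le_refl _, zero_le_one⟩
  · have h1 : ∀ᶠ z in 𝓝 (e x), f z = 1 := f.eventuallyEq_one
    have h2 : Tendsto e (𝓝 x) (𝓝 (e x)) := e.continuousAt hxs
    filter_upwards [h2.eventually h1, e.open_source.mem_nhds hxs] with y hy hys
    rw [ext0_of_mem hys, hy]

theorem exists_smooth_family {K U : Set X} (hK : IsCompact K) (hU : IsOpen U) (hKU : K ⊆ U) :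
    ∃ (N : ℕ) (e : Fin N → Ch X) (ρ : Fin N → X → ℝ), (∀ i, e i ∈ atlas C2 X) ∧
      (∀ i, RSm (ρ i)) ∧ (∀ i, HasCompactSupport (ρ i)) ∧
      (∀ i, tsupport (ρ i) ⊆ (e i).source ∩ U) ∧ (∀ i x, 0 ≤ ρ i x) ∧
      (∀ x, ∑ i, ρ i x ≤ 1) ∧ ∀ᶠ x in 𝓝ˢ K, ∑ i, ρ i x = 1 := by
  classical
  have hb : ∀ x : K, ∃ χ : X → ℝ, RSm χ ∧ HasCompactSupport χ ∧
      tsupport χ ⊆ (chartAt C2 (x : X)).source ∩ U ∧
      (∀ y, 0 ≤ χ y ∧ χ y ≤ 1) ∧ ∀ᶠ y in 𝓝 (x : X), χ y = 1 := fun x =>
    exists_bump_at hU (hKU x.2)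
  choose χ h1 h2 h3 h4 h5 using hb
  obtain ⟨t, ht⟩ := hK.elim_nhds_subcover' (fun x hx => interior {y | χ ⟨x, hx⟩ y = 1})
    (fun x hx => interior_mem_nhds.2 (h5 ⟨x, hx⟩))
  let g : Fin t.card → K := fun i => (t.equivFin.symm i : t)
  let ρ : Fin t.card → X → ℝ := fun i x => χ (g i) x * ∏ j ∈ Finset.univ.filter (· < i), (1 - χ (g j) x)
  have hsum : ∀ x, ∑ i, ρ i x = 1 - ∏ i, (1 - χ (g i) x) := by
    intro x
    have := Finset.prod_one_sub_ordered (Finset.univ : Finset (Fin t.card)) (fun i => χ (g i) x)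
    rw [this]
    simp only [ρ]
    ring
  have h01 : ∀ i x, 0 ≤ 1 - χ (g i) x ∧ 1 - χ (g i) x ≤ 1 := by
    intro i x
    have := h4 (g i) x
    constructor <;> linarith [this.1, this.2]
  refine ⟨t.card, fun i => chartAt C2 (g i : X), ρ, fun i => chart_mem_atlas C2 _, ?_, ?_, ?_, ?_,
    ?_, ?_⟩
  · intro i
    exact (h1 (g i)).mul (RSm.prod _ fun j _ => (RSm.const 1).sub (h1 (g j)))
  · intro i
    exact (h2 (g i)).mul_right
  · intro i
    exact (tsupport_mul_subset_left).trans (h3 (g i))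
  · intro i x
    exact mul_nonneg (h4 (g i) x).1 (Finset.prod_nonneg fun j _ => (h01 j x).1)
  · intro x
    rw [hsum]
    have := Finset.prod_nonneg (s := (Finset.univ : Finset (Fin t.card)))
      (f := fun i => 1 - χ (g i) x) fun i _ => (h01 i x).1
    linarith
  · rw [eventually_nhdsSet_iff_forall]
    intro x hx
    obtain ⟨y, hyt, hxy⟩ := mem_iUnion₂.1 (ht hx)
    have hev : ∀ᶠ z in 𝓝 x, χ ⟨y, y.2⟩ z = 1 := by
      have := isOpen_interior.mem_nhds hxy
      exact mem_of_superset this interior_subset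
    filter_upwards [hev] with z hz
    rw [hsum]
    have hi : g (t.equivFin ⟨y, hyt⟩) = y := by
      simp [g]
    have h0 : ∏ i, (1 - χ (g i) z) = 0 := by
      apply Finset.prod_eq_zero (Finset.mem_univ (t.equivFin ⟨y, hyt⟩))
      rw [hi]
      have : χ y z = 1 := hz
      rw [this, sub_self]
    rw [h0, sub_zero]

theorem exists_cutoff {K U : Set X} (hK : IsCompact K) (hU : IsOpen U) (hKU : K ⊆ U) :
    ∃ χ : X → ℝ, RSm χ ∧ HasCompactSupport χ ∧ tsupport χ ⊆ U ∧ (∀ x, 0 ≤ χ x ∧ χ x ≤ 1) ∧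
      ∀ᶠ x in 𝓝ˢ K, χ x = 1 := by
  obtain ⟨N, e, ρ, he, hρ, hc, hs, h0, h1, hK1⟩ := exists_smooth_family hK hU hKU
  refine ⟨fun x => ∑ i, ρ i x, RSm.sum _ fun i _ => hρ i, ?_, ?_, fun x =>
    ⟨Finset.sum_nonneg fun i _ => h0 i x, h1 x⟩, hK1⟩
  · have hcomp : IsCompact (⋃ i, tsupport (ρ i)) := isCompact_iUnion fun i => hc i
    refine hcomp.of_isClosed_subset (isClosed_tsupport _) (closure_minimal ?_ hcomp.isClosed)
    intro x hx
    have : ∑ i, ρ i x ≠ 0 := hx
    obtain ⟨i, _, hi⟩ := Finset.exists_ne_zero_of_sum_ne_zero this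
    exact mem_iUnion.2 ⟨i, subset_tsupport _ hi⟩
  · have hcomp : IsCompact (⋃ i, tsupport (ρ i)) := isCompact_iUnion fun i => hc i
    refine (closure_minimal ?_ hcomp.isClosed).trans (iUnion_subset fun i => (hs i).trans
      inter_subset_right)
    intro x hx
    have : ∑ i, ρ i x ≠ 0 := hx
    obtain ⟨i, _, hi⟩ := Finset.exists_ne_zero_of_sum_ne_zero this
    exact mem_iUnion.2 ⟨i, subset_tsupport _ hi⟩

/-! ### existence and uniqueness of the integral -/

theorem exists_isFam {K : Set X} (hK : IsCompact K) :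
    ∃ (N : ℕ) (e : Fin N → Ch X) (ρ : Fin N → X → ℝ), IsFam K e ρ := by
  obtain ⟨N, e, ρ, he, hρ, hc, hs, h0, h1, hK1⟩ :=
    exists_smooth_family hK isOpen_univ (subset_univ K)
  exact ⟨N, e, ρ, he, fun i => (hρ i).continuous, hc, fun i => (hs i).trans inter_subset_left,
    fun x hx => Eventually.self_of_nhdsSet hK1 x hx⟩

theorem exists_hasInt {b : X → ℂ} (hb : LocInt b) (hc : HasCompactSupport b) :
    ∃ I, HasInt b I := by
  obtain ⟨N, e, ρ, h⟩ := exists_isFam (X := X) hc
  exact ⟨_, h.hasInt hb⟩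

theorem hasInt_unique {b : X → ℂ} (hc : HasCompactSupport b) {I J : ℂ} (hI : HasInt b I)
    (hJ : HasInt b J) : I = J := by
  obtain ⟨N, e, ρ, h⟩ := exists_isFam (X := X) hc
  rw [← hasInt_iff.1 hI N e ρ h, ← hasInt_iff.1 hJ N e ρ h]

theorem hasInt_intX {b : X → ℂ} (hb : LocInt b) (hc : HasCompactSupport b) :
    HasInt b (intX b) := by
  classical
  have h := exists_hasInt hb hc
  rw [intX, dif_pos h]
  exact h.choose_spec

theorem intX_eq_of_hasInt {b : X → ℂ} (hc : HasCompactSupport b) {I : ℂ} (h : HasInt b I) :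
    intX b = I := by
  classical
  have h' : ∃ I, HasInt b I := ⟨I, h⟩
  rw [intX, dif_pos h']
  exact hasInt_unique hc h'.choose_spec h

/-- the integral with any family -/
theorem intX_eq_sum {b : X → ℂ} (hb : LocInt b) (hc : HasCompactSupport b) {N : ℕ}
    {e : Fin N → Ch X} {ρ : Fin N → X → ℝ} (h : IsFam (tsupport b) e ρ) :
    intX b = ∑ i, piece (e i) (ρ i) b := intX_eq_of_hasInt hc (h.hasInt hb)

/-- one chart -/
theorem intX_chart {b : X → ℂ} (hb : LocInt b) (hc : HasCompactSupport b) {e : Ch X}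
    (he : e ∈ atlas C2 X) (hs : tsupport b ⊆ e.source) :
    intX b = ∫ z in e.target, 4 * loc2 1 e b z := by
  obtain ⟨χ, h1, h2, h3, h4, h5⟩ := exists_cutoff (X := X) hc e.open_source hs
  have hK : ∀ x ∈ tsupport b, χ x = 1 := fun x hx => Eventually.self_of_nhdsSet h5 x hx
  have hf : IsFam (tsupport b) (fun _ : Fin 1 => e) (fun _ => χ) :=
    ⟨fun _ => he, fun _ => h1.continuous, fun _ => h2, fun _ => h3, fun x hx => by simp [hK x hx]⟩
  rw [intX_eq_sum hb hc hf]
  simp only [Finset.univ_unique, Finset.sum_const, Finset.card_singleton, one_smul, piece]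
  congr 1
  funext z
  by_cases h : b (e.symm z) = 0
  · rw [loc2_eq_zero h]
    simp
  · rw [hK _ (subset_tsupport _ h)]
    simp

theorem intX_add {b b' : X → ℂ} (hb : LocInt b) (hc : HasCompactSupport b) (hb' : LocInt b')
    (hc' : HasCompactSupport b') : intX (fun x => b x + b' x) = intX b + intX b' := by
  obtain ⟨N, e, ρ, h⟩ := exists_isFam (X := X) (hc.union hc')
  have h1 : IsFam (tsupport b) e ρ :=
    ⟨h.mem, h.cont, h.cpt, h.sub, fun x hx => h.sum x (Or.inl hx)⟩
  have h2 : IsFam (tsupport b') e ρ :=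
    ⟨h.mem, h.cont, h.cpt, h.sub, fun x hx => h.sum x (Or.inr hx)⟩
  have h3 : IsFam (tsupport fun x => b x + b' x) e ρ :=
    ⟨h.mem, h.cont, h.cpt, h.sub, fun x hx => h.sum x (tsupport_add b b' hx)⟩
  rw [intX_eq_sum hb hc h1, intX_eq_sum hb' hc' h2, intX_eq_sum (hb.add hb') (hc.add hc') h3,
    ← Finset.sum_add_distrib]
  exact Finset.sum_congr rfl fun i _ =>
    piece_add (h.mem i) (h.cont i) (h.cpt i) (h.sub i) hb hb'

@[simp] theorem intX_zero : intX (fun _ : X => (0 : ℂ)) = 0 := by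
  have hc : HasCompactSupport (fun _ : X => (0 : ℂ)) := HasCompactSupport.zero
  apply intX_eq_of_hasInt hc
  rw [hasInt_iff]
  intro N e ρ h
  apply Finset.sum_eq_zero
  intro i _
  simp [piece, loc2]

theorem intX_const_mul {b : X → ℂ} (hb : LocInt b) (hc : HasCompactSupport b) (c : ℂ) :
    intX (fun x => c * b x) = c * intX b := by
  obtain ⟨N, e, ρ, h⟩ := exists_isFam (X := X) hc
  have h3 : IsFam (tsupport fun x => c * b x) e ρ :=
    ⟨h.mem, h.cont, h.cpt, h.sub, fun x hx => h.sum x (tsupport_mul_subset_right hx)⟩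
  rw [intX_eq_sum hb hc h, intX_eq_sum (hb.const_mul c) hc.mul_left h3, Finset.mul_sum]
  exact Finset.sum_congr rfl fun i _ => piece_const_mul _ _ _ _

theorem intX_neg {b : X → ℂ} (hb : LocInt b) (hc : HasCompactSupport b) :
    intX (fun x => -b x) = -intX b := by
  have := intX_const_mul hb hc (-1)
  simpa using this

theorem intX_sub {b b' : X → ℂ} (hb : LocInt b) (hc : HasCompactSupport b) (hb' : LocInt b')
    (hc' : HasCompactSupport b') : intX (fun x => b x - b' x) = intX b - intX b' := by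
  have h1 : HasCompactSupport fun x => -b' x := by
    have := hc'.neg
    exact this
  have := intX_add hb hc hb'.neg h1
  rw [intX_neg hb' hc'] at this
  simpa [sub_eq_add_neg] using this

theorem hasCompactSupport_sum {ι : Type*} (s : Finset ι) {b : ι → X → ℂ}
    (hc : ∀ i ∈ s, HasCompactSupport (b i)) : HasCompactSupport fun x => ∑ i ∈ s, b i x := by
  classical
  induction s using Finset.induction_on with
  | empty =>
    simp only [Finset.sum_empty]
    exact HasCompactSupport.zero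
  | insert i s hi ih =>
    simp only [Finset.sum_insert hi]
    exact (hc i (by simp)).add (ih fun k hk => hc k (by simp [hk]))

theorem intX_sum {ι : Type*} (s : Finset ι) {b : ι → X → ℂ} (hb : ∀ i ∈ s, LocInt (b i))
    (hc : ∀ i ∈ s, HasCompactSupport (b i)) :
    intX (fun x => ∑ i ∈ s, b i x) = ∑ i ∈ s, intX (b i) := by
  classical
  induction s using Finset.induction_on with
  | empty => simp
  | insert i s hi ih =>
    simp only [Finset.sum_insert hi]
    rw [intX_add (hb i (by simp)) (hc i (by simp)) (locInt_sum s fun k hk => hb k (by simp [hk]))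
      (hasCompactSupport_sum s fun k hk => hc k (by simp [hk])),
      ih (fun k hk => hb k (by simp [hk])) (fun k hk => hc k (by simp [hk]))]

end mfd

end Vale.Agent.P267.H533
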