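import Vale.Agent.P267.H533.Bump

/-!
# P267 / H533: Stokes' theorem in the language of `FL`
-/

set_option linter.unusedVariables false
set_option linter.unusedSectionVars false

open scoped Manifold ContDiff ComplexConjugate Matrix ComplexOrder
open MeasureTheory Set Filter Topology

noncomputable section

namespace Vale.Agent.P267.H533

open FL

/-! ### the model space -/

section model

variable {V : Type*} [NormedAddCommGroup V] [NormedSpace ℂ V]

theorem integral_fderiv_zero {F : C2 → V} (hF : ContDiff ℝ 1 F) (hc : HasCompactSupport F)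
    (v : C2) : ∫ z, fderiv ℝ F z v = 0 := by
  have hcd : Continuous fun z => fderiv ℝ F z v :=
    (hF.continuous_fderiv (by norm_num)).clm_apply continuous_const
  have hcc : HasCompactSupport fun z => fderiv ℝ F z v := hc.fderiv_apply ℝ v
  have h1 : Integrable (fun z : C2 => (1 : ℝ) • fderiv ℝ F z v) := by
    simpa using hcd.integrable_of_hasCompactSupport hcc
  have h2 : Integrable (fun z : C2 => fderiv ℝ (fun _ : C2 => (1 : ℝ)) z v • F z) := by
    simp
  have h3 : Integrable (fun z : C2 => (1 : ℝ) • F z) := by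
    simpa using hF.continuous.integrable_of_hasCompactSupport hc
  have h := integral_smul_fderiv_eq_neg_fderiv_smul_of_integrable (𝕜 := ℝ) (μ := volume)
    (f := fun _ : C2 => (1 : ℝ)) (g := F) (v := v) h2 h1 h3
    (fun x _ => differentiableAt_const _) (fun x _ => hF.differentiable (by norm_num) x)
  simpa using h

theorem integral_dz_zero {F : C2 → V} (hF : ContDiff ℝ 1 F) (hc : HasCompactSupport F)
    (j : Fin 2) : ∫ z, dz j F z = 0 := by
  have hcd : ∀ v : C2, Integrable fun z => fderiv ℝ F z v := fun v =>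
    ((hF.continuous_fderiv (by norm_num)).clm_apply
      continuous_const).integrable_of_hasCompactSupport (hc.fderiv_apply ℝ v)
  have hI : Integrable fun z => Complex.I • fderiv ℝ F z (Pi.single j Complex.I) :=
    (hcd _).smul Complex.I
  unfold dz
  rw [integral_smul, integral_sub (hcd _) hI, integral_smul,
    integral_fderiv_zero hF hc, integral_fderiv_zero hF hc]
  simp

theorem integral_dzb_zero {F : C2 → V} (hF : ContDiff ℝ 1 F) (hc : HasCompactSupport F)
    (j : Fin 2) : ∫ z, dzb j F z = 0 := by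
  have hcd : ∀ v : C2, Integrable fun z => fderiv ℝ F z v := fun v =>
    ((hF.continuous_fderiv (by norm_num)).clm_apply
      continuous_const).integrable_of_hasCompactSupport (hc.fderiv_apply ℝ v)
  have hI : Integrable fun z => Complex.I • fderiv ℝ F z (Pi.single j Complex.I) :=
    (hcd _).smul Complex.I
  unfold dzb
  rw [integral_smul, integral_add (hcd _) hI, integral_smul,
    integral_fderiv_zero hF hc, integral_fderiv_zero hF hc]
  simp

theorem indicator_eventuallyEq {T : Set C2} (hT : IsOpen T) (F : C2 → V) {z : C2} (hz : z ∈ T) :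
    T.indicator F =ᶠ[𝓝 z] F := by
  filter_upwards [hT.mem_nhds hz] with y hy
  exact indicator_of_mem hy F

theorem contDiff_indicator {T K : Set C2} (hT : IsOpen T) (hK : IsCompact K) (hKT : K ⊆ T)
    {n : WithTop ℕ∞} {F : C2 → V} (hF : ContDiffOn ℝ n F T) (h0 : ∀ z ∈ T, z ∉ K → F z = 0) :
    ContDiff ℝ n (T.indicator F) := by
  rw [contDiff_iff_contDiffAt]
  intro z
  by_cases hz : z ∈ T
  · exact (hF.contDiffAt (hT.mem_nhds hz)).congr_of_eventuallyEq (indicator_eventuallyEq hT F hz)
  · have hzK : z ∈ Kᶜ := fun h => hz (hKT h)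
    refine (contDiffAt_const (c := (0 : V))).congr_of_eventuallyEq ?_
    filter_upwards [hK.isClosed.isOpen_compl.mem_nhds hzK] with y hy
    by_cases hyT : y ∈ T
    · rw [indicator_of_mem hyT, h0 y hyT hy]
    · rw [indicator_of_notMem hyT]

theorem hasCompactSupport_indicator {T K : Set C2} (hK : IsCompact K)
    {F : C2 → V} (h0 : ∀ z ∈ T, z ∉ K → F z = 0) : HasCompactSupport (T.indicator F) := by
  refine hK.of_isClosed_subset (isClosed_tsupport _) (closure_minimal ?_ hK.isClosed)
  intro z hz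
  by_contra hzK
  apply hz
  by_cases hzT : z ∈ T
  · rw [indicator_of_mem hzT, h0 z hzT hzK]
  · rw [indicator_of_notMem hzT]

theorem tsupport_indicator {T K : Set C2} (hK : IsCompact K)
    {F : C2 → V} (h0 : ∀ z ∈ T, z ∉ K → F z = 0) : tsupport (T.indicator F) ⊆ K := by
  refine closure_minimal ?_ hK.isClosed
  intro z hz
  by_contra hzK
  apply hz
  by_cases hzT : z ∈ T
  · rw [indicator_of_mem hzT, h0 z hzT hzK]
  · rw [indicator_of_notMem hzT]

theorem setIntegral_dz_zero {T K : Set C2} (hT : IsOpen T) (hK : IsCompact K) (hKT : K ⊆ T)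
    {F : C2 → V} (hF : ContDiffOn ℝ 1 F T) (h0 : ∀ z ∈ T, z ∉ K → F z = 0) (j : Fin 2) :
    ∫ z in T, dz j F z = 0 := by
  have hs := contDiff_indicator hT hK hKT hF h0
  have hc := hasCompactSupport_indicator hK h0
  rw [← integral_dz_zero hs hc j]
  have h1 : ∫ z in T, dz j F z = ∫ z in T, dz j (T.indicator F) z :=
    setIntegral_congr_fun hT.measurableSet fun z hz =>
      (dz_congr (indicator_eventuallyEq hT F hz) j).symm
  rw [h1]
  apply setIntegral_eq_integral_of_forall_compl_eq_zero
  intro z hz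
  have h2 : T.indicator F =ᶠ[𝓝 z] fun _ => 0 := by
    have : z ∉ tsupport (T.indicator F) := fun h => hz (hKT (tsupport_indicator hK h0 h))
    exact notMem_tsupport_iff_eventuallyEq.1 this
  rw [dz_congr h2, dz_const]

theorem setIntegral_dzb_zero {T K : Set C2} (hT : IsOpen T) (hK : IsCompact K) (hKT : K ⊆ T)
    {F : C2 → V} (hF : ContDiffOn ℝ 1 F T) (h0 : ∀ z ∈ T, z ∉ K → F z = 0) (j : Fin 2) :
    ∫ z in T, dzb j F z = 0 := by
  have hs := contDiff_indicator hT hK hKT hF h0
  have hc := hasCompactSupport_indicator hK h0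
  rw [← integral_dzb_zero hs hc j]
  have h1 : ∫ z in T, dzb j F z = ∫ z in T, dzb j (T.indicator F) z :=
    setIntegral_congr_fun hT.measurableSet fun z hz =>
      (dzb_congr (indicator_eventuallyEq hT F hz) j).symm
  rw [h1]
  apply setIntegral_eq_integral_of_forall_compl_eq_zero
  intro z hz
  have h2 : T.indicator F =ᶠ[𝓝 z] fun _ => 0 := by
    have : z ∉ tsupport (T.indicator F) := fun h => hz (hKT (tsupport_indicator hK h0 h))
    exact notMem_tsupport_iff_eventuallyEq.1 this
  rw [dzb_congr h2, dzb_const]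

/-- integrability of derivatives of functions vanishing off a compact set -/
theorem integrableOn_of_cont {T K : Set C2} (hT : IsOpen T) (hK : IsCompact K) (hKT : K ⊆ T)
    {F : C2 → V} (hF : ContinuousOn F T) (h0 : ∀ z ∈ T, z ∉ K → F z = 0) :
    IntegrableOn F T := by
  have h1 : IntegrableOn F K := (hF.mono hKT).integrableOn_compact hK
  exact h1.of_forall_sdiff_eq_zero hT.measurableSet fun z hz => h0 z hz.1 hz.2

end model

/-! ### manifolds -/

variable {X : Type*} [TopologicalSpace X] [ChartedSpace C2 X]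
variable {V : Type*} [NormedAddCommGroup V] [NormedSpace ℂ V]

theorem loc1_mul' (κ : ℤ) (e : Ch X) (f : X → ℂ) (a : X → Fin 2 → V) :
    loc1 κ e (fun x i => f x • a x i) = fun z i => f (e.symm z) • loc1 κ e a z i := by
  funext z i
  simp only [loc1, Finset.smul_sum, smul_smul]
  refine Finset.sum_congr rfl fun p _ => ?_
  congr 1
  ring

theorem loc1_add' (κ : ℤ) (e : Ch X) (a b : X → Fin 2 → V) :
    loc1 κ e (fun x i => a x i + b x i) = fun z i => loc1 κ e a z i + loc1 κ e b z i := by
  funext z i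
  simp only [loc1, smul_add, Finset.sum_add_distrib]

theorem loc1_sum' {ι : Type*} (s : Finset ι) (κ : ℤ) (e : Ch X) (a : ι → X → Fin 2 → V) :
    loc1 κ e (fun x i => ∑ k ∈ s, a k x i) = fun z i => ∑ k ∈ s, loc1 κ e (a k) z i := by
  funext z i
  simp only [loc1, Finset.smul_sum]
  rw [Finset.sum_comm]

theorem loc1_eq_zero {κ : ℤ} {e : Ch X} {a : X → Fin 2 → V} {z : C2} (h : a (e.symm z) = 0) :
    loc1 κ e a z = 0 := by
  funext i
  simp [loc1, h]

section mfd

variable [IsManifold 𝓘(ℂ, C2) ω X]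

theorem contDiffOn_loc1 {n : WithTop ℕ∞} {κ : ℤ} {a : X → Fin 2 → V} (ha : Reg1 n κ a) {e : Ch X}
    (he : e ∈ atlas C2 X) (i : Fin 2) : ContDiffOn ℝ n (fun z => loc1 κ e a z i) e.target :=
  contDiffOn_pi.1 (ha e he) i

theorem reg1_smul {κ : ℤ} {n : WithTop ℕ∞} {f : X → ℂ} (hf : Reg0 n 0 f) {a : X → Fin 2 → V}
    (ha : Reg1 n κ a) : Reg1 n κ (fun x i => f x • a x i) := by
  intro e he
  rw [loc1_mul', contDiffOn_pi]
  intro i
  have h1 := hf e he
  rw [LB.loc0_zero] at h1
  exact h1.smul (contDiffOn_loc1 ha he i)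

theorem dbar1_congr {κ : ℤ} {a b : X → Fin 2 → V} {x : X} (h : a =ᶠ[𝓝 x] b) :
    dbar1 κ a x = dbar1 κ b x := by
  have h3 : Tendsto (chartAt C2 x).symm (𝓝 (chartAt C2 x x)) (𝓝 x) := by
    have := (chartAt C2 x).continuousAt_symm (mem_chart_target C2 x)
    rw [ContinuousAt, (chartAt C2 x).left_inv (mem_chart_source C2 x)] at this
    exact this
  have h4 : ∀ i, (fun z => loc1 κ (chartAt C2 x) a z i) =ᶠ[𝓝 (chartAt C2 x x)]
      fun z => loc1 κ (chartAt C2 x) b z i := by
    intro i
    filter_upwards [h3.eventually h] with z hz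
    have : a ((chartAt C2 x).symm z) = b ((chartAt C2 x).symm z) := hz
    simp only [loc1, this]
  unfold dbar1
  rw [dzb_congr (h4 1), dzb_congr (h4 0)]

theorem dbar1_zero' (κ : ℤ) (x : X) : dbar1 κ (fun (_ : X) (_ : Fin 2) => (0 : V)) x = 0 := by
  unfold dbar1
  have : ∀ i, (fun z => loc1 κ (chartAt C2 x) (fun (_ : X) (_ : Fin 2) => (0 : V)) z i) =
      fun _ => 0 := by
    intro i
    funext z
    simp [loc1]
  rw [this, this]
  simp

theorem tsupport_dbar1 {κ : ℤ} {a : X → Fin 2 → V} : tsupport (dbar1 κ a) ⊆ tsupport a := by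
  refine closure_minimal ?_ (isClosed_tsupport _)
  intro x hx
  by_contra h
  apply hx
  have h1 : a =ᶠ[𝓝 x] fun _ _ => 0 := notMem_tsupport_iff_eventuallyEq.1 h
  rw [dbar1_congr h1, dbar1_zero']

theorem hasCompactSupport_dbar1 {κ : ℤ} {a : X → Fin 2 → V} (hc : HasCompactSupport a) :
    HasCompactSupport (dbar1 κ a) :=
  IsCompact.of_isClosed_subset hc (isClosed_tsupport _) tsupport_dbar1

theorem dbar1_cont {κ : ℤ} {a : X → Fin 2 → ℂ} (ha : Reg1 1 κ a) {e : Ch X}
    (he : e ∈ atlas C2 X) : ContinuousOn (loc2 κ e (dbar1 κ a)) e.target := by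
  have h1 : EqOn (loc2 κ e (dbar1 κ a)) (fun z => dzb 0 (fun y => loc1 κ e a y 1) z -
      dzb 1 (fun y => loc1 κ e a y 0) z) e.target := by
    intro z hz
    exact loc2_dbar1 he hz ((ha.contDiffAt he hz).differentiableAt (by norm_num))
  refine ContinuousOn.congr ?_ h1
  have h2 := contDiffOn_dzb (m := 0) e.open_target (contDiffOn_loc1 ha he 1) (by norm_num) 0
  have h3 := contDiffOn_dzb (m := 0) e.open_target (contDiffOn_loc1 ha he 0) (by norm_num) 1
  exact h2.continuousOn.sub h3.continuousOn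

theorem locInt_dbar1 {a : X → Fin 2 → ℂ} (ha : Reg1 1 1 a) : LocInt (dbar1 1 a) :=
  locInt_of_cont fun e he => dbar1_cont ha he

/-- Stokes in one chart -/
theorem intX_dbar1_chart [T2Space X] {a : X → Fin 2 → ℂ} (ha : Reg1 1 1 a)
    (hc : HasCompactSupport a) {e : Ch X} (he : e ∈ atlas C2 X) (hs : tsupport a ⊆ e.source) :
    intX (dbar1 1 a) = 0 := by
  rw [intX_chart (locInt_dbar1 ha) (hasCompactSupport_dbar1 hc) he (tsupport_dbar1.trans hs)]
  have hK : IsCompact (e '' tsupport a) :=
    IsCompact.image_of_continuousOn hc (e.continuousOn.mono hs)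
  have hKT : e '' tsupport a ⊆ e.target := by
    rintro _ ⟨x, hx, rfl⟩
    exact e.map_source (hs hx)
  have h0 : ∀ i, ∀ z ∈ e.target, z ∉ e '' tsupport a → loc1 1 e a z i = 0 := by
    intro i z hz hzK
    have : a (e.symm z) = 0 := by
      by_contra h
      exact hzK ⟨e.symm z, subset_tsupport _ h, e.right_inv hz⟩
    rw [loc1_eq_zero this]
    rfl
  have hd : ∀ i j, ∫ z in e.target, dzb j (fun y => loc1 1 e a y i) z = 0 := fun i j =>
    setIntegral_dzb_zero e.open_target hK hKT (contDiffOn_loc1 ha he i) (h0 i) j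
  have hi : ∀ i j, IntegrableOn (dzb j (fun y => loc1 1 e a y i)) e.target := by
    intro i j
    refine integrableOn_of_cont e.open_target hK hKT
      (contDiffOn_dzb (m := 0) e.open_target (contDiffOn_loc1 ha he i) (by norm_num) j).continuousOn
      ?_
    intro z hz hzK
    have h2 : (fun y => loc1 1 e a y i) =ᶠ[𝓝 z] fun _ => 0 := by
      filter_upwards [hK.isClosed.isOpen_compl.mem_nhds hzK, e.open_target.mem_nhds hz] with y hy hy'
      exact h0 i y hy' hy
    rw [dzb_congr h2, dzb_const]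
  have h1 : ∫ z in e.target, 4 * loc2 1 e (dbar1 1 a) z =
      ∫ z in e.target, 4 * (dzb 0 (fun y => loc1 1 e a y 1) z -
        dzb 1 (fun y => loc1 1 e a y 0) z) := by
    refine setIntegral_congr_fun e.open_target.measurableSet fun z hz => ?_
    rw [loc2_dbar1 he hz ((ha.contDiffAt he hz).differentiableAt (by norm_num))]
  rw [h1, integral_const_mul, integral_sub (hi 1 0) (hi 0 1), hd, hd]
  simp

theorem dbar1_sum {κ : ℤ} {ι : Type*} (s : Finset ι) {a : ι → X → Fin 2 → V}
    (ha : ∀ k ∈ s, Reg1 1 κ (a k)) (x : X) :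
    dbar1 κ (fun y i => ∑ k ∈ s, a k y i) x = ∑ k ∈ s, dbar1 κ (a k) x := by
  unfold dbar1
  rw [loc1_sum']
  have hd : ∀ k ∈ s, ∀ i, DifferentiableAt ℝ (fun z => loc1 κ (chartAt C2 x) (a k) z i)
      (chartAt C2 x x) := fun k hk i =>
    (((contDiffOn_loc1 (ha k hk) (chart_mem_atlas C2 x) i).contDiffAt
      ((chartAt C2 x).open_target.mem_nhds (mem_chart_target C2 x))).differentiableAt
        (by norm_num))
  rw [dzb_sum s fun k hk => hd k hk 1, dzb_sum s fun k hk => hd k hk 0, Finset.sum_sub_distrib]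

/-- **Stokes**: the integral of `∂̄` of a compactly supported `(2,1)`-form of class `C¹` is zero -/
theorem intX_dbar1 [T2Space X] {a : X → Fin 2 → ℂ} (ha : Reg1 1 1 a)
    (hc : HasCompactSupport a) : intX (dbar1 1 a) = 0 := by
  obtain ⟨N, e, ρ, he, hρ, hρc, hρs, h0, h1, hK1⟩ :=
    exists_smooth_family (X := X) hc isOpen_univ (subset_univ _)
  have hsum : a = fun y i => ∑ k, ((ρ k y : ℝ) : ℂ) • a y i := by
    funext y i
    by_cases hy : y ∈ tsupport a
    · have : ∑ k, ρ k y = 1 := Eventually.self_of_nhdsSet hK1 y hy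
      rw [← Finset.sum_smul, ← Complex.ofReal_sum, this]
      simp
    · rw [image_eq_zero_of_notMem_tsupport hy]
      simp
  have hr : ∀ k, Reg1 1 1 (fun y i => ((ρ k y : ℝ) : ℂ) • a y i) := fun k =>
    reg1_smul (fun e he => ((hρ k).reg e he).of_le (by exact_mod_cast le_top)) ha
  have hcc : ∀ k, HasCompactSupport (fun y i => ((ρ k y : ℝ) : ℂ) • a y i) := by
    intro k
    refine IsCompact.of_isClosed_subset hc (isClosed_tsupport _)
      (closure_mono ?_)
    intro y hy h
    apply hy
    funext i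
    have : a y = 0 := h
    simp [this]
  have hss : ∀ k, tsupport (fun y i => ((ρ k y : ℝ) : ℂ) • a y i) ⊆ (e k).source := by
    intro k
    refine Subset.trans (closure_mono ?_) ((hρs k).trans inter_subset_left)
    intro y hy h
    apply hy
    funext i
    have : ρ k y = 0 := h
    simp [this]
  have h2 : dbar1 1 a = fun x => ∑ k, dbar1 1 (fun y i => ((ρ k y : ℝ) : ℂ) • a y i) x := by
    funext x
    conv_lhs => rw [hsum]
    rw [dbar1_sum _ fun k _ => hr k]
  rw [h2, intX_sum _ (fun k _ => locInt_dbar1 (hr k)) fun k _ => hasCompactSupport_dbar1 (hcc k)]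
  exact Finset.sum_eq_zero fun k _ => intX_dbar1_chart (hr k) (hcc k) (he k) (hss k)

end mfd

end Vale.Agent.P267.H533
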