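import Vale.Agent.P267.H533.LamChart

/-!
# UNI-LAM, metric-free versions

A tuple of indices of a finite partition is *adjacent* if the closed supports of the corresponding
functions have a common point. This form applies to noncompact manifolds as well, where one member
of the partition is `1 - ∑ (others)`.
-/

open scoped BigOperators Topology

noncomputable section

namespace Vale.Agent.P267.H533

universe u

variable {X : Type u} {ι : Type*} [Fintype ι] [TopologicalSpace X] {A : Subalgebra ℝ (X → ℝ)}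
  (T : TopInt A) (P : Part A ι)

/-- `a₀,…,a_q` are adjacent: a common point of the closed supports -/
def Adj (P : Part A ι) {q : ℕ} (a : Fin (q + 1) → ι) : Prop :=
  ∃ x, ∀ i, x ∈ tsupport (P.ψ (a i) : X → ℝ)

variable {P}

lemma Adj.comp {q r : ℕ} {a : Fin (q + 1) → ι} (h : Adj P a) (f : Fin (r + 1) → Fin (q + 1)) :
    Adj P (fun i => a (f i)) := by
  obtain ⟨x, hx⟩ := h
  exact ⟨x, fun i => hx _⟩

/-- If `J` of a tuple of members does not vanish, their supports have a common point. -/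
lemma exists_common (f : A) (a1 a2 a3 a4 : ι)
    (h : T.J f (P.ψ a1) (P.ψ a2) (P.ψ a3) (P.ψ a4) ≠ 0) :
    ∃ x, x ∈ tsupport (f : X → ℝ) ∧ x ∈ tsupport (P.ψ a1 : X → ℝ) ∧
      x ∈ tsupport (P.ψ a2 : X → ℝ) ∧ x ∈ tsupport (P.ψ a3 : X → ℝ) ∧
      x ∈ tsupport (P.ψ a4 : X → ℝ) := by
  by_contra hcon
  apply h
  apply T.J_loc
  intro x
  by_cases h0 : x ∈ tsupport (f : X → ℝ)
  swap
  · exact Or.inl (by rw [notMem_tsupport_iff_eventuallyEq] at h0; exact h0)
  by_cases h1 : x ∈ tsupport (P.ψ a1 : X → ℝ)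
  swap
  · exact Or.inr (Or.inl ⟨0, by rw [notMem_tsupport_iff_eventuallyEq] at h1; exact h1⟩)
  by_cases h2 : x ∈ tsupport (P.ψ a2 : X → ℝ)
  swap
  · exact Or.inr (Or.inr (Or.inl ⟨0, by rw [notMem_tsupport_iff_eventuallyEq] at h2; exact h2⟩))
  by_cases h3 : x ∈ tsupport (P.ψ a3 : X → ℝ)
  swap
  · exact Or.inr (Or.inr (Or.inr (Or.inl
      ⟨0, by rw [notMem_tsupport_iff_eventuallyEq] at h3; exact h3⟩)))
  by_cases h4 : x ∈ tsupport (P.ψ a4 : X → ℝ)
  swap
  · exact Or.inr (Or.inr (Or.inr (Or.inr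
      ⟨0, by rw [notMem_tsupport_iff_eventuallyEq] at h4; exact h4⟩)))
  exact absurd ⟨x, h0, h1, h2, h3, h4⟩ hcon

/-- `lam F = 0` if `F` vanishes on the adjacent tuples of vertices. -/
theorem lam_eq_zero_adj {F : (Fin 5 → X) → ℝ}
    (hF : ∀ a : Fin 5 → ι, Adj P a → F (fun i => P.v (a i)) = 0) : lam T P F = 0 := by
  unfold lam
  refine Finset.sum_eq_zero fun a0 _ => Finset.sum_eq_zero fun a1 _ =>
    Finset.sum_eq_zero fun a2 _ => Finset.sum_eq_zero fun a3 _ => Finset.sum_eq_zero fun a4 _ => ?_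
  by_cases hJ : T.J (P.ψ a0) (P.ψ a1) (P.ψ a2) (P.ψ a3) (P.ψ a4) = 0
  · rw [hJ, mul_zero]
  · obtain ⟨x, h0, h1, h2, h3, h4⟩ := exists_common T _ _ _ _ _ hJ
    have key : Adj P ![a0, a1, a2, a3, a4] := by
      refine ⟨x, fun i => ?_⟩
      fin_cases i <;> assumption
    have := hF _ key
    have e : (fun i => P.v ((![a0, a1, a2, a3, a4] : Fin 5 → ι) i)) =
        ![P.v a0, P.v a1, P.v a2, P.v a3, P.v a4] := by
      ext i; fin_cases i <;> rfl
    rw [e] at this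
    rw [this, zero_mul]

theorem lam_congr_adj {F G : (Fin 5 → X) → ℝ}
    (hF : ∀ a : Fin 5 → ι, Adj P a → F (fun i => P.v (a i)) = G (fun i => P.v (a i))) :
    lam T P F = lam T P G := by
  have := lam_eq_zero_adj T (P := P) (F := F - G) (fun a ha => by
    rw [Pi.sub_apply, hF a ha, sub_self])
  rw [lam_sub] at this
  linarith

/-- `∫ W(f) ∧ W(g) = lam (f ∪ g)` for `g` closed on adjacent tuples of vertices. -/
theorem prodW_eq_lam_adj (f g : (Fin 3 → X) → ℝ)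
    (hg : ∀ a : Fin 4 → ι, Adj P a → dAS g (fun i => P.v (a i)) = 0) :
    prodW T P f g = lam T P (cup22 f g) := by
  have hterm : ∀ a0 a1 a2 b0 b1 b2 : ι,
      g ![P.v b0, P.v b1, P.v b2] *
        T.J (P.ψ a0 * P.ψ b0) (P.ψ a1) (P.ψ a2) (P.ψ b1) (P.ψ b2) =
      (g ![P.v a2, P.v b1, P.v b2] - g ![P.v a2, P.v b0, P.v b2] + g ![P.v a2, P.v b0, P.v b1]) *
        T.J (P.ψ a0 * P.ψ b0) (P.ψ a1) (P.ψ a2) (P.ψ b1) (P.ψ b2) := by
    intro a0 a1 a2 b0 b1 b2
    by_cases hJ : T.J (P.ψ a0 * P.ψ b0) (P.ψ a1) (P.ψ a2) (P.ψ b1) (P.ψ b2) = 0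
    · rw [hJ, mul_zero, mul_zero]
    · obtain ⟨x, h0, h1, h2, h3, h4⟩ := exists_common T _ _ _ _ _ hJ
      have hb0 : x ∈ tsupport (P.ψ b0 : X → ℝ) := by
        have : ((P.ψ a0 * P.ψ b0 : A) : X → ℝ) = (P.ψ a0 : X → ℝ) * (P.ψ b0 : X → ℝ) := rfl
        rw [this] at h0
        exact tsupport_mul_subset_right h0
      have key : Adj P ![a2, b0, b1, b2] := by
        refine ⟨x, fun i => ?_⟩
        fin_cases i <;> assumption
      have := hg _ key
      have e : (fun i => P.v ((![a2, b0, b1, b2] : Fin 4 → ι) i)) =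
          ![P.v a2, P.v b0, P.v b1, P.v b2] := by
        ext i; fin_cases i <;> rfl
      rw [e, dAS2] at this
      congr 1
      linarith
  have hsum : ∀ a0 a1 a2 : ι, ∑ b0, ∑ b1, ∑ b2, g ![P.v b0, P.v b1, P.v b2] *
        T.J (P.ψ a0 * P.ψ b0) (P.ψ a1) (P.ψ a2) (P.ψ b1) (P.ψ b2) =
      ∑ b1, ∑ b2, g ![P.v a2, P.v b1, P.v b2] *
        T.J (P.ψ a0) (P.ψ a1) (P.ψ a2) (P.ψ b1) (P.ψ b2) := by
    intro a0 a1 a2
    simp only [hterm a0 a1 a2]
    simp only [add_mul, sub_mul, Finset.sum_add_distrib, Finset.sum_sub_distrib]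
    have e1 : ∑ b0, ∑ b1, ∑ b2, g ![P.v a2, P.v b1, P.v b2] *
        T.J (P.ψ a0 * P.ψ b0) (P.ψ a1) (P.ψ a2) (P.ψ b1) (P.ψ b2) =
        ∑ b1, ∑ b2, g ![P.v a2, P.v b1, P.v b2] *
          T.J (P.ψ a0) (P.ψ a1) (P.ψ a2) (P.ψ b1) (P.ψ b2) := by
      rw [Finset.sum_comm]
      refine Finset.sum_congr rfl fun b1 _ => ?_
      rw [Finset.sum_comm]
      refine Finset.sum_congr rfl fun b2 _ => ?_
      rw [← Finset.mul_sum, ← T.J_sum0, ← Finset.mul_sum, P.sum_one, mul_one]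
    have e2 : ∑ b0, ∑ b1, ∑ b2, g ![P.v a2, P.v b0, P.v b2] *
        T.J (P.ψ a0 * P.ψ b0) (P.ψ a1) (P.ψ a2) (P.ψ b1) (P.ψ b2) = 0 := by
      refine Finset.sum_eq_zero fun b0 _ => ?_
      rw [Finset.sum_comm]
      refine Finset.sum_eq_zero fun b2 _ => ?_
      rw [← Finset.mul_sum, ← T.J_sum3, P.sum_one, T.J_one3, mul_zero]
    have e3 : ∑ b0, ∑ b1, ∑ b2, g ![P.v a2, P.v b0, P.v b1] *
        T.J (P.ψ a0 * P.ψ b0) (P.ψ a1) (P.ψ a2) (P.ψ b1) (P.ψ b2) = 0 := by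
      refine Finset.sum_eq_zero fun b0 _ => Finset.sum_eq_zero fun b1 _ => ?_
      rw [← Finset.mul_sum, ← T.J_sum4, P.sum_one, T.J_one4, mul_zero]
    rw [e1, e2, e3]
    ring
  unfold prodW lam
  refine Finset.sum_congr rfl fun a0 _ => Finset.sum_congr rfl fun a1 _ =>
    Finset.sum_congr rfl fun a2 _ => ?_
  simp only [← Finset.mul_sum]
  rw [hsum]
  simp only [Finset.mul_sum]
  refine Finset.sum_congr rfl fun b1 _ => Finset.sum_congr rfl fun b2 _ => ?_
  simp only [cup22]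
  rw [mul_assoc]
  rfl

/-- The value of `lam` on a truncated step cochain, metric-free form. `t_i` are step-like
functions; `Z i` is the region where the `i`-th function jumps. -/
theorem lam_trunc_step_adj (U : Set X) (h : Fin 4 → X → ℝ)
    (χ : A) (Z : Fin 4 → Set X) (t : Fin 4 → A)
    (H1 : ∀ a : Fin 5 → ι, (∀ i, P.v (a i) ∈ U) → stepCochain h (fun i => P.v (a i)) ≠ 0 →
      ∀ x, (∀ i, x ∈ tsupport (P.ψ (a i) : X → ℝ)) → ∀ᶠ y in 𝓝 x, (χ : X → ℝ) y = 1)
    (H2 : ∀ x ∈ tsupport (χ : X → ℝ), ∀ a, x ∈ tsupport (P.ψ a : X → ℝ) → P.v a ∈ U)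
    (H3 : ∀ x ∈ tsupport (χ : X → ℝ), ∀ i, x ∉ Z i → ∃ r : ℝ,
      (∀ᶠ y in 𝓝 x, (t i : X → ℝ) y = r) ∧
      (∀ a, x ∈ tsupport (P.ψ a : X → ℝ) → h i (P.v a) = r))
    (H4 : ∀ x, (∀ i, x ∈ Z i) → ∃ r : ℝ, ∀ᶠ y in 𝓝 x, (χ : X → ℝ) y = r) :
    lam T P (trunc U (stepCochain h)) = T.J χ (t 0) (t 1) (t 2) (t 3) := by
  rw [← J_step_unique T χ Z t (fun i => smoothed P (h i)) H4 ?_, ← sum_stepCochain]
  · unfold lam
    refine Finset.sum_congr rfl fun a0 _ => Finset.sum_congr rfl fun a1 _ =>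
      Finset.sum_congr rfl fun a2 _ => Finset.sum_congr rfl fun a3 _ =>
      Finset.sum_congr rfl fun a4 _ => ?_
    have e : (fun i => P.v ((![a0, a1, a2, a3, a4] : Fin 5 → ι) i)) =
        ![P.v a0, P.v a1, P.v a2, P.v a3, P.v a4] := by
      ext i; fin_cases i <;> rfl
    have hsplit : T.J (P.ψ a0) (P.ψ a1) (P.ψ a2) (P.ψ a3) (P.ψ a4) =
        T.J ((1 - χ) * P.ψ a0) (P.ψ a1) (P.ψ a2) (P.ψ a3) (P.ψ a4) +
        T.J (χ * P.ψ a0) (P.ψ a1) (P.ψ a2) (P.ψ a3) (P.ψ a4) := by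
      rw [← T.J_add0]
      congr 1
      ring
    have e1 : trunc U (stepCochain h) ![P.v a0, P.v a1, P.v a2, P.v a3, P.v a4] *
        T.J ((1 - χ) * P.ψ a0) (P.ψ a1) (P.ψ a2) (P.ψ a3) (P.ψ a4) = 0 := by
      by_contra hne
      have hJ := right_ne_zero_of_mul hne
      have hF := left_ne_zero_of_mul hne
      obtain ⟨x, h0, h1, h2, h3, h4⟩ := exists_common T _ _ _ _ _ hJ
      have hc : (((1 - χ) * P.ψ a0 : A) : X → ℝ) = (fun y => 1 - (χ : X → ℝ) y) *
        (P.ψ a0 : X → ℝ) := rfl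
      rw [hc] at h0
      have h01 := tsupport_mul_subset_left h0
      have h02 := tsupport_mul_subset_right h0
      have hx : ¬ (∀ᶠ y in 𝓝 x, (χ : X → ℝ) y = 1) := by
        intro hev
        apply (notMem_tsupport_iff_eventuallyEq.2 _) h01
        filter_upwards [hev] with y hy
        simp [hy]
      unfold trunc at hF
      split_ifs at hF with hU
      · apply hx
        refine H1 ![a0, a1, a2, a3, a4] ?_ ?_ x ?_
        · intro i
          have := hU i
          rw [← e] at this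
          exact this
        · rw [e]; exact hF
        · intro i
          fin_cases i <;> assumption
      · exact hF rfl
    have e2 : trunc U (stepCochain h) ![P.v a0, P.v a1, P.v a2, P.v a3, P.v a4] *
        T.J (χ * P.ψ a0) (P.ψ a1) (P.ψ a2) (P.ψ a3) (P.ψ a4) =
        stepCochain h ![P.v a0, P.v a1, P.v a2, P.v a3, P.v a4] *
        T.J (χ * P.ψ a0) (P.ψ a1) (P.ψ a2) (P.ψ a3) (P.ψ a4) := by
      by_cases hJ : T.J (χ * P.ψ a0) (P.ψ a1) (P.ψ a2) (P.ψ a3) (P.ψ a4) = 0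
      · rw [hJ, mul_zero, mul_zero]
      · obtain ⟨x, h0, h1, h2, h3, h4⟩ := exists_common T _ _ _ _ _ hJ
        have hc : ((χ * P.ψ a0 : A) : X → ℝ) = (χ : X → ℝ) * (P.ψ a0 : X → ℝ) := rfl
        rw [hc] at h0
        have h01 := tsupport_mul_subset_left h0
        have h02 := tsupport_mul_subset_right h0
        congr 1
        unfold trunc
        rw [if_pos]
        intro k
        fin_cases k
        · exact H2 x h01 a0 h02
        · exact H2 x h01 a1 h1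
        · exact H2 x h01 a2 h2
        · exact H2 x h01 a3 h3
        · exact H2 x h01 a4 h4
    rw [hsplit, mul_add, e1, zero_add, e2]
  · intro x hx i hi
    obtain ⟨r, h1, h2⟩ := H3 x hx i hi
    refine ⟨r, h1, ?_⟩
    -- near `x` only members whose closed support contains `x` are nonzero
    have hev : ∀ᶠ y in 𝓝 x, ∀ a, x ∉ tsupport (P.ψ a : X → ℝ) → (P.ψ a : X → ℝ) y = 0 := by
      rw [Filter.eventually_all]
      intro a
      by_cases hxa : x ∈ tsupport (P.ψ a : X → ℝ)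
      · exact Filter.Eventually.of_forall fun y hy => absurd hxa hy
      · have := notMem_tsupport_iff_eventuallyEq.1 hxa
        filter_upwards [this] with y hy _ using hy
    filter_upwards [hev] with y hy
    rw [coe_sum_smul]
    have : ∀ a, h i (P.v a) * (P.ψ a : X → ℝ) y = r * (P.ψ a : X → ℝ) y := by
      intro a
      by_cases hxa : x ∈ tsupport (P.ψ a : X → ℝ)
      · rw [h2 a hxa]
      · rw [hy a hxa, mul_zero, mul_zero]
    simp only [this, ← Finset.mul_sum, sum_psi, mul_one]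

end Vale.Agent.P267.H533
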