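import Vale.Agent.P267.H533.Inst

/-!
# P267 / H533: UNI-INST, the value on the generator of a chart
-/

set_option linter.unusedVariables false
set_option linter.unusedSectionVars false

open scoped Manifold ContDiff ComplexConjugate Matrix ComplexOrder
open MeasureTheory Set Filter Topology

noncomputable section

namespace Vale.Agent.P267.H533

open FL

/-! ### real coordinates -/

/-- the real coordinates `Re z_0, Im z_0, Re z_1, Im z_1` -/
def cr (k : Fin 4) : C2 →L[ℝ] ℝ :=
  ![Complex.reCLM.comp (ContinuousLinearMap.proj (R := ℝ) (φ := fun _ : Fin 2 => ℂ) 0),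
    Complex.imCLM.comp (ContinuousLinearMap.proj (R := ℝ) (φ := fun _ : Fin 2 => ℂ) 0),
    Complex.reCLM.comp (ContinuousLinearMap.proj (R := ℝ) (φ := fun _ : Fin 2 => ℂ) 1),
    Complex.imCLM.comp (ContinuousLinearMap.proj (R := ℝ) (φ := fun _ : Fin 2 => ℂ) 1)] k

@[simp] theorem cr_0 (z : C2) : cr 0 z = (z 0).re := rfl
@[simp] theorem cr_1 (z : C2) : cr 1 z = (z 0).im := rfl
@[simp] theorem cr_2 (z : C2) : cr 2 z = (z 1).re := rfl
@[simp] theorem cr_3 (z : C2) : cr 3 z = (z 1).im := rfl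

theorem fderiv_comp_cr {h : ℝ → ℝ} {L : C2 →L[ℝ] ℝ} {a : ℝ} {z : C2}
    (hh : DifferentiableAt ℝ h (L z - a)) (v : C2) :
    fderiv ℝ (fun y => ((h (L y - a) : ℝ) : ℂ)) z v = ((deriv h (L z - a) * L v : ℝ) : ℂ) := by
  have h1 : HasFDerivAt (fun y => L y - a) L z := L.hasFDerivAt.sub_const a
  have h2 : HasFDerivAt (fun y => h (L y - a)) (deriv h (L z - a) • L) z :=
    hh.hasDerivAt.comp_hasFDerivAt z h1
  have h3 := (Complex.ofRealCLM.hasFDerivAt (x := h (L z - a))).comp z h2
  have h4 : fderiv ℝ (fun y => ((h (L y - a) : ℝ) : ℂ)) z =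
      Complex.ofRealCLM.comp (deriv h (L z - a) • L) := h3.fderiv
  rw [h4]
  simp

/-- the rows of functions of the real coordinates -/
theorem row_cr {h : ℝ → ℝ} {a : ℝ} {z : C2} (k : Fin 4)
    (hh : DifferentiableAt ℝ h (cr k z - a)) :
    row (fun y => ((h (cr k y - a) : ℝ) : ℂ)) z = ((deriv h (cr k z - a) : ℝ) : ℂ) •
      ![![1 / 2, 0, 1 / 2, 0], ![-(1 / 2) * Complex.I, 0, 1 / 2 * Complex.I, 0],
        ![0, 1 / 2, 0, 1 / 2], ![0, -(1 / 2) * Complex.I, 0, 1 / 2 * Complex.I]] k := by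
  have key : ∀ v, fderiv ℝ (fun y => ((h (cr k y - a) : ℝ) : ℂ)) z v =
      ((deriv h (cr k z - a) * cr k v : ℝ) : ℂ) := fun v => fderiv_comp_cr hh v
  funext i
  have e0 : DD i (fun y => ((h (cr k y - a) : ℝ) : ℂ)) z = ((deriv h (cr k z - a) : ℝ) : ℂ) *
      ![![1 / 2, 0, 1 / 2, 0], ![-(1 / 2) * Complex.I, 0, 1 / 2 * Complex.I, 0],
        ![0, 1 / 2, 0, 1 / 2], ![0, -(1 / 2) * Complex.I, 0, 1 / 2 * Complex.I]] k i := by
    fin_cases i <;> simp only [Fin.zero_eta, Fin.mk_one, Fin.reduceFinMk, DD_0, DD_1, DD_2, DD_3,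
      dz, dzb, key] <;> fin_cases k <;> simp <;> ring
  exact e0

theorem D4_std (c : Fin 4 → ℂ) :
    D4 (fun k => c k • (![![1 / 2, 0, 1 / 2, 0], ![-(1 / 2) * Complex.I, 0, 1 / 2 * Complex.I, 0],
        ![0, 1 / 2, 0, 1 / 2], ![0, -(1 / 2) * Complex.I, 0, 1 / 2 * Complex.I]] k :
          Fin 4 → ℂ)) = (1 / 4) * ∏ k, c k := by
  rw [D4_expand, Fin.prod_univ_four]
  simp [cof]
  have hI : Complex.I * Complex.I = -1 := Complex.I_mul_I
  linear_combination (c 0 * c 1 * c 2 * c 3 * (-1 / 4)) * hI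

/-! ### the model integral -/

theorem integral_prod_cr (φ : Fin 4 → ℝ → ℝ) :
    ∫ z : C2, ∏ k, φ k (cr k z) = ∏ k, ∫ s, φ k s := by
  have h1 : ∀ z : C2, ∏ k, φ k (cr k z) =
      ∏ j : Fin 2, (![fun w : ℂ => φ 0 w.re * φ 1 w.im, fun w : ℂ => φ 2 w.re * φ 3 w.im] j) (z j) := by
    intro z
    rw [Fin.prod_univ_four, Fin.prod_univ_two]
    simp
    ring
  simp_rw [h1]
  have h2 := integral_fintype_prod_volume_eq_prod (𝕜 := ℝ) (ι := Fin 2) (E := fun _ => ℂ)
    (f := fun j => ![fun w : ℂ => φ 0 w.re * φ 1 w.im, fun w : ℂ => φ 2 w.re * φ 3 w.im] j)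
  rw [h2, Fin.prod_univ_two, Fin.prod_univ_four]
  have h3 : ∀ f g : ℝ → ℝ, ∫ w : ℂ, f w.re * g w.im = (∫ s, f s) * ∫ s, g s := by
    intro f g
    rw [← Complex.volume_preserving_equiv_real_prod.symm.integral_comp'
      (fun w : ℂ => f w.re * g w.im)]
    exact integral_prod_mul f g
  simp only [Matrix.cons_val_zero, Matrix.cons_val_one]
  rw [h3, h3]
  ring

/-! ### smooth steps -/

/-- the smooth step of half-width `δ` -/
def stepFn (δ : ℝ) (s : ℝ) : ℝ := Real.smoothTransition ((s / δ + 1) / 2)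

theorem stepFn_contDiff (δ : ℝ) : ContDiff ℝ ∞ (stepFn δ) := by
  unfold stepFn
  exact Real.smoothTransition.contDiff.comp (((contDiff_id.div_const δ).add contDiff_const).div_const 2)

theorem stepFn_zero {δ : ℝ} (hδ : 0 < δ) {s : ℝ} (hs : s ≤ -δ) : stepFn δ s = 0 := by
  apply Real.smoothTransition.zero_of_nonpos
  have : s / δ ≤ -1 := by
    rw [div_le_iff₀ hδ]
    linarith
  linarith

theorem stepFn_one {δ : ℝ} (hδ : 0 < δ) {s : ℝ} (hs : δ ≤ s) : stepFn δ s = 1 := by
  apply Real.smoothTransition.one_of_one_le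
  have : 1 ≤ s / δ := by
    rw [le_div_iff₀ hδ]
    linarith
  linarith

theorem deriv_stepFn_ne {δ : ℝ} (hδ : 0 < δ) {s : ℝ} (h : deriv (stepFn δ) s ≠ 0) : |s| ≤ δ := by
  by_contra hcon
  apply h
  rcases lt_abs.1 (not_le.1 hcon) with h1 | h1
  · have h2 : stepFn δ =ᶠ[𝓝 s] fun _ => 1 := by
      filter_upwards [lt_mem_nhds h1] with y hy
      exact stepFn_one hδ hy.le
    rw [h2.deriv_eq, deriv_const]
  · have h2 : stepFn δ =ᶠ[𝓝 s] fun _ => 0 := by
      filter_upwards [gt_mem_nhds (show s < -δ by linarith)] with y hy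
      exact stepFn_zero hδ hy.le
    rw [h2.deriv_eq, deriv_const]

theorem integral_deriv_stepFn {δ : ℝ} (hδ : 0 < δ) : ∫ s, deriv (stepFn δ) s = 1 := by
  have hc : Continuous (deriv (stepFn δ)) :=
    (stepFn_contDiff δ).continuous_deriv (by norm_num)
  have hcs : HasCompactSupport (deriv (stepFn δ)) := by
    refine HasCompactSupport.intro (isCompact_Icc (a := -δ) (b := δ)) fun s hs => ?_
    by_contra h
    exact hs (abs_le.1 (deriv_stepFn_ne hδ h))
  have h := integral_of_hasDerivAt_of_tendsto (f := stepFn δ) (f' := deriv (stepFn δ))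
    (m := 0) (n := 1)
    (fun s => ((stepFn_contDiff δ).differentiable (by norm_num) s).hasDerivAt)
    (hc.integrable_of_hasCompactSupport hcs) ?_ ?_
  · rw [h, sub_zero]
  · refine tendsto_const_nhds.congr' ?_
    filter_upwards [eventually_le_atBot (-δ)] with s hs
    exact (stepFn_zero hδ hs).symm
  · refine tendsto_const_nhds.congr' ?_
    filter_upwards [eventually_ge_atTop δ] with s hs
    exact (stepFn_one hδ hs).symm

/-! ### functions given in a chart -/

variable {X : Type*} [TopologicalSpace X] [ChartedSpace C2 X] [IsManifold 𝓘(ℂ, C2) ω X]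

/-- a cut-off function supported in a chart times a smooth function of the coordinates -/
theorem rsm_mul_chart {χ : X → ℝ} (hχ : RSm χ) {e : Ch X} (he : e ∈ atlas C2 X)
    (hs : tsupport χ ⊆ e.source) {u : C2 → ℝ} (hu : ContDiff ℝ ∞ u) :
    RSm (fun x => χ x * u (e x)) := by
  apply rsm_of_at
  intro x
  by_cases hx : x ∈ e.source
  · refine ⟨e, he, hx, ?_⟩
    have h1 : ContDiffAt ℝ ∞ (fun z => χ (e.symm z) * u z) (e x) :=
      (hχ.contDiffAt he (e.map_source hx)).mul hu.contDiffAt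
    refine h1.congr_of_eventuallyEq ?_
    filter_upwards [e.open_target.mem_nhds (e.map_source hx)] with z hz
    rw [e.right_inv hz]
  · refine ⟨chartAt C2 x, chart_mem_atlas C2 x, mem_chart_source C2 x, ?_⟩
    have h1 : x ∉ tsupport χ := fun h => hx (hs h)
    have h2 : χ =ᶠ[𝓝 x] 0 := notMem_tsupport_iff_eventuallyEq.1 h1
    refine (contDiffAt_const (c := (0 : ℝ))).congr_of_eventuallyEq ?_
    filter_upwards [(tendsto_chart_symm (mem_chart_source C2 x)).eventually h2] with z hz
    rw [hz]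
    simp

/-- the box of half-width `s` -/
def box (z₀ : C2) (s : ℝ) : Set C2 := {z | ∀ k, |cr k z - cr k z₀| ≤ s}

theorem isClosed_box (z₀ : C2) (s : ℝ) : IsClosed (box z₀ s) := by
  have : box z₀ s = ⋂ k, {z | |cr k z - cr k z₀| ≤ s} := by
    ext z
    simp [box]
  rw [this]
  exact isClosed_iInter fun k => isClosed_le (((cr k).continuous.sub continuous_const).abs)
    continuous_const

theorem box_subset (z₀ : C2) (s : ℝ) (hs : 0 ≤ s) : box z₀ s ⊆ Metric.closedBall z₀ (2 * s) := by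
  intro z hz
  rw [Metric.mem_closedBall, dist_eq_norm]
  rw [pi_norm_le_iff_of_nonneg (by positivity)]
  have h0 := hz 0
  have h1 := hz 1
  have h2 := hz 2
  have h3 := hz 3
  simp only [cr_0, cr_1, cr_2, cr_3] at h0 h1 h2 h3
  intro i
  fin_cases i
  · refine (Complex.norm_le_abs_re_add_abs_im _).trans ?_
    simp only [Fin.zero_eta, Pi.sub_apply, Complex.sub_re, Complex.sub_im]
    linarith
  · refine (Complex.norm_le_abs_re_add_abs_im _).trans ?_
    simp only [Fin.mk_one, Pi.sub_apply, Complex.sub_re, Complex.sub_im]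
    linarith

theorem isCompact_box (z₀ : C2) (s : ℝ) (hs : 0 ≤ s) : IsCompact (box z₀ s) :=
  (isCompact_closedBall z₀ (2 * s)).of_isClosed_subset (isClosed_box z₀ s) (box_subset z₀ s hs)

variable [T2Space X]

/-- **value on the chart generator**: cut-off and step functions of the real coordinates of a chart
`e` centred at `p`, with `∫ χ dt₀∧dt₁∧dt₂∧dt₃ = 1` -/
theorem exists_chart_data {e : Ch X} (he : e ∈ atlas C2 X) {p : X} (hp : p ∈ e.source)
    {U : Set X} (hU : IsOpen U) (hpU : p ∈ U) :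
    ∃ (χ : AX X) (t : Fin 4 → AX X) (δ : ℝ), 0 < δ ∧ tsupport (χ : X → ℝ) ⊆ U ∧
      tsupport (χ : X → ℝ) ⊆ e.source ∧ (∀ᶠ y in 𝓝 p, (χ : X → ℝ) y = 1) ∧
      (∀ x ∈ tsupport (χ : X → ℝ), (∀ i, |cr i (e x) - cr i (e p)| < δ) →
        ∀ᶠ y in 𝓝 x, (χ : X → ℝ) y = 1) ∧
      (∀ i, ∀ x ∈ tsupport (χ : X → ℝ), δ ≤ cr i (e x) - cr i (e p) →
        ∀ᶠ y in 𝓝 x, (t i : X → ℝ) y = 1) ∧
      (∀ i, ∀ x ∈ tsupport (χ : X → ℝ), cr i (e x) - cr i (e p) ≤ -δ →
        ∀ᶠ y in 𝓝 x, (t i : X → ℝ) y = 0) ∧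
      (TI X).J χ (t 0) (t 1) (t 2) (t 3) = 1 := by
  set z₀ : C2 := e p with hz₀
  have hW : IsOpen (e.target ∩ e.symm ⁻¹' U) := e.symm.isOpen_inter_preimage hU
  have hpW : z₀ ∈ e.target ∩ e.symm ⁻¹' U :=
    ⟨e.map_source hp, by simpa [hz₀, e.left_inv hp] using hpU⟩
  obtain ⟨R, hR, hball⟩ := Metric.nhds_basis_closedBall.mem_iff.1 (hW.mem_nhds hpW)
  set δ : ℝ := R / 8 with hδ
  have hδ0 : 0 < δ := by positivity
  have hboxW : box z₀ (4 * δ) ⊆ e.target ∩ e.symm ⁻¹' U := by
    refine (box_subset z₀ (4 * δ) (by positivity)).trans (subset_trans ?_ hball)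
    apply Metric.closedBall_subset_closedBall
    rw [hδ]
    linarith
  have hboxm : ∀ {s s' : ℝ}, s ≤ s' → box z₀ s ⊆ box z₀ s' := fun hss z hz k => (hz k).trans hss
  -- the first cut-off
  let O : Set X := e.source ∩ e ⁻¹' {z | ∀ k, |cr k z - cr k z₀| < 3 * δ}
  have hOo : IsOpen O := by
    apply e.isOpen_inter_preimage
    have : {z : C2 | ∀ k, |cr k z - cr k z₀| < 3 * δ} = ⋂ k, {z | |cr k z - cr k z₀| < 3 * δ} := by
      ext z
      simp
    rw [this]
    exact isOpen_iInter_of_finite fun k => isOpen_lt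
      (((cr k).continuous.sub continuous_const).abs) continuous_const
  have hK : IsCompact (e.symm '' box z₀ (2 * δ)) :=
    (isCompact_box z₀ (2 * δ) (by positivity)).image_of_continuousOn
      (e.continuousOn_symm.mono ((hboxm (by linarith)).trans (hboxW.trans inter_subset_left)))
  have hKO : e.symm '' box z₀ (2 * δ) ⊆ O := by
    rintro _ ⟨z, hz, rfl⟩
    have hzt : z ∈ e.target := (hboxW (hboxm (by linarith) hz)).1
    refine ⟨e.map_target hzt, fun k => ?_⟩
    rw [e.right_inv hzt]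
    have := hz k
    linarith
  have hOU : O ⊆ U := by
    intro x hx
    have h1 : e x ∈ box z₀ (4 * δ) := fun k => by
      have := hx.2 k
      linarith
    have h2 := (hboxW h1).2
    simpa [e.left_inv hx.1] using h2
  obtain ⟨χ, hχs, hχc, hχO, hχ01, hχ1⟩ := exists_cutoff hK hOo hKO
  have hχ1' : ∀ x ∈ e.symm '' box z₀ (2 * δ), ∀ᶠ y in 𝓝 x, χ y = 1 :=
    eventually_nhdsSet_iff_forall.1 hχ1
  have hχe : tsupport χ ⊆ e.source := hχO.trans inter_subset_left
  -- the second cut-off
  obtain ⟨χ', hχ's, hχ'c, hχ'O, hχ'01, hχ'1⟩ := exists_cutoff (X := X) hχc e.open_source hχe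
  have hχ'1' : ∀ x ∈ tsupport χ, ∀ᶠ y in 𝓝 x, χ' y = 1 :=
    eventually_nhdsSet_iff_forall.1 hχ'1
  have hus : ∀ k, ContDiff ℝ ∞ (fun z : C2 => stepFn (δ / 2) (cr k z - cr k z₀)) := fun k =>
    (stepFn_contDiff _).comp ((cr k).contDiff.sub contDiff_const)
  let t : Fin 4 → AX X := fun k =>
    ⟨fun x => χ' x * stepFn (δ / 2) (cr k (e x) - cr k z₀),
      mem_AX_of_cpt (rsm_mul_chart hχ's he hχ'O (hus k)) hχ'c.mul_right⟩
  let χA : AX X := ⟨χ, mem_AX_of_cpt hχs hχc⟩
  -- the functions near the support of `χ`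
  have htx : ∀ k, ∀ x ∈ tsupport χ, ∀ᶠ y in 𝓝 x, (t k : X → ℝ) y =
      stepFn (δ / 2) (cr k (e y) - cr k z₀) := by
    intro k x hx
    filter_upwards [hχ'1' x hx] with y hy
    show χ' y * _ = _
    rw [hy, one_mul]
  have hcont : ∀ k, ∀ x ∈ tsupport χ, ContinuousAt (fun y => cr k (e y) - cr k z₀) x := fun k x hx =>
    ((cr k).continuous.continuousAt.comp (e.continuousAt (hχe hx))).sub continuousAt_const
  refine ⟨χA, t, δ, hδ0, hχO.trans hOU, hχe, ?_, ?_, ?_, ?_, ?_⟩
  · apply hχ1'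
    refine ⟨z₀, fun k => ?_, e.left_inv hp⟩
    rw [sub_self, abs_zero]
    positivity
  · intro x hx hxi
    apply hχ1'
    refine ⟨e x, fun k => ?_, e.left_inv (hχe hx)⟩
    have := hxi k
    linarith
  · intro k x hx hxk
    have h1 : δ / 2 < cr k (e x) - cr k z₀ := by linarith
    filter_upwards [htx k x hx, (hcont k x hx).eventually (lt_mem_nhds h1)] with y hy hy2
    rw [hy, stepFn_one (by positivity) hy2.le]
  · intro k x hx hxk
    have h1 : cr k (e x) - cr k z₀ < -(δ / 2) := by linarith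
    filter_upwards [htx k x hx, (hcont k x hx).eventually (gt_mem_nhds h1)] with y hy hy2
    rw [hy, stepFn_zero (by positivity) hy2.le]
  · -- the integral
    set φ : Fin 4 → ℝ → ℝ := fun k s => deriv (stepFn (δ / 2)) (s - cr k z₀) with hφ
    have hφbox : ∀ z : C2, ∏ k, φ k (cr k z) ≠ 0 → z ∈ box z₀ (2 * δ) := by
      intro z hz k
      have h1 := (Finset.prod_ne_zero_iff.1 hz) k (Finset.mem_univ k)
      have h2 := deriv_stepFn_ne (by positivity) h1
      linarith
    have hJ : (((TI X).J χA (t 0) (t 1) (t 2) (t 3) : ℝ) : ℂ) = 1 := by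
      have hvec : (![t 0, t 1, t 2, t 3] : Fin 4 → AX X) = t := by
        funext k
        fin_cases k <;> rfl
      have hsupp : tsupport (fun x => ((χA : X → ℝ) x : ℂ) * WA t x) ⊆ tsupport χ := by
        refine closure_mono ?_
        intro x hx h
        apply hx
        have : (χA : X → ℝ) x = 0 := h
        simp [this]
      rw [TopInt.J, hvec, TI_I, intX_chart (locInt_WA _ _) (cpt_fWA _ _) he (hsupp.trans hχe)]
      have hint : ∀ z ∈ e.target, 4 * loc2 1 e (fun x => ((χA : X → ℝ) x : ℂ) * WA t x) z =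
          ((∏ k, φ k (cr k z) : ℝ) : ℂ) := by
        intro z hz
        rw [loc2_mul']
        show 4 * (((χA : X → ℝ) (e.symm z) : ℂ) * loc2 1 e (WA t) z) = _
        by_cases hzχ : e.symm z ∈ tsupport χ
        · have hrow : (fun k => row (fun y => ((t k : X → ℝ) (e.symm y) : ℂ)) z) = fun k =>
              ((φ k (cr k z) : ℝ) : ℂ) • (![![1 / 2, 0, 1 / 2, 0],
                ![-(1 / 2) * Complex.I, 0, 1 / 2 * Complex.I, 0],
                ![0, 1 / 2, 0, 1 / 2], ![0, -(1 / 2) * Complex.I, 0, 1 / 2 * Complex.I]] k :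
                  Fin 4 → ℂ) := by
            funext k
            have hd : DifferentiableAt ℝ (stepFn (δ / 2)) (cr k z - cr k z₀) :=
              (stepFn_contDiff _).differentiable (by norm_num) _
            rw [← row_cr k hd]
            funext i
            apply DD_congr
            have h1 := htx k _ hzχ
            have h2 : Tendsto e.symm (𝓝 z) (𝓝 (e.symm z)) := e.continuousAt_symm hz
            filter_upwards [h2.eventually h1, e.open_target.mem_nhds hz] with y hy hyt
            rw [hy, e.right_inv hyt]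
          have hD : loc2 1 e (WA t) z = (1 / 4) * ∏ k, ((φ k (cr k z) : ℝ) : ℂ) := by
            rw [WA_eq, loc2_detW he hz fun k => AX_diffAt _ _, hrow, D4_std]
          rw [hD]
          by_cases h0 : ∏ k, φ k (cr k z) = 0
          · rw [h0, ← Complex.ofReal_prod, h0]
            simp
          · have h1 : χ (e.symm z) = 1 := (hχ1' _ ⟨z, hφbox z h0, rfl⟩).self_of_nhds
            have h2 : (χA : X → ℝ) (e.symm z) = 1 := h1
            rw [h2]
            push_cast
            ring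
        · have h1 : (χA : X → ℝ) (e.symm z) = 0 := image_eq_zero_of_notMem_tsupport hzχ
          rw [h1]
          have h2 : ∏ k, φ k (cr k z) = 0 := by
            by_contra h0
            have h3 : χ (e.symm z) = 1 := (hχ1' _ ⟨z, hφbox z h0, rfl⟩).self_of_nhds
            exact zero_ne_one (h1.symm.trans h3)
          rw [h2]
          simp
      rw [setIntegral_congr_fun e.open_target.measurableSet hint,
        setIntegral_eq_integral_of_forall_compl_eq_zero, integral_complex_ofReal,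
        integral_prod_cr φ]
      · have h1 : ∀ k, ∫ s, φ k s = 1 := by
          intro k
          rw [hφ]
          simp only
          rw [integral_sub_right_eq_self (fun s => deriv (stepFn (δ / 2)) s) (cr k z₀)]
          exact integral_deriv_stepFn (by positivity)
        simp [h1]
      · intro z hz
        have h2 : ∏ k, φ k (cr k z) = 0 := by
          by_contra h0
          exact hz (hboxW (hboxm (by linarith) (hφbox z h0))).1
        rw [h2]
        simp
    exact_mod_cast hJ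

end Vale.Agent.P267.H533
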