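import Vale.Agent.P267.H533.IntPos

/-!
# P267 / H533: the `(2,2)`-form `dg₀ ∧ dg₁ ∧ dg₂ ∧ dg₃`
-/

set_option linter.unusedVariables false
set_option linter.unusedSectionVars false

open scoped Manifold ContDiff ComplexConjugate Matrix ComplexOrder
open MeasureTheory Set Filter Topology

noncomputable section

namespace Vale.Agent.P267.H533

open FL

/-! ### the four derivations -/

/-- the four derivations `∂_0, ∂_1, ∂̄_0, ∂̄_1` -/
def DD (i : Fin 4) (f : C2 → ℂ) : C2 → ℂ := ![dz 0 f, dz 1 f, dzb 0 f, dzb 1 f] i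

@[simp] theorem DD_0 (f : C2 → ℂ) : DD 0 f = dz 0 f := rfl
@[simp] theorem DD_1 (f : C2 → ℂ) : DD 1 f = dz 1 f := rfl
@[simp] theorem DD_2 (f : C2 → ℂ) : DD 2 f = dzb 0 f := rfl
@[simp] theorem DD_3 (f : C2 → ℂ) : DD 3 f = dzb 1 f := rfl

theorem forall_fin4 {P : Fin 4 → Prop} (h0 : P 0) (h1 : P 1) (h2 : P 2) (h3 : P 3) : ∀ i, P i := by
  intro i
  fin_cases i <;> assumption

theorem DD_congr {f g : C2 → ℂ} {z : C2} (h : f =ᶠ[𝓝 z] g) (i : Fin 4) : DD i f z = DD i g z := by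
  revert i
  exact forall_fin4 (dz_congr h 0) (dz_congr h 1) (dzb_congr h 0) (dzb_congr h 1)

theorem DD_const (c : ℂ) (z : C2) (i : Fin 4) : DD i (fun _ => c) z = 0 := by
  revert i
  exact forall_fin4 (dz_const c z 0) (dz_const c z 1) (dzb_const c z 0) (dzb_const c z 1)

theorem DD_add {f g : C2 → ℂ} {z : C2} (hf : DifferentiableAt ℝ f z) (hg : DifferentiableAt ℝ g z)
    (i : Fin 4) : DD i (fun y => f y + g y) z = DD i f z + DD i g z := by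
  revert i
  exact forall_fin4 (dz_add hf hg 0) (dz_add hf hg 1) (dzb_add hf hg 0) (dzb_add hf hg 1)

theorem DD_sub {f g : C2 → ℂ} {z : C2} (hf : DifferentiableAt ℝ f z) (hg : DifferentiableAt ℝ g z)
    (i : Fin 4) : DD i (fun y => f y - g y) z = DD i f z - DD i g z := by
  revert i
  exact forall_fin4 (dz_sub hf hg 0) (dz_sub hf hg 1) (dzb_sub hf hg 0) (dzb_sub hf hg 1)

theorem DD_mul {f g : C2 → ℂ} {z : C2} (hf : DifferentiableAt ℝ f z) (hg : DifferentiableAt ℝ g z)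
    (i : Fin 4) : DD i (fun y => f y * g y) z = f z * DD i g z + DD i f z * g z := by
  revert i
  exact forall_fin4 (dz_mul hf hg 0) (dz_mul hf hg 1) (dzb_mul hf hg 0) (dzb_mul hf hg 1)

theorem DD_const_mul (c : ℂ) {f : C2 → ℂ} {z : C2} (hf : DifferentiableAt ℝ f z) (i : Fin 4) :
    DD i (fun y => c * f y) z = c * DD i f z := by
  rw [DD_mul (differentiableAt_const c) hf, DD_const]
  ring

theorem DD_sum {ι : Type*} (s : Finset ι) {f : ι → C2 → ℂ} {z : C2}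
    (hf : ∀ k ∈ s, DifferentiableAt ℝ (f k) z) (i : Fin 4) :
    DD i (fun y => ∑ k ∈ s, f k y) z = ∑ k ∈ s, DD i (f k) z := by
  revert i
  exact forall_fin4 (dz_sum s hf 0) (dz_sum s hf 1) (dzb_sum s hf 0) (dzb_sum s hf 1)

theorem DD_comm {f : C2 → ℂ} {z : C2} (hf : ContDiffAt ℝ 2 f z) (i j : Fin 4) :
    DD i (DD j f) z = DD j (DD i f) z := by
  have h00 := dz_dz_comm hf 0 1
  have h01 := dzb_dzb_comm hf 0 1
  have h02 := fun i j => dz_dzb_comm hf i j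
  fin_cases i <;> fin_cases j
  · rfl
  · exact h00
  · exact h02 0 0
  · exact h02 0 1
  · exact h00.symm
  · rfl
  · exact h02 1 0
  · exact h02 1 1
  · exact (h02 0 0).symm
  · exact (h02 1 0).symm
  · rfl
  · exact h01
  · exact (h02 0 1).symm
  · exact (h02 1 1).symm
  · exact h01.symm
  · rfl

theorem contDiffOn_DD {f : C2 → ℂ} {U : Set C2} {m n : WithTop ℕ∞} (hU : IsOpen U)
    (hf : ContDiffOn ℝ n f U) (hmn : m + 1 ≤ n) (i : Fin 4) : ContDiffOn ℝ m (DD i f) U := by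
  revert i
  exact forall_fin4 (contDiffOn_dz hU hf hmn 0) (contDiffOn_dz hU hf hmn 1)
    (contDiffOn_dzb hU hf hmn 0) (contDiffOn_dzb hU hf hmn 1)

theorem contDiffAt_DD {f : C2 → ℂ} {z : C2} {m n : WithTop ℕ∞}
    (hf : ContDiffAt ℝ n f z) (hmn : m + 1 ≤ n) (i : Fin 4) : ContDiffAt ℝ m (DD i f) z := by
  revert i
  exact forall_fin4 (contDiffAt_dz hf hmn 0) (contDiffAt_dz hf hmn 1)
    (contDiffAt_dzb hf hmn 0) (contDiffAt_dzb hf hmn 1)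

theorem setIntegral_DD_zero {T K : Set C2} (hT : IsOpen T) (hK : IsCompact K) (hKT : K ⊆ T)
    {F : C2 → ℂ} (hF : ContDiffOn ℝ 1 F T) (h0 : ∀ z ∈ T, z ∉ K → F z = 0) (i : Fin 4) :
    ∫ z in T, DD i F z = 0 := by
  revert i
  exact forall_fin4 (setIntegral_dz_zero hT hK hKT hF h0 0) (setIntegral_dz_zero hT hK hKT hF h0 1)
    (setIntegral_dzb_zero hT hK hKT hF h0 0) (setIntegral_dzb_zero hT hK hKT hF h0 1)

/-! ### the determinant -/

/-- `4 × 4` determinant of rows -/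
def D4 (r : Fin 4 → Fin 4 → ℂ) : ℂ :=
  (Matrix.detRowAlternating : (Fin 4 → ℂ) [⋀^Fin 4]→ₗ[ℂ] ℂ) r

theorem D4_eq_det (r : Fin 4 → Fin 4 → ℂ) : D4 r = Matrix.det (Matrix.of r) := rfl

theorem D4_update_add (r : Fin 4 → Fin 4 → ℂ) (k : Fin 4) (u v : Fin 4 → ℂ) :
    D4 (Function.update r k (u + v)) = D4 (Function.update r k u) + D4 (Function.update r k v) :=
  (Matrix.detRowAlternating : (Fin 4 → ℂ) [⋀^Fin 4]→ₗ[ℂ] ℂ).map_update_add r k u v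

theorem D4_update_smul (r : Fin 4 → Fin 4 → ℂ) (k : Fin 4) (c : ℂ) (u : Fin 4 → ℂ) :
    D4 (Function.update r k (c • u)) = c * D4 (Function.update r k u) :=
  (Matrix.detRowAlternating : (Fin 4 → ℂ) [⋀^Fin 4]→ₗ[ℂ] ℂ).map_update_smul r k c u

theorem D4_update_sum {ι : Type*} (s : Finset ι) (r : Fin 4 → Fin 4 → ℂ) (k : Fin 4)
    (u : ι → Fin 4 → ℂ) : D4 (Function.update r k (∑ i ∈ s, u i)) =
      ∑ i ∈ s, D4 (Function.update r k (u i)) := by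
  classical
  induction s using Finset.induction_on with
  | empty =>
    simp only [Finset.sum_empty]
    have h := D4_update_smul r k 0 0
    rwa [zero_smul, zero_mul] at h
  | insert i s hi ih => rw [Finset.sum_insert hi, Finset.sum_insert hi, D4_update_add, ih]

theorem D4_eq_zero_of_eq (r : Fin 4 → Fin 4 → ℂ) {i j : Fin 4} (h : r i = r j) (hij : i ≠ j) :
    D4 r = 0 :=
  (Matrix.detRowAlternating : (Fin 4 → ℂ) [⋀^Fin 4]→ₗ[ℂ] ℂ).map_eq_zero_of_eq r h hij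

theorem D4_eq_zero_of_zero (r : Fin 4 → Fin 4 → ℂ) {i : Fin 4} (h : r i = 0) :
    D4 r = 0 :=
  (Matrix.detRowAlternating : (Fin 4 → ℂ) [⋀^Fin 4]→ₗ[ℂ] ℂ).map_coord_zero i h

/-- cofactors of the first row -/
def cof (b c d : Fin 4 → ℂ) (j : Fin 4) : ℂ :=
  ![b 1 * c 2 * d 3 - b 1 * c 3 * d 2 - b 2 * c 1 * d 3 + b 2 * c 3 * d 1 + b 3 * c 1 * d 2 -
      b 3 * c 2 * d 1,
    -(b 0 * c 2 * d 3 - b 0 * c 3 * d 2 - b 2 * c 0 * d 3 + b 2 * c 3 * d 0 + b 3 * c 0 * d 2 -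
      b 3 * c 2 * d 0),
    b 0 * c 1 * d 3 - b 0 * c 3 * d 1 - b 1 * c 0 * d 3 + b 1 * c 3 * d 0 + b 3 * c 0 * d 1 -
      b 3 * c 1 * d 0,
    -(b 0 * c 1 * d 2 - b 0 * c 2 * d 1 - b 1 * c 0 * d 2 + b 1 * c 2 * d 0 + b 2 * c 0 * d 1 -
      b 2 * c 1 * d 0)] j

theorem D4_expand (r : Fin 4 → Fin 4 → ℂ) :
    D4 r = r 0 0 * cof (r 1) (r 2) (r 3) 0 + r 0 1 * cof (r 1) (r 2) (r 3) 1 +
      r 0 2 * cof (r 1) (r 2) (r 3) 2 + r 0 3 * cof (r 1) (r 2) (r 3) 3 := by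
  rw [D4_eq_det, Matrix.det_succ_row_zero, Fin.sum_univ_four]
  simp only [Matrix.det_fin_three, Matrix.submatrix_apply, Matrix.of_apply, Fin.succAbove, cof]
  simp
  ring

theorem det_block (J : Matrix (Fin 2) (Fin 2) ℂ) (r : Fin 4 → Fin 4 → ℂ) :
    D4 (fun k => ![r k 0 * J 0 0 + r k 1 * J 1 0, r k 0 * J 0 1 + r k 1 * J 1 1,
      r k 2 * conj (J 0 0) + r k 3 * conj (J 1 0), r k 2 * conj (J 0 1) + r k 3 * conj (J 1 1)]) =
    J.det * conj J.det * D4 r := by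
  have h : (Matrix.of fun k => ![r k 0 * J 0 0 + r k 1 * J 1 0, r k 0 * J 0 1 + r k 1 * J 1 1,
      r k 2 * conj (J 0 0) + r k 3 * conj (J 1 0), r k 2 * conj (J 0 1) + r k 3 * conj (J 1 1)]) =
      Matrix.of r * !![J 0 0, J 0 1, 0, 0; J 1 0, J 1 1, 0, 0;
        0, 0, conj (J 0 0), conj (J 0 1); 0, 0, conj (J 1 0), conj (J 1 1)] := by
    ext k i
    fin_cases i <;> simp [Matrix.mul_apply, Fin.sum_univ_four]
  have hB : Matrix.det !![J 0 0, J 0 1, 0, 0; J 1 0, J 1 1, 0, 0;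
        0, 0, conj (J 0 0), conj (J 0 1); 0, 0, conj (J 1 0), conj (J 1 1)] =
      J.det * conj J.det := by
    rw [Matrix.det_succ_row_zero, Fin.sum_univ_four]
    simp only [Matrix.det_fin_three, Matrix.submatrix_apply, Matrix.of_apply, Fin.succAbove,
      Matrix.det_fin_two]
    simp
    ring
  rw [D4_eq_det, h, Matrix.det_mul, hB, D4_eq_det]
  ring

/-! ### Piola's identity -/

theorem DD_tri {b c d : C2 → ℂ} {z : C2} (hb : DifferentiableAt ℝ b z)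
    (hc : DifferentiableAt ℝ c z) (hd : DifferentiableAt ℝ d z) (l : Fin 4) :
    DD l (fun y => b y * c y * d y) z =
      DD l b z * c z * d z + b z * DD l c z * d z + b z * c z * DD l d z := by
  rw [DD_mul (hb.fun_mul hc) hd, DD_mul hb hc]
  ring

theorem DD_six {f1 f2 f3 f4 f5 f6 : C2 → ℂ} {z : C2} (h1 : DifferentiableAt ℝ f1 z)
    (h2 : DifferentiableAt ℝ f2 z) (h3 : DifferentiableAt ℝ f3 z) (h4 : DifferentiableAt ℝ f4 z)
    (h5 : DifferentiableAt ℝ f5 z) (h6 : DifferentiableAt ℝ f6 z) (l : Fin 4) :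
    DD l (fun y => f1 y - f2 y - f3 y + f4 y + f5 y - f6 y) z =
      DD l f1 z - DD l f2 z - DD l f3 z + DD l f4 z + DD l f5 z - DD l f6 z := by
  rw [DD_sub ((((h1.fun_sub h2).fun_sub h3).fun_add h4).fun_add h5) h6,
    DD_add (((h1.fun_sub h2).fun_sub h3).fun_add h4) h5,
    DD_add ((h1.fun_sub h2).fun_sub h3) h4, DD_sub (h1.fun_sub h2) h3, DD_sub h1 h2]

theorem DD_neg {f : C2 → ℂ} {z : C2} (hf : DifferentiableAt ℝ f z) (l : Fin 4) :
    DD l (fun y => -f y) z = -DD l f z := by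
  have := DD_const_mul (-1) hf l
  simpa using this

/-- the row of derivatives -/
def row (f : C2 → ℂ) (z : C2) (i : Fin 4) : ℂ := DD i f z

theorem piola {v1 v2 v3 : C2 → ℂ} {z : C2} (h1 : ContDiffAt ℝ 2 v1 z) (h2 : ContDiffAt ℝ 2 v2 z)
    (h3 : ContDiffAt ℝ 2 v3 z) :
    DD 0 (fun y => cof (row v1 y) (row v2 y) (row v3 y) 0) z +
      DD 1 (fun y => cof (row v1 y) (row v2 y) (row v3 y) 1) z +
      DD 2 (fun y => cof (row v1 y) (row v2 y) (row v3 y) 2) z +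
      DD 3 (fun y => cof (row v1 y) (row v2 y) (row v3 y) 3) z = 0 := by
  have d1 : ∀ i, DifferentiableAt ℝ (DD i v1) z := fun i =>
    (contDiffAt_DD (m := 1) h1 (by norm_num) i).differentiableAt (by norm_num)
  have d2 : ∀ i, DifferentiableAt ℝ (DD i v2) z := fun i =>
    (contDiffAt_DD (m := 1) h2 (by norm_num) i).differentiableAt (by norm_num)
  have d3 : ∀ i, DifferentiableAt ℝ (DD i v3) z := fun i =>
    (contDiffAt_DD (m := 1) h3 (by norm_num) i).differentiableAt (by norm_num)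
  have dt : ∀ i j k, DifferentiableAt ℝ (fun y => DD i v1 y * DD j v2 y * DD k v3 y) z :=
    fun i j k => ((d1 i).mul (d2 j)).mul (d3 k)
  have tri : ∀ l i j k, DD l (fun y => DD i v1 y * DD j v2 y * DD k v3 y) z =
      DD l (DD i v1) z * DD j v2 z * DD k v3 z + DD i v1 z * DD l (DD j v2) z * DD k v3 z +
        DD i v1 z * DD j v2 z * DD l (DD k v3) z := fun l i j k => DD_tri (d1 i) (d2 j) (d3 k) l
  have six : ∀ l p1 q1 r1 p2 q2 r2 p3 q3 r3 p4 q4 r4 p5 q5 r5 p6 q6 r6,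
      DD l (fun y => DD p1 v1 y * DD q1 v2 y * DD r1 v3 y - DD p2 v1 y * DD q2 v2 y * DD r2 v3 y -
        DD p3 v1 y * DD q3 v2 y * DD r3 v3 y + DD p4 v1 y * DD q4 v2 y * DD r4 v3 y +
        DD p5 v1 y * DD q5 v2 y * DD r5 v3 y - DD p6 v1 y * DD q6 v2 y * DD r6 v3 y) z =
      DD l (fun y => DD p1 v1 y * DD q1 v2 y * DD r1 v3 y) z -
        DD l (fun y => DD p2 v1 y * DD q2 v2 y * DD r2 v3 y) z -
        DD l (fun y => DD p3 v1 y * DD q3 v2 y * DD r3 v3 y) z +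
        DD l (fun y => DD p4 v1 y * DD q4 v2 y * DD r4 v3 y) z +
        DD l (fun y => DD p5 v1 y * DD q5 v2 y * DD r5 v3 y) z -
        DD l (fun y => DD p6 v1 y * DD q6 v2 y * DD r6 v3 y) z :=
    fun l p1 q1 r1 p2 q2 r2 p3 q3 r3 p4 q4 r4 p5 q5 r5 p6 q6 r6 =>
      DD_six (dt _ _ _) (dt _ _ _) (dt _ _ _) (dt _ _ _) (dt _ _ _) (dt _ _ _) l
  have dsix : ∀ p1 q1 r1 p2 q2 r2 p3 q3 r3 p4 q4 r4 p5 q5 r5 p6 q6 r6, DifferentiableAt ℝ
      (fun y => DD p1 v1 y * DD q1 v2 y * DD r1 v3 y - DD p2 v1 y * DD q2 v2 y * DD r2 v3 y -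
        DD p3 v1 y * DD q3 v2 y * DD r3 v3 y + DD p4 v1 y * DD q4 v2 y * DD r4 v3 y +
        DD p5 v1 y * DD q5 v2 y * DD r5 v3 y - DD p6 v1 y * DD q6 v2 y * DD r6 v3 y) z :=
    fun p1 q1 r1 p2 q2 r2 p3 q3 r3 p4 q4 r4 p5 q5 r5 p6 q6 r6 =>
      (((((dt _ _ _).sub (dt _ _ _)).sub (dt _ _ _)).add (dt _ _ _)).add (dt _ _ _)).sub (dt _ _ _)
  have c1 : ∀ i j, DD i (DD j v1) z = DD j (DD i v1) z := DD_comm h1
  have c2 : ∀ i j, DD i (DD j v2) z = DD j (DD i v2) z := DD_comm h2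
  have c3 : ∀ i j, DD i (DD j v3) z = DD j (DD i v3) z := DD_comm h3
  have e0 : (fun y => cof (row v1 y) (row v2 y) (row v3 y) 0) = fun y =>
      DD 1 v1 y * DD 2 v2 y * DD 3 v3 y - DD 1 v1 y * DD 3 v2 y * DD 2 v3 y -
        DD 2 v1 y * DD 1 v2 y * DD 3 v3 y + DD 2 v1 y * DD 3 v2 y * DD 1 v3 y +
        DD 3 v1 y * DD 1 v2 y * DD 2 v3 y - DD 3 v1 y * DD 2 v2 y * DD 1 v3 y := rfl
  have e1 : (fun y => cof (row v1 y) (row v2 y) (row v3 y) 1) = fun y => -(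
      DD 0 v1 y * DD 2 v2 y * DD 3 v3 y - DD 0 v1 y * DD 3 v2 y * DD 2 v3 y -
        DD 2 v1 y * DD 0 v2 y * DD 3 v3 y + DD 2 v1 y * DD 3 v2 y * DD 0 v3 y +
        DD 3 v1 y * DD 0 v2 y * DD 2 v3 y - DD 3 v1 y * DD 2 v2 y * DD 0 v3 y) := rfl
  have e2 : (fun y => cof (row v1 y) (row v2 y) (row v3 y) 2) = fun y =>
      DD 0 v1 y * DD 1 v2 y * DD 3 v3 y - DD 0 v1 y * DD 3 v2 y * DD 1 v3 y -
        DD 1 v1 y * DD 0 v2 y * DD 3 v3 y + DD 1 v1 y * DD 3 v2 y * DD 0 v3 y +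
        DD 3 v1 y * DD 0 v2 y * DD 1 v3 y - DD 3 v1 y * DD 1 v2 y * DD 0 v3 y := rfl
  have e3 : (fun y => cof (row v1 y) (row v2 y) (row v3 y) 3) = fun y => -(
      DD 0 v1 y * DD 1 v2 y * DD 2 v3 y - DD 0 v1 y * DD 2 v2 y * DD 1 v3 y -
        DD 1 v1 y * DD 0 v2 y * DD 2 v3 y + DD 1 v1 y * DD 2 v2 y * DD 0 v3 y +
        DD 2 v1 y * DD 0 v2 y * DD 1 v3 y - DD 2 v1 y * DD 1 v2 y * DD 0 v3 y) := rfl
  rw [e0, e1, e2, e3, DD_neg (dsix _ _ _ _ _ _ _ _ _ _ _ _ _ _ _ _ _ _),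
    DD_neg (dsix _ _ _ _ _ _ _ _ _ _ _ _ _ _ _ _ _ _), six, six, six, six]
  simp only [tri]
  rw [c1 1 0, c1 2 0, c1 3 0, c1 2 1, c1 3 1, c1 3 2, c2 1 0, c2 2 0, c2 3 0, c2 2 1, c2 3 1,
    c2 3 2, c3 1 0, c3 2 0, c3 3 0, c3 2 1, c3 3 1, c3 3 2]
  ring

end Vale.Agent.P267.H533
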