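import Vale.Agent.P267.H533.DetW

/-!
# P267 / H533: the `(2,2)`-form `dg₀ ∧ dg₁ ∧ dg₂ ∧ dg₃` on a complex surface
-/

set_option linter.unusedVariables false
set_option linter.unusedSectionVars false

open scoped Manifold ContDiff ComplexConjugate Matrix ComplexOrder
open MeasureTheory Set Filter Topology

noncomputable section

namespace Vale.Agent.P267.H533

open FL

variable {X : Type*} [TopologicalSpace X] [ChartedSpace C2 X]

/-- derivatives of a function in the preferred coordinates -/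
def DX (f : X → ℂ) (x : X) (i : Fin 4) : ℂ :=
  DD i (fun z => f ((chartAt C2 x).symm z)) (chartAt C2 x x)

theorem DX_eq (f : X → ℂ) (x : X) :
    DX f x = ![del0 f x 0, del0 f x 1, dbar0 0 f x 0, dbar0 0 f x 1] := by
  funext i
  revert i
  have h : loc0 0 (chartAt C2 x) f = fun z => f ((chartAt C2 x).symm z) := LB.loc0_zero _ _
  refine forall_fin4 rfl rfl ?_ ?_
  · show _ = dbar0 0 f x 0
    rw [dbar0, h]
    rfl
  · show _ = dbar0 0 f x 1
    rw [dbar0, h]
    rfl

/-- the coefficient of `dg₀∧dg₁∧dg₂∧dg₃` with respect to `dz_0∧dz_1∧dz̄_0∧dz̄_1` -/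
def detW (g : Fin 4 → X → ℂ) (x : X) : ℂ := D4 fun k => DX (g k) x

/-- functions differentiable at a point -/
def DiffAt (f : X → ℂ) (x : X) : Prop :=
  DifferentiableAt ℝ (fun z => f ((chartAt C2 x).symm z)) (chartAt C2 x x)

theorem tendsto_chart_symm {e : Ch X} {x : X} (hx : x ∈ e.source) :
    Tendsto e.symm (𝓝 (e x)) (𝓝 x) := by
  have := e.continuousAt_symm (e.map_source hx)
  rwa [ContinuousAt, e.left_inv hx] at this

theorem DX_congr {f g : X → ℂ} {x : X} (h : f =ᶠ[𝓝 x] g) : DX f x = DX g x := by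
  funext i
  apply DD_congr
  filter_upwards [(tendsto_chart_symm (mem_chart_source C2 x)).eventually h] with z hz
  exact hz

theorem DX_const (c : ℂ) (x : X) : DX (fun _ => c) x = 0 := by
  funext i
  exact DD_const c _ i

theorem DX_of_const {f : X → ℂ} {x : X} {c : ℂ} (h : ∀ᶠ y in 𝓝 x, f y = c) : DX f x = 0 := by
  rw [DX_congr (g := fun _ => c) h, DX_const]

theorem DX_add {f g : X → ℂ} {x : X} (hf : DiffAt f x) (hg : DiffAt g x) :
    DX (fun y => f y + g y) x = DX f x + DX g x := by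
  funext i
  exact DD_add hf hg i

theorem DX_mul {f g : X → ℂ} {x : X} (hf : DiffAt f x) (hg : DiffAt g x) :
    DX (fun y => f y * g y) x = f x • DX g x + g x • DX f x := by
  funext i
  have h := DD_mul hf hg i
  rw [(chartAt C2 x).left_inv (mem_chart_source C2 x)] at h
  refine h.trans ?_
  simp only [Pi.add_apply, Pi.smul_apply, smul_eq_mul, DX]
  ring

theorem DX_const_mul (c : ℂ) {f : X → ℂ} {x : X} (hf : DiffAt f x) :
    DX (fun y => c * f y) x = c • DX f x := by
  funext i
  exact DD_const_mul c hf i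

theorem DX_sum {ι : Type*} (s : Finset ι) {f : ι → X → ℂ} {x : X} (hf : ∀ k ∈ s, DiffAt (f k) x) :
    DX (fun y => ∑ k ∈ s, f k y) x = ∑ k ∈ s, DX (f k) x := by
  funext i
  rw [Finset.sum_apply]
  exact DD_sum s hf i

section mfd

variable [IsManifold 𝓘(ℂ, C2) ω X]

theorem _root_.Vale.Agent.P267.FL.Reg0.diffAt {n : WithTop ℕ∞} (hn : n ≠ 0) {f : X → ℂ} (h : Reg0 n 0 f) (x : X) :
    DiffAt f x := by
  have h1 := h.contDiffAt (chart_mem_atlas C2 x) (mem_chart_target C2 x)
  rw [LB.loc0_zero] at h1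
  exact h1.differentiableAt hn

theorem diffAt_chart {f : X → ℂ} {x : X} {e : Ch X} (he : e ∈ atlas C2 X) (hx : x ∈ e.source)
    (h : DiffAt f x) : DifferentiableAt ℝ (fun z => f (e.symm z)) (e x) := by
  set e' := chartAt C2 x with he'd
  have he' : e' ∈ atlas C2 X := chart_mem_atlas C2 x
  have hx' : x ∈ e'.source := mem_chart_source C2 x
  have h1 : (fun z => f (e.symm z)) =ᶠ[𝓝 (e x)]
      fun z => (fun w => f (e'.symm w)) ((fun y => e' (e.symm y)) z) := by
    filter_upwards [(isOpen_trans e e').mem_nhds (mem_trans hx hx')] with z hz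
    rw [e'.left_inv hz.2]
  refine DifferentiableAt.congr_of_eventuallyEq ?_ h1
  have h2 : DifferentiableAt ℝ (fun w => f (e'.symm w)) ((fun y => e' (e.symm y)) (e x)) := by
    simp only [e.left_inv hx]
    exact h
  exact DifferentiableAt.comp (g := fun w => f (e'.symm w)) (e x) h2 ((trans_differentiableAt he he' hx hx').restrictScalars ℝ)

/-- the row of derivatives in an arbitrary chart -/
theorem row_chart {f : X → ℂ} {x : X} {e : Ch X} (he : e ∈ atlas C2 X) (hx : x ∈ e.source)
    (h : DiffAt f x) : row (fun z => f (e.symm z)) (e x) =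
      ![DX f x 0 * jac e x 0 0 + DX f x 1 * jac e x 1 0,
        DX f x 0 * jac e x 0 1 + DX f x 1 * jac e x 1 1,
        DX f x 2 * conj (jac e x 0 0) + DX f x 3 * conj (jac e x 1 0),
        DX f x 2 * conj (jac e x 0 1) + DX f x 3 * conj (jac e x 1 1)] := by
  set e' := chartAt C2 x with he'd
  have he' : e' ∈ atlas C2 X := chart_mem_atlas C2 x
  have hx' : x ∈ e'.source := mem_chart_source C2 x
  have h1 : (fun z => f (e.symm z)) =ᶠ[𝓝 (e x)]
      fun z => (fun w => f (e'.symm w)) ((fun y => e' (e.symm y)) z) := by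
    filter_upwards [(isOpen_trans e e').mem_nhds (mem_trans hx hx')] with z hz
    rw [e'.left_inv hz.2]
  have h2 : DifferentiableAt ℝ (fun w => f (e'.symm w)) ((fun y => e' (e.symm y)) (e x)) := by
    simp only [e.left_inv hx]
    exact h
  have h3 := trans_differentiableAt he he' hx hx'
  have hz : ∀ i, dz i (fun z => f (e.symm z)) (e x) =
      DX f x 0 * jac e x 0 i + DX f x 1 * jac e x 1 i := by
    intro i
    rw [dz_congr h1, dz_comp h2 h3, Fin.sum_univ_two]
    simp only [e.left_inv hx, smul_eq_mul]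
    show jac e x 0 i * DX f x 0 + jac e x 1 i * DX f x 1 = _
    ring
  have hzb : ∀ i, dzb i (fun z => f (e.symm z)) (e x) =
      DX f x 2 * conj (jac e x 0 i) + DX f x 3 * conj (jac e x 1 i) := by
    intro i
    rw [dzb_congr h1, dzb_comp h2 h3, Fin.sum_univ_two]
    simp only [e.left_inv hx, smul_eq_mul]
    show conj (jac e x 0 i) * DX f x 2 + conj (jac e x 1 i) * DX f x 3 = _
    ring
  funext i
  revert i
  exact forall_fin4 (hz 0) (hz 1) (hzb 0) (hzb 1)

/-- `dg₀∧dg₁∧dg₂∧dg₃` in an arbitrary chart -/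
theorem loc2_detW {g : Fin 4 → X → ℂ} {e : Ch X} (he : e ∈ atlas C2 X) {z : C2}
    (hz : z ∈ e.target) (h : ∀ k, DiffAt (g k) (e.symm z)) :
    loc2 1 e (detW g) z = D4 fun k => row (fun y => g k (e.symm y)) z := by
  obtain ⟨x, hx, rfl⟩ : ∃ x ∈ e.source, e x = z := ⟨e.symm z, e.map_target hz, e.right_inv hz⟩
  rw [e.left_inv hx] at h
  have h1 : (fun k => row (fun y => g k (e.symm y)) (e x)) = fun k =>
      ![DX (g k) x 0 * jac e x 0 0 + DX (g k) x 1 * jac e x 1 0,
        DX (g k) x 0 * jac e x 0 1 + DX (g k) x 1 * jac e x 1 1,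
        DX (g k) x 2 * conj (jac e x 0 0) + DX (g k) x 3 * conj (jac e x 1 0),
        DX (g k) x 2 * conj (jac e x 0 1) + DX (g k) x 3 * conj (jac e x 1 1)] :=
    funext fun k => row_chart he hx (h k)
  rw [h1, det_block (jac e x) (fun k => DX (g k) x), loc2_source hx]
  simp only [zpow_one, smul_eq_mul, detW]
  ring

theorem contDiffOn_D4 {u : Fin 4 → C2 → ℂ} {U : Set C2} {m n : WithTop ℕ∞} (hU : IsOpen U)
    (hu : ∀ k, ContDiffOn ℝ n (u k) U) (hmn : m + 1 ≤ n) :
    ContDiffOn ℝ m (fun z => D4 fun k => row (u k) z) U := by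
  have h : (fun z => D4 fun k => row (u k) z) =
      fun z => ∑ σ : Equiv.Perm (Fin 4), ((Equiv.Perm.sign σ : ℤ) : ℂ) * ∏ i, row (u (σ i)) z i := by
    funext z
    rw [D4_eq_det, Matrix.det_apply']
    rfl
  rw [h]
  refine ContDiffOn.sum fun σ _ => contDiffOn_const.mul (contDiffOn_prod fun i _ => ?_)
  exact contDiffOn_DD hU (hu (σ i)) hmn i

theorem reg2_detW {g : Fin 4 → X → ℂ} (hg : ∀ k, Reg0 ∞ 0 (g k)) : Reg2 ∞ 1 (detW g) := by
  intro e he
  have h1 : ∀ k, ContDiffOn ℝ ∞ (fun z => g k (e.symm z)) e.target := by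
    intro k
    have := hg k e he
    rwa [LB.loc0_zero] at this
  refine (contDiffOn_D4 (m := ∞) (n := ∞) e.open_target h1 (by norm_num)).congr fun z hz => ?_
  exact loc2_detW he hz fun k => (hg k).diffAt (by norm_num) _

theorem reg2_mul {κ : ℤ} {n : WithTop ℕ∞} {f : X → ℂ} (hf : Reg0 n 0 f) {b : X → ℂ}
    (hb : Reg2 n κ b) : Reg2 n κ (fun x => f x * b x) := by
  intro e he
  rw [loc2_mul']
  have h1 := hf e he
  rw [LB.loc0_zero] at h1
  exact h1.mul (hb e he)

theorem detW_eq_zero {g : Fin 4 → X → ℂ} {x : X} {k : Fin 4} {c : ℂ}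
    (h : ∀ᶠ y in 𝓝 x, g k y = c) : detW g x = 0 := by
  apply D4_eq_zero_of_zero (i := k)
  exact DX_of_const h

theorem detW_update {g : Fin 4 → X → ℂ} {x : X} (k : Fin 4) (u : X → ℂ) :
    detW (Function.update g k u) x = D4 (Function.update (fun j => DX (g j) x) k (DX u x)) := by
  unfold detW
  congr 1
  funext j
  by_cases h : j = k
  · subst h
    simp
  · simp [h]

/-- the determinant form of one compactly supported function and three arbitrary ones
integrates to zero, if the support lies in a chart -/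
theorem intX_detW_chart [T2Space X] {g : Fin 4 → X → ℂ} (hg : ∀ k, Reg0 ∞ 0 (g k))
    (hc : HasCompactSupport (g 0)) {e : Ch X} (he : e ∈ atlas C2 X)
    (hs : tsupport (g 0) ⊆ e.source) : intX (detW g) = 0 := by
  have hsub : tsupport (detW g) ⊆ tsupport (g 0) := by
    refine closure_minimal ?_ (isClosed_tsupport _)
    intro x hx
    by_contra h
    apply hx
    exact detW_eq_zero (k := 0) (c := 0) (notMem_tsupport_iff_eventuallyEq.1 h)
  have hcd : HasCompactSupport (detW g) := IsCompact.of_isClosed_subset hc (isClosed_tsupport _) hsub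
  rw [intX_chart (reg2_detW hg).locInt hcd he (hsub.trans hs)]
  have hK : IsCompact (e '' tsupport (g 0)) :=
    IsCompact.image_of_continuousOn hc (e.continuousOn.mono hs)
  have hKT : e '' tsupport (g 0) ⊆ e.target := by
    rintro _ ⟨x, hx, rfl⟩
    exact e.map_source (hs hx)
  set u : Fin 4 → C2 → ℂ := fun k z => g k (e.symm z) with hu
  have hus : ∀ k, ContDiffOn ℝ ∞ (u k) e.target := by
    intro k
    have := hg k e he
    rwa [LB.loc0_zero] at this
  have hu0 : ∀ z ∈ e.target, z ∉ e '' tsupport (g 0) → u 0 z = 0 := by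
    intro z hz hzK
    by_contra h
    exact hzK ⟨e.symm z, subset_tsupport _ h, e.right_inv hz⟩
  -- the primitive
  let F : Fin 4 → C2 → ℂ := fun j z => u 0 z * cof (row (u 1) z) (row (u 2) z) (row (u 3) z) j
  have hcof : ∀ j, ContDiffOn ℝ ∞ (fun z => cof (row (u 1) z) (row (u 2) z) (row (u 3) z) j)
      e.target := by
    have r : ∀ k i, ContDiffOn ℝ ∞ (fun z => row (u k) z i) e.target := fun k i =>
      contDiffOn_DD (m := ∞) e.open_target (hus k) (by norm_num) i
    have t : ∀ i j k, ContDiffOn ℝ ∞ (fun z => row (u 1) z i * row (u 2) z j * row (u 3) z k)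
      e.target := fun i j k => ((r 1 i).mul (r 2 j)).mul (r 3 k)
    refine forall_fin4 ?_ ?_ ?_ ?_
    · exact (((((t _ _ _).sub (t _ _ _)).sub (t _ _ _)).add (t _ _ _)).add (t _ _ _)).sub (t _ _ _)
    · exact ((((((t _ _ _).sub (t _ _ _)).sub (t _ _ _)).add (t _ _ _)).add (t _ _ _)).sub
        (t _ _ _)).neg
    · exact (((((t _ _ _).sub (t _ _ _)).sub (t _ _ _)).add (t _ _ _)).add (t _ _ _)).sub (t _ _ _)
    · exact ((((((t _ _ _).sub (t _ _ _)).sub (t _ _ _)).add (t _ _ _)).add (t _ _ _)).sub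
        (t _ _ _)).neg
  have hF : ∀ j, ContDiffOn ℝ ∞ (F j) e.target := fun j => (hus 0).mul (hcof j)
  have hF0 : ∀ j, ∀ z ∈ e.target, z ∉ e '' tsupport (g 0) → F j z = 0 := by
    intro j z hz hzK
    simp only [F, hu0 z hz hzK, zero_mul]
  have hpt : ∀ z ∈ e.target, loc2 1 e (detW g) z =
      DD 0 (F 0) z + DD 1 (F 1) z + DD 2 (F 2) z + DD 3 (F 3) z := by
    intro z hz
    have hn := e.open_target.mem_nhds hz
    rw [loc2_detW he hz fun k => (hg k).diffAt (by norm_num) _, D4_expand]
    have h2i : (2 : WithTop ℕ∞) ≤ ∞ := WithTop.coe_le_coe.2 le_top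
    have hp := piola (((hus 1).contDiffAt hn).of_le h2i)
      (((hus 2).contDiffAt hn).of_le h2i) (((hus 3).contDiffAt hn).of_le h2i)
    have hd0 : DifferentiableAt ℝ (u 0) z := ((hus 0).contDiffAt hn).differentiableAt (by norm_num)
    have hdc : ∀ j, DifferentiableAt ℝ (fun z => cof (row (u 1) z) (row (u 2) z) (row (u 3) z) j) z :=
      fun j => ((hcof j).contDiffAt hn).differentiableAt (by norm_num)
    have hm : ∀ l j, DD l (F j) z = u 0 z * DD l (fun z => cof (row (u 1) z) (row (u 2) z)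
        (row (u 3) z) j) z + DD l (u 0) z * cof (row (u 1) z) (row (u 2) z) (row (u 3) z) j :=
      fun l j => DD_mul hd0 (hdc j) l
    rw [hm, hm, hm, hm]
    have hr : ∀ k i, row (u k) z i = DD i (u k) z := fun _ _ => rfl
    show row (u 0) z 0 * _ + row (u 0) z 1 * _ + row (u 0) z 2 * _ + row (u 0) z 3 * _ = _
    rw [hr, hr, hr, hr]
    linear_combination (-(u 0 z)) * hp
  have hint : ∀ l j, IntegrableOn (DD l (F j)) e.target := by
    intro l j
    refine integrableOn_of_cont e.open_target hK hKT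
      (contDiffOn_DD (m := 0) e.open_target (hF j) (by norm_num) l).continuousOn ?_
    intro z hz hzK
    have h2 : F j =ᶠ[𝓝 z] fun _ => 0 := by
      filter_upwards [hK.isClosed.isOpen_compl.mem_nhds hzK, e.open_target.mem_nhds hz] with y hy hy'
      exact hF0 j y hy' hy
    rw [DD_congr h2, DD_const]
  have hz : ∀ l j, ∫ z in e.target, DD l (F j) z = 0 := fun l j =>
    setIntegral_DD_zero e.open_target hK hKT ((hF j).of_le (by exact_mod_cast le_top)) (hF0 j) l
  have h1 : ∫ z in e.target, 4 * loc2 1 e (detW g) z =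
      ∫ z in e.target, 4 * (DD 0 (F 0) z + DD 1 (F 1) z + DD 2 (F 2) z + DD 3 (F 3) z) :=
    setIntegral_congr_fun e.open_target.measurableSet fun z hz => by
      show 4 * loc2 1 e (detW g) z = _
      rw [hpt z hz]
  have i01 : IntegrableOn (fun z => DD 0 (F 0) z + DD 1 (F 1) z) e.target :=
    (hint 0 0).add (hint 1 1)
  have i012 : IntegrableOn (fun z => DD 0 (F 0) z + DD 1 (F 1) z + DD 2 (F 2) z) e.target :=
    i01.add (hint 2 2)
  rw [h1, integral_const_mul, integral_add i012 (hint 3 3), integral_add i01 (hint 2 2),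
    integral_add (hint 0 0) (hint 1 1), hz, hz, hz, hz]
  simp

end mfd

end Vale.Agent.P267.H533
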