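import Vale.Agent.P267.H399.Calc

/-!
# P267 / H533: existence, uniqueness and basic properties of `FL.intX`
-/

set_option linter.unusedVariables false
set_option linter.unusedSectionVars false

open scoped Manifold ContDiff ComplexConjugate Matrix ComplexOrder
open MeasureTheory Set Filter Topology

noncomputable section

namespace Vale.Agent.P267.H533

open FL

variable {X : Type*} [TopologicalSpace X] [ChartedSpace C2 X]

/-! ### the real Jacobian determinant of a complex linear map -/

theorem det_restrict (L : C2 →L[ℂ] C2) (J : Matrix (Fin 2) (Fin 2) ℂ)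
    (h : ∀ v, J.mulVec v = L v) :
    (L.restrictScalars ℝ).det = Complex.normSq J.det := by
  have h1 : (L : C2 →ₗ[ℂ] C2) = Matrix.toLin' J := by
    apply LinearMap.ext
    intro v
    rw [Matrix.toLin'_apply, h v]
    rfl
  rw [ContinuousLinearMap.det]
  have h2 : ((L.restrictScalars ℝ : C2 →L[ℝ] C2) : C2 →ₗ[ℝ] C2) =
      (L : C2 →ₗ[ℂ] C2).restrictScalars ℝ := rfl
  rw [h2, LinearMap.det_restrictScalars, h1, LinearMap.det_toLin', Algebra.norm_complex_apply]

/-- local integrability of the coefficients of a `(2,2)`-form -/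
def LocInt (b : X → ℂ) : Prop :=
  ∀ e ∈ atlas C2 X, LocallyIntegrableOn (loc2 1 e b) e.target

theorem locInt_of_cont {b : X → ℂ} (h : ∀ e ∈ atlas C2 X, ContinuousOn (loc2 1 e b) e.target) :
    LocInt b := fun e he => (h e he).locallyIntegrableOn e.open_target.measurableSet

theorem _root_.Vale.Agent.P267.FL.Reg2.locInt {n : WithTop ℕ∞} {b : X → ℂ} (h : Reg2 n 1 b) : LocInt b :=
  locInt_of_cont fun e he => (h e he).continuousOn

theorem loc2_add' (κ : ℤ) (e : Ch X) (b b' : X → ℂ) :
    loc2 κ e (fun x => b x + b' x) = fun z => loc2 κ e b z + loc2 κ e b' z := by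
  funext z
  simp only [loc2, smul_eq_mul]
  ring

theorem loc2_mul' (κ : ℤ) (e : Ch X) (f : X → ℂ) (b : X → ℂ) :
    loc2 κ e (fun x => f x * b x) = fun z => f (e.symm z) * loc2 κ e b z := by
  funext z
  simp only [loc2, smul_eq_mul]
  ring

theorem loc2_const_mul' (κ : ℤ) (e : Ch X) (c : ℂ) (b : X → ℂ) :
    loc2 κ e (fun x => c * b x) = fun z => c * loc2 κ e b z := loc2_mul' κ e (fun _ => c) b

theorem loc2_eq_zero {κ : ℤ} {e : Ch X} {b : X → ℂ} {z : C2} (h : b (e.symm z) = 0) :
    loc2 κ e b z = 0 := by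
  simp [loc2, h]

theorem loc2_one (e : Ch X) (b : X → ℂ) (z : C2) :
    loc2 1 e b z = (Complex.normSq (jac e (e.symm z)).det : ℂ) * b (e.symm z) := by
  simp only [loc2, zpow_one, smul_eq_mul, Complex.normSq_eq_conj_mul_self]
  ring

theorem LocInt.add {b b' : X → ℂ} (h : LocInt b) (h' : LocInt b') :
    LocInt fun x => b x + b' x := by
  intro e he
  rw [loc2_add']
  exact (h e he).add (h' e he)

theorem LocInt.const_mul {b : X → ℂ} (h : LocInt b) (c : ℂ) : LocInt fun x => c * b x := by
  intro e he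
  rw [loc2_const_mul']
  exact (h e he).smul c

theorem locInt_zero : LocInt (fun _ : X => (0 : ℂ)) := by
  intro e he
  have : loc2 1 e (fun _ : X => (0 : ℂ)) = fun _ => 0 := by
    funext z
    simp [loc2]
  rw [this]
  exact (locallyIntegrable_const _).locallyIntegrableOn _

theorem locInt_sum {ι : Type*} (s : Finset ι) {b : ι → X → ℂ} (h : ∀ i ∈ s, LocInt (b i)) :
    LocInt fun x => ∑ i ∈ s, b i x := by
  classical
  induction s using Finset.induction_on with
  | empty => simpa using locInt_zero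
  | insert i s hi ih =>
    simp only [Finset.sum_insert hi]
    exact (h i (by simp)).add (ih fun k hk => h k (by simp [hk]))

theorem LocInt.neg {b : X → ℂ} (h : LocInt b) : LocInt fun x => -b x := by
  simpa using h.const_mul (-1)

theorem LocInt.sub {b b' : X → ℂ} (h : LocInt b) (h' : LocInt b') :
    LocInt fun x => b x - b' x := by
  simpa [sub_eq_add_neg] using h.add h'.neg

theorem LocInt.mul_cont {b : X → ℂ} (h : LocInt b) {f : X → ℂ} (hf : Continuous f) :
    LocInt fun x => f x * b x := by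
  intro e he
  rw [loc2_mul']
  have h1 : ContinuousOn (fun z => f (e.symm z)) e.target :=
    hf.comp_continuousOn e.continuousOn_symm
  exact (h e he).continuousOn_mul h1 e.open_target.isLocallyClosed

theorem LocInt.conj {b : X → ℂ} (h : LocInt b) : LocInt fun x => conj (b x) := by
  intro e he
  have h1 : loc2 1 e (fun x => conj (b x)) = fun z => conj (loc2 1 e b z) := by
    funext z
    rw [loc2_one, loc2_one, map_mul, Complex.conj_ofReal]
  rw [h1]
  intro z hz
  obtain ⟨s, hs, hi⟩ := h e he z hz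
  exact ⟨s, hs, (Complex.conjLIE.toContinuousLinearEquiv : ℂ →L[ℝ] ℂ).integrable_comp hi⟩

/-! ### pieces -/

/-- the integral over one chart with weight `w` -/
def piece (e : Ch X) (w : X → ℝ) (b : X → ℂ) : ℂ :=
  ∫ z in e.target, (4 * (w (e.symm z) : ℂ)) * loc2 1 e b z

theorem isCompact_image_tsupport {e : Ch X} {w : X → ℝ} (hw : HasCompactSupport w)
    (hs : tsupport w ⊆ e.source) : IsCompact (e '' tsupport w) :=
  IsCompact.image_of_continuousOn hw (e.continuousOn.mono hs)

theorem integrableOn_piece {e : Ch X} (he : e ∈ atlas C2 X) {w : X → ℝ} (hwc : Continuous w)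
    (hw : HasCompactSupport w) (hs : tsupport w ⊆ e.source) {b : X → ℂ} (hb : LocInt b) :
    IntegrableOn (fun z => (4 * (w (e.symm z) : ℂ)) * loc2 1 e b z) e.target := by
  have hK := isCompact_image_tsupport hw hs
  have hKt : e '' tsupport w ⊆ e.target := by
    rintro _ ⟨x, hx, rfl⟩
    exact e.map_source (hs hx)
  have h1 : IntegrableOn (loc2 1 e b) (e '' tsupport w) :=
    (hb e he).integrableOn_compact_subset hKt hK
  have h2 : ContinuousOn (fun z => (4 * (w (e.symm z) : ℂ))) (e '' tsupport w) := by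
    have : ContinuousOn (fun z => w (e.symm z)) (e '' tsupport w) :=
      hwc.comp_continuousOn (e.continuousOn_symm.mono hKt)
    exact continuousOn_const.mul (Complex.continuous_ofReal.comp_continuousOn this)
  have h3 := h1.continuousOn_mul h2 hK
  refine h3.of_forall_sdiff_eq_zero e.open_target.measurableSet ?_
  intro z hz
  have hz' : w (e.symm z) = 0 := by
    by_contra hne
    apply hz.2
    exact ⟨e.symm z, subset_tsupport _ hne, e.right_inv hz.1⟩
  simp [hz']

section change

variable [IsManifold 𝓘(ℂ, C2) ω X]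

/-- change of variables between two charts -/
theorem integral_change {e e' : Ch X} (he : e ∈ atlas C2 X) (he' : e' ∈ atlas C2 X)
    (b : X → ℂ) (hb : ∀ x ∈ e.source, x ∉ e'.source → b x = 0)
    (hb' : ∀ x ∈ e'.source, x ∉ e.source → b x = 0) :
    ∫ z in e.target, loc2 1 e b z = ∫ z in e'.target, loc2 1 e' b z := by
  set S : Set C2 := e.target ∩ e.symm ⁻¹' e'.source with hS
  set S' : Set C2 := e'.target ∩ e'.symm ⁻¹' e.source with hS'
  have hSo : IsOpen S := isOpen_trans e e'
  have hSo' : IsOpen S' := isOpen_trans e' e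
  have h1 : ∫ z in e.target, loc2 1 e b z = ∫ z in S, loc2 1 e b z := by
    apply setIntegral_eq_of_subset_of_forall_sdiff_eq_zero e.open_target.measurableSet
      inter_subset_left
    intro z hz
    apply loc2_eq_zero
    apply hb _ (e.map_target hz.1)
    intro hcon
    exact hz.2 ⟨hz.1, hcon⟩
  have h1' : ∫ z in e'.target, loc2 1 e' b z = ∫ z in S', loc2 1 e' b z := by
    apply setIntegral_eq_of_subset_of_forall_sdiff_eq_zero e'.open_target.measurableSet
      inter_subset_left
    intro z hz
    apply loc2_eq_zero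
    apply hb' _ (e'.map_target hz.1)
    intro hcon
    exact hz.2 ⟨hz.1, hcon⟩
  rw [h1, h1']
  set φ : C2 → C2 := fun z => e' (e.symm z) with hφ
  have him : φ '' S = S' := by
    ext y
    constructor
    · rintro ⟨z, hz, rfl⟩
      refine ⟨e'.map_source hz.2, ?_⟩
      show e'.symm (e' (e.symm z)) ∈ e.source
      rw [e'.left_inv hz.2]
      exact e.map_target hz.1
    · intro hy
      refine ⟨e (e'.symm y), ⟨e.map_source hy.2, ?_⟩, ?_⟩
      · show e.symm (e (e'.symm y)) ∈ e'.source
        rw [e.left_inv hy.2]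
        exact e'.map_target hy.1
      · show e' (e.symm (e (e'.symm y))) = y
        rw [e.left_inv hy.2, e'.right_inv hy.1]
  have hinj : InjOn φ S := by
    intro z hz y hy hzy
    have h2 : e.symm z = e.symm y := e'.injOn hz.2 hy.2 hzy
    exact e.symm.injOn hz.1 hy.1 h2
  have hder : ∀ z ∈ S, HasFDerivWithinAt φ ((fderiv ℂ φ z).restrictScalars ℝ) S z := by
    intro z hz
    have h2 : DifferentiableAt ℂ φ z := (trans_analyticAt' he he' hz.1 hz.2).differentiableAt
    exact (h2.hasFDerivAt.restrictScalars ℝ).hasFDerivWithinAt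
  rw [← him, integral_image_eq_integral_abs_det_fderiv_smul volume hSo.measurableSet hder hinj]
  refine setIntegral_congr_fun hSo.measurableSet fun z hz => ?_
  obtain ⟨x, hx, hx', rfl⟩ : ∃ x ∈ e.source, x ∈ e'.source ∧ e x = z :=
    ⟨e.symm z, e.map_target hz.1, hz.2, e.right_inv hz.1⟩
  have hdet := det_restrict (fderiv ℂ φ (e x)) (jacM e e' x) (jacM_mulVec he he' hx hx')
  rw [hdet, loc2_change he he' hx hx', abs_of_nonneg (Complex.normSq_nonneg _), hφ]
  simp only [e.left_inv hx, zpow_one, smul_eq_mul, Complex.real_smul,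
    Complex.normSq_eq_conj_mul_self]
  ring

theorem piece_eq (e : Ch X) (w : X → ℝ) (b : X → ℂ) :
    piece e w b = ∫ z in e.target, loc2 1 e (fun x => (4 * (w x : ℂ)) * b x) z := by
  rw [piece, loc2_mul']

theorem piece_change {e e' : Ch X} (he : e ∈ atlas C2 X) (he' : e' ∈ atlas C2 X)
    {w : X → ℝ} (hw : Function.support w ⊆ e.source ∩ e'.source) (b : X → ℂ) :
    piece e w b = piece e' w b := by
  rw [piece_eq, piece_eq]
  apply integral_change he he'
  · intro x hx hx'
    have : w x = 0 := by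
      by_contra h
      exact hx' (hw h).2
    simp [this]
  · intro x hx hx'
    have : w x = 0 := by
      by_contra h
      exact hx' (hw h).1
    simp [this]

/-- an admissible family for `HasInt` -/
structure IsFam (K : Set X) {N : ℕ} (e : Fin N → Ch X) (ρ : Fin N → X → ℝ) : Prop where
  mem : ∀ i, e i ∈ atlas C2 X
  cont : ∀ i, Continuous (ρ i)
  cpt : ∀ i, HasCompactSupport (ρ i)
  sub : ∀ i, tsupport (ρ i) ⊆ (e i).source
  sum : ∀ x ∈ K, ∑ i, ρ i x = 1

theorem hasInt_iff {b : X → ℂ} {I : ℂ} : HasInt b I ↔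
    ∀ (N : ℕ) (e : Fin N → Ch X) (ρ : Fin N → X → ℝ), IsFam (tsupport b) e ρ →
      ∑ i, piece (e i) (ρ i) b = I :=
  ⟨fun h N e ρ hf => h N e ρ hf.mem hf.cont hf.cpt hf.sub hf.sum,
    fun h N e ρ h1 h2 h3 h4 h5 => h N e ρ ⟨h1, h2, h3, h4, h5⟩⟩

theorem piece_add {e : Ch X} (he : e ∈ atlas C2 X) {w : X → ℝ} (hwc : Continuous w)
    (hw : HasCompactSupport w) (hs : tsupport w ⊆ e.source) {b b' : X → ℂ} (hb : LocInt b)
    (hb' : LocInt b') : piece e w (fun x => b x + b' x) = piece e w b + piece e w b' := by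
  unfold piece
  rw [← integral_add (integrableOn_piece he hwc hw hs hb) (integrableOn_piece he hwc hw hs hb')]
  congr 1
  funext z
  rw [loc2_add']
  ring

theorem piece_const_mul (e : Ch X) (w : X → ℝ) (b : X → ℂ) (c : ℂ) :
    piece e w (fun x => c * b x) = c * piece e w b := by
  unfold piece
  rw [← integral_const_mul]
  congr 1
  funext z
  rw [loc2_const_mul']
  ring

/-- splitting a piece with a second family of weights -/
theorem piece_split {e : Ch X} (he : e ∈ atlas C2 X) {w : X → ℝ} (hwc : Continuous w)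
    (hw : HasCompactSupport w) (hs : tsupport w ⊆ e.source) {b : X → ℂ} (hb : LocInt b)
    {N : ℕ} {ρ : Fin N → X → ℝ} (hρ : ∀ i, Continuous (ρ i))
    (hsum : ∀ x ∈ tsupport b, ∑ i, ρ i x = 1) :
    piece e w b = ∑ i, piece e (fun x => w x * ρ i x) b := by
  unfold piece
  rw [← integral_finsetSum]
  · congr 1
    funext z
    by_cases h : b (e.symm z) = 0
    · rw [loc2_eq_zero h]
      simp
    · have h1 := hsum (e.symm z) (subset_tsupport _ h)
      have h2 : (w (e.symm z) : ℂ) = ∑ i, ((w (e.symm z) * ρ i (e.symm z) : ℝ) : ℂ) := by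
        rw [← Complex.ofReal_sum, ← Finset.mul_sum, h1, mul_one]
      conv_lhs => rw [h2]
      rw [Finset.mul_sum, Finset.sum_mul]
  · intro i _
    refine integrableOn_piece he (hwc.mul (hρ i)) hw.mul_right ?_ hb
    exact (tsupport_mul_subset_left).trans hs

/-- independence of the family -/
theorem fam_indep {b : X → ℂ} (hb : LocInt b) {N N' : ℕ} {e : Fin N → Ch X} {ρ : Fin N → X → ℝ}
    {e' : Fin N' → Ch X} {ρ' : Fin N' → X → ℝ} (h : IsFam (tsupport b) e ρ)
    (h' : IsFam (tsupport b) e' ρ') :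
    ∑ i, piece (e i) (ρ i) b = ∑ i, piece (e' i) (ρ' i) b := by
  have h1 : ∀ i, piece (e i) (ρ i) b = ∑ j, piece (e i) (fun x => ρ i x * ρ' j x) b := fun i =>
    piece_split (h.mem i) (h.cont i) (h.cpt i) (h.sub i) hb h'.cont h'.sum
  have h2 : ∀ j, piece (e' j) (ρ' j) b = ∑ i, piece (e' j) (fun x => ρ' j x * ρ i x) b := fun j =>
    piece_split (h'.mem j) (h'.cont j) (h'.cpt j) (h'.sub j) hb h.cont h.sum
  simp only [h1, h2]
  rw [Finset.sum_comm]
  refine Finset.sum_congr rfl fun j _ => Finset.sum_congr rfl fun i _ => ?_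
  have h3 : (fun x => ρ' j x * ρ i x) = fun x => ρ i x * ρ' j x := by
    funext x
    rw [mul_comm]
  rw [h3]
  apply piece_change (h.mem i) (h'.mem j)
  intro x hx
  have hx1 : ρ i x * ρ' j x ≠ 0 := hx
  exact ⟨h.sub i (subset_tsupport _ (left_ne_zero_of_mul hx1)),
    h'.sub j (subset_tsupport _ (right_ne_zero_of_mul hx1))⟩

theorem IsFam.hasInt {b : X → ℂ} (hb : LocInt b) {N : ℕ} {e : Fin N → Ch X}
    {ρ : Fin N → X → ℝ} (h : IsFam (tsupport b) e ρ) : HasInt b (∑ i, piece (e i) (ρ i) b) :=
  hasInt_iff.2 fun _ _ _ h' => fam_indep hb h' h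

end change

end Vale.Agent.P267.H533
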