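import Vale.Agent.P267.H533.DetX
import Vale.Agent.P267.H533.LamAdj

/-!
# P267 / H533: UNI-INST, the instance of `TopInt` for a complex surface
-/

set_option linter.unusedVariables false
set_option linter.unusedSectionVars false

open scoped Manifold ContDiff ComplexConjugate Matrix ComplexOrder
open MeasureTheory Set Filter Topology

noncomputable section

namespace Vale.Agent.P267.H533

open FL

section algebra

variable (X : Type*) [TopologicalSpace X] [ChartedSpace C2 X]

/-- real smooth functions which are constant outside a compact set -/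
def AX : Subalgebra ℝ (X → ℝ) where
  carrier := {f | RSm f ∧ ∃ c : ℝ, HasCompactSupport (fun x => f x - c)}
  mul_mem' := by
    rintro f g ⟨hf, c, hc⟩ ⟨hg, d, hd⟩
    refine ⟨hf.mul hg, c * d, ?_⟩
    have h : (fun x => (f * g) x - c * d) = fun x => (f x - c) * g x + c * (g x - d) := by
      funext x
      simp only [Pi.mul_apply]
      ring
    rw [h]
    exact (hc.mul_right).add hd.mul_left
  add_mem' := by
    rintro f g ⟨hf, c, hc⟩ ⟨hg, d, hd⟩
    refine ⟨hf.add hg, c + d, ?_⟩
    have h : (fun x => (f + g) x - (c + d)) = fun x => (f x - c) + (g x - d) := by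
      funext x
      simp only [Pi.add_apply]
      ring
    rw [h]
    exact hc.add hd
  algebraMap_mem' r := by
    refine ⟨RSm.const r, r, ?_⟩
    have h : (fun x : X => (algebraMap ℝ (X → ℝ)) r x - r) = 0 := by
      funext x
      simp
    rw [h]
    exact HasCompactSupport.zero

end algebra

variable {X : Type*} [TopologicalSpace X] [ChartedSpace C2 X]

theorem mem_AX {f : X → ℝ} : f ∈ AX X ↔ RSm f ∧ ∃ c : ℝ, HasCompactSupport (fun x => f x - c) :=
  Iff.rfl

theorem mem_AX_of_compact [CompactSpace X] {f : X → ℝ} (h : RSm f) : f ∈ AX X :=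
  ⟨h, 0, HasCompactSupport.of_compactSpace _⟩

theorem mem_AX_of_cpt {f : X → ℝ} (h : RSm f) (hc : HasCompactSupport f) : f ∈ AX X :=
  ⟨h, 0, by simpa using hc⟩

theorem AX_rsm (a : AX X) : RSm (a : X → ℝ) := a.2.1

theorem AX_reg (a : AX X) : Reg0 ∞ 0 (fun x => ((a : X → ℝ) x : ℂ)) := (AX_rsm a).reg

/-- the row of derivatives of an element of the algebra -/
def rowA (a : AX X) (x : X) : Fin 4 → ℂ := DX (fun y => ((a : X → ℝ) y : ℂ)) x

/-- `dg₀∧dg₁∧dg₂∧dg₃` -/
def WA (g : Fin 4 → AX X) (x : X) : ℂ := D4 fun k => rowA (g k) x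

theorem WA_eq (g : Fin 4 → AX X) : WA g = detW fun k x => ((g k : X → ℝ) x : ℂ) := rfl

theorem WA_update (g : Fin 4 → AX X) (i : Fin 4) (u : AX X) (x : X) :
    WA (Function.update g i u) x = D4 (Function.update (fun j => rowA (g j) x) i (rowA u x)) := by
  unfold WA
  congr 1
  funext j
  by_cases h : j = i
  · subst h
    simp
  · simp [h]

section mfd

variable [IsManifold 𝓘(ℂ, C2) ω X]

theorem AX_diffAt (a : AX X) (x : X) : DiffAt (fun y => ((a : X → ℝ) y : ℂ)) x :=
  (AX_reg a).diffAt (by norm_num) x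

theorem rowA_add (a b : AX X) (x : X) : rowA (a + b) x = rowA a x + rowA b x := by
  have h := DX_add (AX_diffAt a x) (AX_diffAt b x)
  rw [rowA, rowA, rowA, ← h]
  congr 1
  funext y
  show (((a : X → ℝ) y + (b : X → ℝ) y : ℝ) : ℂ) = _
  push_cast
  rfl

theorem rowA_smul (r : ℝ) (a : AX X) (x : X) : rowA (r • a) x = (r : ℂ) • rowA a x := by
  have h := DX_const_mul (r : ℂ) (AX_diffAt a x)
  rw [rowA, rowA, ← h]
  congr 1
  funext y
  show ((r * (a : X → ℝ) y : ℝ) : ℂ) = _
  push_cast
  rfl

theorem rowA_mul (a b : AX X) (x : X) :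
    rowA (a * b) x = ((a : X → ℝ) x : ℂ) • rowA b x + ((b : X → ℝ) x : ℂ) • rowA a x := by
  have h := DX_mul (AX_diffAt a x) (AX_diffAt b x)
  rw [rowA, rowA, rowA, ← h]
  congr 1
  funext y
  show (((a : X → ℝ) y * (b : X → ℝ) y : ℝ) : ℂ) = _
  push_cast
  rfl

theorem rowA_of_const (a : AX X) {x : X} {c : ℝ} (h : ∀ᶠ y in 𝓝 x, (a : X → ℝ) y = c) :
    rowA a x = 0 := by
  apply DX_of_const (c := (c : ℂ))
  filter_upwards [h] with y hy
  rw [hy]

theorem reg2_WA (f : AX X) (g : Fin 4 → AX X) :
    Reg2 ∞ 1 (fun x => ((f : X → ℝ) x : ℂ) * WA g x) :=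
  reg2_mul (AX_reg f) (reg2_detW fun k => AX_reg (g k))

theorem locInt_WA (f : AX X) (g : Fin 4 → AX X) :
    LocInt (fun x => ((f : X → ℝ) x : ℂ) * WA g x) := (reg2_WA f g).locInt

theorem cpt_WA (g : Fin 4 → AX X) : HasCompactSupport (WA g) := by
  obtain ⟨c, hc⟩ := (g 0).2.2
  refine IsCompact.of_isClosed_subset hc (isClosed_tsupport _)
    (closure_minimal ?_ (isClosed_tsupport _))
  intro x hx
  by_contra h
  apply hx
  apply D4_eq_zero_of_zero (i := 0)
  apply rowA_of_const (c := c)
  filter_upwards [notMem_tsupport_iff_eventuallyEq.1 h] with y hy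
  have : (g 0 : X → ℝ) y - c = 0 := hy
  linarith

theorem cpt_fWA (f : AX X) (g : Fin 4 → AX X) :
    HasCompactSupport (fun x => ((f : X → ℝ) x : ℂ) * WA g x) :=
  (cpt_WA g).mul_left

/-- rows of real functions -/
theorem rowA_conj (a : AX X) (x : X) :
    rowA a x 2 = conj (rowA a x 0) ∧ rowA a x 3 = conj (rowA a x 1) := by
  have hd : DifferentiableAt ℝ (fun z => (((a : X → ℝ) ((chartAt C2 x).symm z) : ℝ) : ℂ))
    (chartAt C2 x x) := AX_diffAt a x
  have h : ∀ j, dzb j (fun z => (((a : X → ℝ) ((chartAt C2 x).symm z) : ℝ) : ℂ))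
      (chartAt C2 x x) = conj (dz j (fun z => (((a : X → ℝ) ((chartAt C2 x).symm z) : ℝ) : ℂ))
      (chartAt C2 x x)) := by
    intro j
    have h1 := dzb_conj hd j
    simp only [Complex.conj_ofReal] at h1
    exact h1
  exact ⟨h 0, h 1⟩

theorem conj_WA (g : Fin 4 → AX X) (x : X) : conj (WA g x) = WA g x := by
  have h2 : ∀ k, rowA (g k) x 2 = conj (rowA (g k) x 0) := fun k => (rowA_conj (g k) x).1
  have h3 : ∀ k, rowA (g k) x 3 = conj (rowA (g k) x 1) := fun k => (rowA_conj (g k) x).2
  rw [WA, D4_expand]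
  simp [cof, h2, h3]
  ring

variable [T2Space X]

/-- the complex value -/
def IC (f : AX X) (g : Fin 4 → AX X) : ℂ := intX (fun x => ((f : X → ℝ) x : ℂ) * WA g x)

theorem IC_real (f : AX X) (g : Fin 4 → AX X) : ((IC f g).re : ℂ) = IC f g := by
  apply intX_ofReal_re (locInt_WA f g) (cpt_fWA f g)
  intro x
  rw [map_mul, Complex.conj_ofReal, conj_WA]

theorem IC_add (f f' : AX X) (g : Fin 4 → AX X) : IC (f + f') g = IC f g + IC f' g := by
  unfold IC
  rw [← intX_add (locInt_WA f g) (cpt_fWA f g) (locInt_WA f' g) (cpt_fWA f' g)]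
  congr 1
  funext x
  show (((f : X → ℝ) x + (f' : X → ℝ) x : ℝ) : ℂ) * _ = _
  push_cast
  ring

theorem IC_smul (r : ℝ) (f : AX X) (g : Fin 4 → AX X) : IC (r • f) g = r * IC f g := by
  unfold IC
  rw [← intX_const_mul (locInt_WA f g) (cpt_fWA f g)]
  congr 1
  funext x
  show ((r * (f : X → ℝ) x : ℝ) : ℂ) * _ = _
  push_cast
  ring

theorem IC_update_add (f : AX X) (g : Fin 4 → AX X) (i : Fin 4) (u v : AX X) :
    IC f (Function.update g i (u + v)) =
      IC f (Function.update g i u) + IC f (Function.update g i v) := by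
  unfold IC
  rw [← intX_add (locInt_WA _ _) (cpt_fWA _ _) (locInt_WA _ _) (cpt_fWA _ _)]
  congr 1
  funext x
  rw [WA_update, WA_update, WA_update, rowA_add, D4_update_add]
  ring

theorem IC_update_smul (f : AX X) (g : Fin 4 → AX X) (i : Fin 4) (r : ℝ) (u : AX X) :
    IC f (Function.update g i (r • u)) = r * IC f (Function.update g i u) := by
  unfold IC
  rw [← intX_const_mul (locInt_WA _ _) (cpt_fWA _ _)]
  congr 1
  funext x
  rw [WA_update, WA_update, rowA_smul, D4_update_smul]
  ring

theorem IC_eq_zero_of_eq (f : AX X) (g : Fin 4 → AX X) {i j : Fin 4} (h : g i = g j)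
    (hij : i ≠ j) : IC f g = 0 := by
  unfold IC
  have h1 : (fun x => ((f : X → ℝ) x : ℂ) * WA g x) = fun _ => 0 := by
    funext x
    have : WA g x = 0 := D4_eq_zero_of_eq _ (by simp only [h]) hij
    rw [this, mul_zero]
  rw [h1, intX_zero]

theorem IC_leibniz (f g h : AX X) (w : Fin 4 → AX X) :
    IC f (Function.update w 0 (g * h)) =
      IC (f * g) (Function.update w 0 h) + IC (f * h) (Function.update w 0 g) := by
  unfold IC
  rw [← intX_add (locInt_WA _ _) (cpt_fWA _ _) (locInt_WA _ _) (cpt_fWA _ _)]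
  congr 1
  funext x
  rw [WA_update, WA_update, WA_update, rowA_mul, D4_update_add, D4_update_smul, D4_update_smul]
  show _ = (((f : X → ℝ) x * (g : X → ℝ) x : ℝ) : ℂ) * _ +
    (((f : X → ℝ) x * (h : X → ℝ) x : ℝ) : ℂ) * _
  push_cast
  ring

theorem IC_loc (f : AX X) (w : Fin 4 → AX X)
    (h : ∀ x, (∀ᶠ y in 𝓝 x, (f : X → ℝ) y = 0) ∨
      ∃ k, ∃ c : ℝ, ∀ᶠ y in 𝓝 x, (w k : X → ℝ) y = c) : IC f w = 0 := by
  unfold IC
  have h1 : (fun x => ((f : X → ℝ) x : ℂ) * WA w x) = fun _ => 0 := by
    funext x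
    rcases h x with h | ⟨k, c, h⟩
    · rw [h.self_of_nhds]
      simp
    · have : WA w x = 0 := D4_eq_zero_of_zero (i := k) _ (rowA_of_const (w k) h)
      rw [this, mul_zero]
  rw [h1, intX_zero]

theorem IC_stokes (w : Fin 4 → AX X) : IC 1 w = 0 := by
  obtain ⟨c, hc⟩ := (w 0).2.2
  obtain ⟨N, e, ρ, he, hρ, hρc, hρs, h0, h1, hK1⟩ :=
    exists_smooth_family (X := X) hc isOpen_univ (subset_univ _)
  -- the pieces `ρ_i (w 0 - c)`
  have hg : RSm fun x => (w 0 : X → ℝ) x - c := (AX_rsm (w 0)).sub (RSm.const c)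
  have hp : ∀ i, RSm fun x => ρ i x * ((w 0 : X → ℝ) x - c) := fun i => (hρ i).mul hg
  have hpc : ∀ i, HasCompactSupport fun x => ρ i x * ((w 0 : X → ℝ) x - c) := fun i =>
    (hρc i).mul_right
  let p : Fin N → AX X := fun i => ⟨_, mem_AX_of_cpt (hp i) (hpc i)⟩
  have hsum : w 0 = c • (1 : AX X) + ∑ i, p i := by
    apply Subtype.ext
    funext x
    have e1 : (((c • (1 : AX X) + ∑ i, p i : AX X)) : X → ℝ) x =
        c * 1 + ∑ i, ρ i x * ((w 0 : X → ℝ) x - c) := by
      show (c • (1 : AX X) : AX X).1 x + ((∑ i, p i : AX X) : X → ℝ) x = _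
      congr 1
      rw [AddSubmonoidClass.coe_finsetSum, Finset.sum_apply]
    rw [e1, ← Finset.sum_mul]
    by_cases hx : (w 0 : X → ℝ) x - c = 0
    · rw [hx]
      linarith
    · have : ∑ i, ρ i x = 1 := Eventually.self_of_nhdsSet hK1 x (subset_tsupport _ hx)
      rw [this]
      ring
  have hrow : ∀ x, rowA (w 0) x = ∑ i, rowA (p i) x := by
    intro x
    have hz : rowA (c • (1 : AX X)) x = 0 := by
      apply rowA_of_const (c := c)
      filter_upwards with y
      show c * 1 = c
      ring
    have hsumrow : ∀ s : Finset (Fin N), rowA (∑ i ∈ s, p i) x = ∑ i ∈ s, rowA (p i) x := by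
      intro s
      classical
      induction s using Finset.induction_on with
      | empty =>
        simp only [Finset.sum_empty]
        apply rowA_of_const (c := 0)
        filter_upwards with y
        rfl
      | insert i s hi ih => rw [Finset.sum_insert hi, Finset.sum_insert hi, rowA_add, ih]
    conv_lhs => rw [hsum]
    rw [rowA_add, hz, zero_add, hsumrow]
  have hW : ∀ x, WA w x = ∑ i, WA (Function.update w 0 (p i)) x := by
    intro x
    have h2 : WA w x = D4 (Function.update (fun j => rowA (w j) x) 0 (∑ i, rowA (p i) x)) := by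
      rw [← hrow, ← WA_update, Function.update_eq_self]
    rw [h2]
    simp only [WA_update]
    exact D4_update_sum _ _ _ _
  have hfun : (fun x => (((1 : AX X) : X → ℝ) x : ℂ) * WA w x) =
      fun x => ∑ i, WA (Function.update w 0 (p i)) x := by
    funext x
    rw [hW]
    show (((1 : ℝ)) : ℂ) * _ = _
    simp
  unfold IC
  rw [hfun, intX_sum]
  · refine Finset.sum_eq_zero fun i _ => ?_
    rw [WA_eq]
    apply intX_detW_chart (fun k => AX_reg _) (e := e i) ?_ (he i) ?_
    · have : (fun x => (((Function.update w 0 (p i)) 0 : X → ℝ) x : ℂ)) =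
          fun x => ((ρ i x * ((w 0 : X → ℝ) x - c) : ℝ) : ℂ) := by
        rw [Function.update_self]
      rw [this]
      exact (hpc i).comp_left (g := fun r : ℝ => (r : ℂ)) (by simp)
    · have : (fun x => (((Function.update w 0 (p i)) 0 : X → ℝ) x : ℂ)) =
          fun x => ((ρ i x * ((w 0 : X → ℝ) x - c) : ℝ) : ℂ) := by
        rw [Function.update_self]
      rw [this]
      refine (closure_mono ?_).trans ((hρs i).trans inter_subset_left)
      intro x hx h4
      apply hx
      have : ρ i x = 0 := h4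
      simp [this]
  · intro i _
    exact (reg2_detW fun k => AX_reg _).locInt
  · intro i _
    exact cpt_WA _

/-- **UNI-INST**: the functional `∫ f dg₀∧dg₁∧dg₂∧dg₃` on a complex surface -/
def TI (X : Type*) [TopologicalSpace X] [ChartedSpace C2 X] [IsManifold 𝓘(ℂ, C2) ω X]
    [T2Space X] : TopInt (AX X) where
  I :=
    { toFun := fun f =>
        { toFun := fun g => (IC f g).re
          map_update_add' := by
            intro inst g i u v
            have : inst = instDecidableEqFin 4 := Subsingleton.elim _ _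
            subst this
            rw [IC_update_add, Complex.add_re]
          map_update_smul' := by
            intro inst g i r u
            have : inst = instDecidableEqFin 4 := Subsingleton.elim _ _
            subst this
            rw [IC_update_smul, Complex.re_ofReal_mul, smul_eq_mul]
          map_eq_zero_of_eq' := by
            intro g i j h hij
            rw [IC_eq_zero_of_eq f g h hij, Complex.zero_re] }
      map_add' := by
        intro f f'
        ext g
        show (IC (f + f') g).re = (IC f g).re + (IC f' g).re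
        rw [IC_add, Complex.add_re]
      map_smul' := by
        intro r f
        ext g
        show (IC (r • f) g).re = r * (IC f g).re
        rw [IC_smul, Complex.re_ofReal_mul] }
  leibniz := by
    intro f g h w
    show (IC f _).re = (IC (f * g) _).re + (IC (f * h) _).re
    rw [IC_leibniz, Complex.add_re]
  loc := by
    intro f w h
    show (IC f w).re = 0
    rw [IC_loc f w h, Complex.zero_re]
  stokes := by
    intro w
    show (IC 1 w).re = 0
    rw [IC_stokes, Complex.zero_re]

theorem TI_I (f : AX X) (g : Fin 4 → AX X) :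
    (((TI X).I f g : ℝ) : ℂ) = intX (fun x => ((f : X → ℝ) x : ℂ) * WA g x) := IC_real f g

end mfd

end Vale.Agent.P267.H533
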