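import Vale.Agent.P267.H533.InstChart

/-!
# P267 / H533: `∫ W(f) ∧ W(g)` in the language of `FL.TwoF`
-/

set_option linter.unusedVariables false
set_option linter.unusedSectionVars false

open scoped Manifold ContDiff ComplexConjugate Matrix ComplexOrder
open MeasureTheory Set Filter Topology

noncomputable section

namespace Vale.Agent.P267.H533

open FL

variable {X : Type*} [TopologicalSpace X] [ChartedSpace C2 X]

/-- `du ∧ dw` -/
def wdF (u w : X → ℂ) : TwoF X where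
  f20 x := del0 u x 0 * del0 w x 1 - del0 u x 1 * del0 w x 0
  f11 x := Matrix.of fun i j => del0 u x i * dbar0 0 w x j - dbar0 0 u x j * del0 w x i
  f02 x := dbar0 0 u x 0 * dbar0 0 w x 1 - dbar0 0 u x 1 * dbar0 0 w x 0

theorem DX_0 (f : X → ℂ) (x : X) : DX f x 0 = del0 f x 0 := by rw [DX_eq]; rfl
theorem DX_1 (f : X → ℂ) (x : X) : DX f x 1 = del0 f x 1 := by rw [DX_eq]; rfl
theorem DX_2 (f : X → ℂ) (x : X) : DX f x 2 = dbar0 0 f x 0 := by rw [DX_eq]; rfl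
theorem DX_3 (f : X → ℂ) (x : X) : DX f x 3 = dbar0 0 f x 1 := by rw [DX_eq]; rfl

/-- `(da∧db)∧(dc∧dd) = da∧db∧dc∧dd` -/
theorem wdF_wedge (a b c d : X → ℂ) (x : X) :
    (wdF a b).wedge (wdF c d) x = detW ![a, b, c, d] x := by
  rw [detW, D4_expand]
  simp only [TwoF.wedge, wdF, Matrix.of_apply, cof, Matrix.cons_val_zero, Matrix.cons_val_one,
    Matrix.cons_val, DX_0, DX_1, DX_2, DX_3]
  ring

variable {ι : Type*} [Fintype ι]

/-- `∑ r_{abc} ψ_a dψ_b∧dψ_c` -/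
def WF (ψ : ι → X → ℂ) (r : ι → ι → ι → ℂ) : TwoF X where
  f20 x := ∑ a, ∑ b, ∑ c, r a b c * (ψ a x * (wdF (ψ b) (ψ c)).f20 x)
  f11 x := Matrix.of fun i j => ∑ a, ∑ b, ∑ c, r a b c * (ψ a x * (wdF (ψ b) (ψ c)).f11 x i j)
  f02 x := ∑ a, ∑ b, ∑ c, r a b c * (ψ a x * (wdF (ψ b) (ψ c)).f02 x)

/-- bilinearity of the wedge product, in the form needed -/
theorem WF_wedge (ψ ψ' : ι → X → ℂ) (r r' : ι → ι → ι → ℂ) (x : X) :
    (WF ψ r).wedge (WF ψ' r') x =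
      ∑ a, ∑ b, ∑ c, ∑ a', ∑ b', ∑ c', r a b c * (r' a' b' c' *
        ((ψ a x * ψ' a' x) * detW ![ψ b, ψ c, ψ' b', ψ' c'] x)) := by
  simp only [← wdF_wedge]
  have key : ∀ (p q : (ι → ι → ι → ℂ)),
      (∑ a, ∑ b, ∑ c, p a b c) * (∑ a, ∑ b, ∑ c, q a b c) =
      ∑ a, ∑ b, ∑ c, ∑ a', ∑ b', ∑ c', p a b c * q a' b' c' := by
    intro p q
    have h1 : (∑ a, ∑ b, ∑ c, p a b c) * (∑ a, ∑ b, ∑ c, q a b c) =
        ∑ a, ∑ b, ∑ c, p a b c * (∑ a, ∑ b, ∑ c, q a b c) := by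
      simp only [Finset.sum_mul]
    rw [h1]
    refine Finset.sum_congr rfl fun a _ => Finset.sum_congr rfl fun b _ =>
      Finset.sum_congr rfl fun c _ => ?_
    simp only [Finset.mul_sum]
  simp only [TwoF.wedge, WF, Matrix.of_apply, key]
  simp only [← Finset.sum_add_distrib, ← Finset.sum_sub_distrib]
  refine Finset.sum_congr rfl fun a _ => Finset.sum_congr rfl fun b _ =>
    Finset.sum_congr rfl fun c _ => Finset.sum_congr rfl fun a' _ =>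
    Finset.sum_congr rfl fun b' _ => Finset.sum_congr rfl fun c' _ => ?_
  ring

section mfd

variable [IsManifold 𝓘(ℂ, C2) ω X] [T2Space X]

/-- complex values of a partition -/
def ψC (P : Part (AX X) ι) (a : ι) (x : X) : ℂ := ((P.ψ a : X → ℝ) x : ℂ)

/-- `W(f) = ∑ f(v_a,v_b,v_c) ψ_a dψ_b∧dψ_c` as a form -/
def WP (P : Part (AX X) ι) (f : (Fin 3 → X) → ℝ) : TwoF X :=
  WF (ψC P) fun a b c => (f ![P.v a, P.v b, P.v c] : ℂ)

theorem J_eq_intX (f a b c d : AX X) : (((TI X).J f a b c d : ℝ) : ℂ) =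
    intX (fun x => ((f : X → ℝ) x : ℂ) * detW ![fun y => ((a : X → ℝ) y : ℂ),
      fun y => ((b : X → ℝ) y : ℂ), fun y => ((c : X → ℝ) y : ℂ),
      fun y => ((d : X → ℝ) y : ℂ)] x) := by
  have h : WA ![a, b, c, d] = detW ![fun y => ((a : X → ℝ) y : ℂ),
      fun y => ((b : X → ℝ) y : ℂ), fun y => ((c : X → ℝ) y : ℂ),
      fun y => ((d : X → ℝ) y : ℂ)] := by
    rw [WA_eq]
    congr 1
    funext k
    fin_cases k <;> rfl
  rw [TopInt.J, TI_I, h]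

/-- the integrand of `prodW` -/
def prodTerm (P : Part (AX X) ι) (f g : (Fin 3 → X) → ℝ) (q : ι × ι × ι × ι × ι × ι) (x : X) : ℂ :=
  ((f ![P.v q.1, P.v q.2.1, P.v q.2.2.1] * g ![P.v q.2.2.2.1, P.v q.2.2.2.2.1, P.v q.2.2.2.2.2] :
    ℝ) : ℂ) * ((((P.ψ q.1 * P.ψ q.2.2.2.1 : AX X) : X → ℝ) x : ℂ) *
      WA ![P.ψ q.2.1, P.ψ q.2.2.1, P.ψ q.2.2.2.2.1, P.ψ q.2.2.2.2.2] x)

theorem intX_prodTerm (P : Part (AX X) ι) (f g : (Fin 3 → X) → ℝ)
    (q : ι × ι × ι × ι × ι × ι) : intX (prodTerm P f g q) =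
      ((f ![P.v q.1, P.v q.2.1, P.v q.2.2.1] *
        (g ![P.v q.2.2.2.1, P.v q.2.2.2.2.1, P.v q.2.2.2.2.2] *
        (TI X).J (P.ψ q.1 * P.ψ q.2.2.2.1) (P.ψ q.2.1) (P.ψ q.2.2.1) (P.ψ q.2.2.2.2.1)
          (P.ψ q.2.2.2.2.2)) : ℝ) : ℂ) := by
  unfold prodTerm
  rw [intX_const_mul (locInt_WA _ _) (cpt_fWA _ _), ← TI_I]
  push_cast
  rw [TopInt.J]
  ring

theorem wedge_eq_sum (P : Part (AX X) ι) (f g : (Fin 3 → X) → ℝ) :
    (fun x => (WP P f).wedge (WP P g) x) = fun x => ∑ q, prodTerm P f g q x := by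
  have hW : ∀ b c b' c', detW ![ψC P b, ψC P c, ψC P b', ψC P c'] =
      WA ![P.ψ b, P.ψ c, P.ψ b', P.ψ c'] := by
    intro b c b' c'
    rw [WA_eq]
    congr 1
    funext k
    fin_cases k <;> rfl
  funext x
  rw [WP, WP, WF_wedge]
  simp only [Fintype.sum_prod_type]
  refine Finset.sum_congr rfl fun a _ => Finset.sum_congr rfl fun b _ =>
    Finset.sum_congr rfl fun c _ => Finset.sum_congr rfl fun a' _ =>
    Finset.sum_congr rfl fun b' _ => Finset.sum_congr rfl fun c' _ => ?_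
  have h2 : (((P.ψ a * P.ψ a' : AX X) : X → ℝ) x : ℂ) = ψC P a x * ψC P a' x := by
    show (((P.ψ a : X → ℝ) x * (P.ψ a' : X → ℝ) x : ℝ) : ℂ) = _
    push_cast
    rfl
  unfold prodTerm
  rw [h2, hW]
  push_cast
  ring

theorem locInt_prodTerm (P : Part (AX X) ι) (f g : (Fin 3 → X) → ℝ)
    (q : ι × ι × ι × ι × ι × ι) : LocInt (prodTerm P f g q) :=
  (locInt_WA _ _).const_mul _

theorem cpt_prodTerm (P : Part (AX X) ι) (f g : (Fin 3 → X) → ℝ)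
    (q : ι × ι × ι × ι × ι × ι) : HasCompactSupport (prodTerm P f g q) :=
  (cpt_fWA _ _).mul_left (f := fun _ => _)

/-- **the product**: `∫ W(f)∧W(g) = prodW` -/
theorem prodW_eq_intX (P : Part (AX X) ι) (f g : (Fin 3 → X) → ℝ) :
    ((prodW (TI X) P f g : ℝ) : ℂ) = intX (fun x => (WP P f).wedge (WP P g) x) := by
  rw [wedge_eq_sum, intX_sum _ (fun q _ => locInt_prodTerm P f g q)
    fun q _ => cpt_prodTerm P f g q]
  simp only [intX_prodTerm, Fintype.sum_prod_type, prodW]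
  push_cast
  rfl

end mfd

end Vale.Agent.P267.H533
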