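import Vale.Agent.P267.H533.Stokes

/-!
# P267 / H533: conjugation, positivity and norm estimates for `FL.intX`
-/

set_option linter.unusedVariables false
set_option linter.unusedSectionVars false

open scoped Manifold ContDiff ComplexConjugate Matrix ComplexOrder
open MeasureTheory Set Filter Topology

noncomputable section

namespace Vale.Agent.P267.H533

open FL

variable {X : Type*} [TopologicalSpace X] [ChartedSpace C2 X]

theorem loc2_one_conj (e : Ch X) (b : X → ℂ) :
    loc2 1 e (fun x => conj (b x)) = fun z => conj (loc2 1 e b z) := by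
  funext z
  rw [loc2_one, loc2_one, map_mul, Complex.conj_ofReal]

theorem piece_conj (e : Ch X) (w : X → ℝ) (b : X → ℂ) :
    piece e w (fun x => conj (b x)) = conj (piece e w b) := by
  unfold piece
  rw [← integral_conj]
  congr 1
  funext z
  rw [loc2_one_conj, map_mul, map_mul, Complex.conj_ofReal, map_ofNat]

theorem hasCompactSupport_conj {b : X → ℂ} (hc : HasCompactSupport b) :
    HasCompactSupport fun x => conj (b x) := hc.comp_left (g := fun z : ℂ => conj z) (by simp)

section mfd

variable [IsManifold 𝓘(ℂ, C2) ω X] [T2Space X]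

theorem tsupport_conj (b : X → ℂ) : tsupport (fun x => conj (b x)) ⊆ tsupport b := by
  apply closure_mono
  intro x hx h
  apply hx
  have : b x = 0 := h
  simp [this]

theorem intX_conj {b : X → ℂ} (hb : LocInt b) (hc : HasCompactSupport b) :
    intX (fun x => conj (b x)) = conj (intX b) := by
  obtain ⟨N, e, ρ, h⟩ := exists_isFam (X := X) hc
  have h3 : IsFam (tsupport fun x => conj (b x)) e ρ :=
    ⟨h.mem, h.cont, h.cpt, h.sub, fun x hx => h.sum x (tsupport_conj b hx)⟩
  rw [intX_eq_sum hb hc h, intX_eq_sum hb.conj (hasCompactSupport_conj hc) h3, map_sum]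
  exact Finset.sum_congr rfl fun i _ => piece_conj _ _ _

/-- the conjugate form of Stokes' theorem: `c = ∑ c_i dz_i∧dz̄_0∧dz̄_1` of type `(1,2)` has
conjugate the `(2,1)`-form `∑ c̄_i dz_0∧dz_1∧dz̄_i`, and `∂c` is the conjugate of its `∂̄` -/
theorem intX_del_conj {a : X → Fin 2 → ℂ} (ha : Reg1 1 1 a)
    (hc : HasCompactSupport a) : intX (fun x => conj (dbar1 1 a x)) = 0 := by
  rw [intX_conj (locInt_dbar1 ha) (hasCompactSupport_dbar1 hc), intX_dbar1 ha hc, map_zero]

/-- the integral of a real form is real -/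
theorem intX_im_eq_zero {b : X → ℂ} (hb : LocInt b) (hc : HasCompactSupport b)
    (hr : ∀ x, conj (b x) = b x) : (intX b).im = 0 := by
  have h := intX_conj hb hc
  have h1 : (fun x => conj (b x)) = b := funext hr
  rw [h1] at h
  exact Complex.conj_eq_iff_im.1 h.symm

theorem intX_ofReal_re {b : X → ℂ} (hb : LocInt b) (hc : HasCompactSupport b)
    (hr : ∀ x, conj (b x) = b x) : ((intX b).re : ℂ) = intX b := by
  apply Complex.ext
  · simp
  · simp [intX_im_eq_zero hb hc hr]

/-- the real density of a form in a chart -/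
theorem loc2_one_ofReal (e : Ch X) (β : X → ℝ) (z : C2) :
    loc2 1 e (fun x => (β x : ℂ)) z =
      ((Complex.normSq (jac e (e.symm z)).det * β (e.symm z) : ℝ) : ℂ) := by
  rw [loc2_one, Complex.ofReal_mul]

theorem piece_ofReal (e : Ch X) (w : X → ℝ) (β : X → ℝ) :
    piece e w (fun x => (β x : ℂ)) = ((∫ z in e.target, 4 * w (e.symm z) *
      (Complex.normSq (jac e (e.symm z)).det * β (e.symm z)) : ℝ) : ℂ) := by
  unfold piece
  rw [← integral_complex_ofReal]
  congr 1
  funext z
  rw [loc2_one_ofReal]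
  push_cast
  ring

/-- nonnegativity -/
theorem intX_re_nonneg {β : X → ℝ} (hb : LocInt fun x => (β x : ℂ))
    (hc : HasCompactSupport fun x => (β x : ℂ)) (h0 : ∀ x, 0 ≤ β x) :
    0 ≤ (intX fun x => (β x : ℂ)).re := by
  obtain ⟨N, e, ρ, he, hρ, hρc, hρs, hρ0, hρ1, hK⟩ :=
    exists_smooth_family (X := X) hc isOpen_univ (subset_univ _)
  have h : IsFam (tsupport fun x => (β x : ℂ)) e ρ :=
    ⟨he, fun i => (hρ i).continuous, hρc, fun i => (hρs i).trans inter_subset_left,
      fun x hx => Eventually.self_of_nhdsSet hK x hx⟩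
  rw [intX_eq_sum hb hc h, Complex.re_sum]
  refine Finset.sum_nonneg fun i _ => ?_
  rw [piece_ofReal, Complex.ofReal_re]
  refine setIntegral_nonneg (e i).open_target.measurableSet fun z hz => ?_
  have h1 := hρ0 i ((e i).symm z)
  have h2 := h0 ((e i).symm z)
  have h3 := Complex.normSq_nonneg (jac (e i) ((e i).symm z)).det
  positivity

theorem intX_mono {β β' : X → ℝ} (hb : LocInt fun x => (β x : ℂ))
    (hc : HasCompactSupport fun x => (β x : ℂ)) (hb' : LocInt fun x => (β' x : ℂ))
    (hc' : HasCompactSupport fun x => (β' x : ℂ)) (h : ∀ x, β x ≤ β' x) :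
    (intX fun x => (β x : ℂ)).re ≤ (intX fun x => (β' x : ℂ)).re := by
  have h1 : (fun x => ((β' x - β x : ℝ) : ℂ)) = fun x => (β' x : ℂ) - (β x : ℂ) := by
    funext x
    push_cast
    ring
  have h2 : LocInt fun x => ((β' x - β x : ℝ) : ℂ) := by
    rw [h1]
    exact hb'.sub hb
  have h3 : HasCompactSupport fun x => ((β' x - β x : ℝ) : ℂ) := by
    rw [h1]
    exact HasCompactSupport.sub hc' hc
  have h4 := intX_re_nonneg h2 h3 fun x => sub_nonneg.2 (h x)
  rw [h1, intX_sub hb' hc' hb hc, Complex.sub_re] at h4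
  linarith

theorem LocInt.norm {b : X → ℂ} (hb : LocInt b) : LocInt fun x => ((‖b x‖ : ℝ) : ℂ) := by
  intro e he
  have h1 : loc2 1 e (fun x => ((‖b x‖ : ℝ) : ℂ)) = fun z => ((‖loc2 1 e b z‖ : ℝ) : ℂ) := by
    funext z
    rw [loc2_one, loc2_one, norm_mul, Complex.norm_real, Real.norm_of_nonneg
      (Complex.normSq_nonneg _)]
    push_cast
    ring
  rw [h1]
  intro z hz
  obtain ⟨s, hs, hi⟩ := hb e he z hz
  exact ⟨s, hs, hi.norm.ofReal⟩

theorem hasCompactSupport_norm' {b : X → ℂ} (hc : HasCompactSupport b) :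
    HasCompactSupport fun x => ((‖b x‖ : ℝ) : ℂ) :=
  hc.comp_left (g := fun z : ℂ => ((‖z‖ : ℝ) : ℂ)) (by simp)

/-- the norm of the integral -/
theorem norm_intX_le {b : X → ℂ} (hb : LocInt b) (hc : HasCompactSupport b) :
    ‖intX b‖ ≤ (intX fun x => ((‖b x‖ : ℝ) : ℂ)).re := by
  obtain ⟨N, e, ρ, he, hρ, hρc, hρs, hρ0, hρ1, hK⟩ :=
    exists_smooth_family (X := X) hc isOpen_univ (subset_univ _)
  have h : IsFam (tsupport b) e ρ :=
    ⟨he, fun i => (hρ i).continuous, hρc, fun i => (hρs i).trans inter_subset_left,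
      fun x hx => Eventually.self_of_nhdsSet hK x hx⟩
  have hsub : tsupport (fun x => ((‖b x‖ : ℝ) : ℂ)) ⊆ tsupport b := by
    apply closure_mono
    intro x hx h
    apply hx
    have : b x = 0 := h
    simp [this]
  have h' : IsFam (tsupport fun x => ((‖b x‖ : ℝ) : ℂ)) e ρ :=
    ⟨h.mem, h.cont, h.cpt, h.sub, fun x hx => h.sum x (hsub hx)⟩
  rw [intX_eq_sum hb hc h, intX_eq_sum hb.norm (hasCompactSupport_norm' hc) h', Complex.re_sum]
  refine (norm_sum_le _ _).trans (Finset.sum_le_sum fun i _ => ?_)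
  rw [piece_ofReal, Complex.ofReal_re]
  refine (norm_integral_le_integral_norm _).trans (le_of_eq ?_)
  congr 1
  funext z
  rw [norm_mul, norm_mul, loc2_one, norm_mul, Complex.norm_real, Complex.norm_real,
    Real.norm_of_nonneg (hρ0 i _), Real.norm_of_nonneg (Complex.normSq_nonneg _)]
  norm_num

/-- strict positivity for continuous densities -/
theorem intX_re_pos {β : X → ℝ}
    (hb : ∀ e ∈ atlas C2 X, ContinuousOn (loc2 1 e fun x => (β x : ℂ)) e.target)
    (hc : HasCompactSupport fun x => (β x : ℂ)) (h0 : ∀ x, 0 ≤ β x) {x₀ : X} (hx₀ : 0 < β x₀) :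
    0 < (intX fun x => (β x : ℂ)).re := by
  obtain ⟨N, e, ρ, he, hρ, hρc, hρs, hρ0, hρ1, hK⟩ :=
    exists_smooth_family (X := X) hc isOpen_univ (subset_univ _)
  have h : IsFam (tsupport fun x => (β x : ℂ)) e ρ :=
    ⟨he, fun i => (hρ i).continuous, hρc, fun i => (hρs i).trans inter_subset_left,
      fun x hx => Eventually.self_of_nhdsSet hK x hx⟩
  have hbL := locInt_of_cont hb
  rw [intX_eq_sum hbL hc h, Complex.re_sum]
  have hx1 : x₀ ∈ tsupport fun x => (β x : ℂ) := by
    apply subset_tsupport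
    show (β x₀ : ℂ) ≠ 0
    exact_mod_cast hx₀.ne'
  have hs1 : ∑ i, ρ i x₀ = 1 := h.sum x₀ hx1
  obtain ⟨i, -, hi⟩ := Finset.exists_ne_zero_of_sum_ne_zero (by rw [hs1]; exact one_ne_zero)
  have hipos : 0 < ρ i x₀ := lt_of_le_of_ne (hρ0 i x₀) (Ne.symm hi)
  have hnn : ∀ j : Fin N, ∀ z, 0 ≤ 4 * ρ j ((e j).symm z) *
      (Complex.normSq (jac (e j) ((e j).symm z)).det * β ((e j).symm z)) := by
    intro j z
    have h1 := hρ0 j ((e j).symm z)
    have h2 := h0 ((e j).symm z)
    have h3 := Complex.normSq_nonneg (jac (e j) ((e j).symm z)).det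
    positivity
  refine Finset.sum_pos' (fun j _ => ?_) ⟨i, Finset.mem_univ _, ?_⟩
  · rw [piece_ofReal, Complex.ofReal_re]
    exact setIntegral_nonneg (e j).open_target.measurableSet fun z hz => hnn j z
  · rw [piece_ofReal, Complex.ofReal_re]
    have hxs : x₀ ∈ (e i).source := h.sub i (subset_tsupport _ hi)
    have hint : IntegrableOn (fun z => 4 * ρ i ((e i).symm z) *
        (Complex.normSq (jac (e i) ((e i).symm z)).det * β ((e i).symm z))) (e i).target := by
      have := (integrableOn_piece (he i) (h.cont i) (h.cpt i) (h.sub i) hbL).re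
      refine this.congr (ae_of_all _ fun z => ?_)
      have h7 : (4 * ((ρ i ((e i).symm z) : ℝ) : ℂ)) * loc2 1 (e i) (fun x => (β x : ℂ)) z =
          ((4 * ρ i ((e i).symm z) * (Complex.normSq (jac (e i) ((e i).symm z)).det *
            β ((e i).symm z)) : ℝ) : ℂ) := by
        rw [loc2_one_ofReal]
        push_cast
        ring
      show RCLike.re _ = _
      rw [h7]
      exact Complex.ofReal_re _
    rw [setIntegral_pos_iff_support_of_nonneg_ae (ae_of_all _ fun z => hnn i z) hint]
    -- the support contains a neighbourhood of `e i x₀`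
    have hev : ∀ᶠ z in 𝓝 (e i x₀), z ∈ Function.support (fun z => 4 * ρ i ((e i).symm z) *
        (Complex.normSq (jac (e i) ((e i).symm z)).det * β ((e i).symm z))) ∩ (e i).target := by
      have hc1 : ContinuousAt (fun z => ρ i ((e i).symm z)) (e i x₀) := by
        have h5 := (e i).continuousAt_symm ((e i).map_source hxs)
        exact ContinuousAt.comp (g := ρ i) (h.cont i).continuousAt h5
      have hc2 : ContinuousAt (fun z => Complex.normSq (jac (e i) ((e i).symm z)).det *
          β ((e i).symm z)) (e i x₀) := by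
        have h5 := (hb (e i) (he i)).continuousAt
          ((e i).open_target.mem_nhds ((e i).map_source hxs))
        have h6 := Complex.continuous_re.continuousAt.comp h5
        refine h6.congr (Eventually.of_forall fun z => ?_)
        simp only [Function.comp]
        rw [loc2_one_ofReal, Complex.ofReal_re]
      have p1 : 0 < ρ i ((e i).symm (e i x₀)) := by rwa [(e i).left_inv hxs]
      have p2 : 0 < Complex.normSq (jac (e i) ((e i).symm (e i x₀))).det *
          β ((e i).symm (e i x₀)) := by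
        rw [(e i).left_inv hxs]
        exact mul_pos (Complex.normSq_pos.2 (jac_det_ne_zero (he i) hxs)) hx₀
      filter_upwards [hc1.eventually (lt_mem_nhds p1), hc2.eventually (lt_mem_nhds p2),
        (e i).open_target.mem_nhds ((e i).map_source hxs)] with z q1 q2 q3
      refine ⟨?_, q3⟩
      show _ ≠ _
      positivity
    obtain ⟨W, hW, hWo, hxW⟩ := mem_nhds_iff.1 hev
    exact (hWo.measure_pos volume ⟨_, hxW⟩).trans_le (measure_mono hW)

end mfd

end Vale.Agent.P267.H533
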