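import Mathlib

/-!
# UNI-LAM: the functional `lam` on Alexander-Spanier 4-cochains

`I f (g₁,…,g₄)` stands for the integral of `f dg₁ ∧ dg₂ ∧ dg₃ ∧ dg₄` over a closed oriented
4-manifold; only its formal properties are used.
-/

open scoped BigOperators Topology

noncomputable section

namespace Vale.Agent.P267.H533

universe u

variable {X : Type u}

/-- Formal properties of `∫_X f dg₁ ∧ dg₂ ∧ dg₃ ∧ dg₄`. -/
structure TopInt [TopologicalSpace X] (A : Subalgebra ℝ (X → ℝ)) where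
  I : A →ₗ[ℝ] (A [⋀^Fin 4]→ₗ[ℝ] ℝ)
  leibniz : ∀ (f g h : A) (w : Fin 4 → A),
    I f (Function.update w 0 (g * h)) =
      I (f * g) (Function.update w 0 h) + I (f * h) (Function.update w 0 g)
  loc : ∀ (f : A) (w : Fin 4 → A),
    (∀ x, (∀ᶠ y in 𝓝 x, (f : X → ℝ) y = 0) ∨
      ∃ k, ∃ c : ℝ, ∀ᶠ y in 𝓝 x, (w k : X → ℝ) y = c) → I f w = 0
  stokes : ∀ w, I 1 w = 0

namespace TopInt

variable [TopologicalSpace X] {A : Subalgebra ℝ (X → ℝ)} (T : TopInt A)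

/-- the five-slot version -/
def J (f g₁ g₂ g₃ g₄ : A) : ℝ := T.I f ![g₁, g₂, g₃, g₄]

lemma J_add0 (f f' a b c d : A) : T.J (f + f') a b c d = T.J f a b c d + T.J f' a b c d := by
  simp [J]

lemma J_sub0 (f f' a b c d : A) : T.J (f - f') a b c d = T.J f a b c d - T.J f' a b c d := by
  simp [J]

lemma J_smul0 (r : ℝ) (f a b c d : A) : T.J (r • f) a b c d = r * T.J f a b c d := by
  simp [J]

/-- the zeroth slot as a linear map -/
def L0 (a b c d : A) : A →ₗ[ℝ] ℝ where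
  toFun f := T.J f a b c d
  map_add' _ _ := T.J_add0 ..
  map_smul' _ _ := T.J_smul0 ..

lemma J_sum0 {ι : Type*} (s : Finset ι) (f : ι → A) (a b c d : A) :
    T.J (∑ i ∈ s, f i) a b c d = ∑ i ∈ s, T.J (f i) a b c d := map_sum (T.L0 a b c d) f s

omit [TopologicalSpace X] in
lemma upd1 (a b c d a' : A) : Function.update ![a, b, c, d] 0 a' = ![a', b, c, d] := by
  ext i; fin_cases i <;> rfl
omit [TopologicalSpace X] in
lemma upd2 (a b c d a' : A) : Function.update ![a, b, c, d] 1 a' = ![a, a', c, d] := by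
  ext i; fin_cases i <;> rfl
omit [TopologicalSpace X] in
lemma upd3 (a b c d a' : A) : Function.update ![a, b, c, d] 2 a' = ![a, b, a', d] := by
  ext i; fin_cases i <;> rfl
omit [TopologicalSpace X] in
lemma upd4 (a b c d a' : A) : Function.update ![a, b, c, d] 3 a' = ![a, b, c, a'] := by
  ext i; fin_cases i <;> rfl

lemma J_add1 (f a a' b c d : A) : T.J f (a + a') b c d = T.J f a b c d + T.J f a' b c d := by
  have h := (T.I f).map_update_add ![a, b, c, d] 0 a a'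
  simpa only [upd1, J] using h
lemma J_add2 (f a b b' c d : A) : T.J f a (b + b') c d = T.J f a b c d + T.J f a b' c d := by
  have h := (T.I f).map_update_add ![a, b, c, d] 1 b b'
  simpa only [upd2, J] using h
lemma J_add3 (f a b c c' d : A) : T.J f a b (c + c') d = T.J f a b c d + T.J f a b c' d := by
  have h := (T.I f).map_update_add ![a, b, c, d] 2 c c'
  simpa only [upd3, J] using h
lemma J_add4 (f a b c d d' : A) : T.J f a b c (d + d') = T.J f a b c d + T.J f a b c d' := by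
  have h := (T.I f).map_update_add ![a, b, c, d] 3 d d'
  simpa only [upd4, J] using h

lemma J_smul1 (r : ℝ) (f a b c d : A) : T.J f (r • a) b c d = r * T.J f a b c d := by
  have h := (T.I f).map_update_smul ![a, b, c, d] 0 r a
  simpa only [upd1, J, smul_eq_mul] using h
lemma J_smul2 (r : ℝ) (f a b c d : A) : T.J f a (r • b) c d = r * T.J f a b c d := by
  have h := (T.I f).map_update_smul ![a, b, c, d] 1 r b
  simpa only [upd2, J, smul_eq_mul] using h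
lemma J_smul3 (r : ℝ) (f a b c d : A) : T.J f a b (r • c) d = r * T.J f a b c d := by
  have h := (T.I f).map_update_smul ![a, b, c, d] 2 r c
  simpa only [upd3, J, smul_eq_mul] using h
lemma J_smul4 (r : ℝ) (f a b c d : A) : T.J f a b c (r • d) = r * T.J f a b c d := by
  have h := (T.I f).map_update_smul ![a, b, c, d] 3 r d
  simpa only [upd4, J, smul_eq_mul] using h

/-- the slots as linear maps -/
def L1 (f b c d : A) : A →ₗ[ℝ] ℝ where
  toFun a := T.J f a b c d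
  map_add' _ _ := T.J_add1 ..
  map_smul' _ _ := T.J_smul1 ..
def L2 (f a c d : A) : A →ₗ[ℝ] ℝ where
  toFun b := T.J f a b c d
  map_add' _ _ := T.J_add2 ..
  map_smul' _ _ := T.J_smul2 ..
def L3 (f a b d : A) : A →ₗ[ℝ] ℝ where
  toFun c := T.J f a b c d
  map_add' _ _ := T.J_add3 ..
  map_smul' _ _ := T.J_smul3 ..
def L4 (f a b c : A) : A →ₗ[ℝ] ℝ where
  toFun d := T.J f a b c d
  map_add' _ _ := T.J_add4 ..
  map_smul' _ _ := T.J_smul4 ..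

section sums
variable {ι : Type*} (s : Finset ι)

lemma J_sum1 (f : A) (a : ι → A) (b c d : A) :
    T.J f (∑ i ∈ s, a i) b c d = ∑ i ∈ s, T.J f (a i) b c d := map_sum (T.L1 f b c d) a s
lemma J_sum2 (f a : A) (b : ι → A) (c d : A) :
    T.J f a (∑ i ∈ s, b i) c d = ∑ i ∈ s, T.J f a (b i) c d := map_sum (T.L2 f a c d) b s
lemma J_sum3 (f a b : A) (c : ι → A) (d : A) :
    T.J f a b (∑ i ∈ s, c i) d = ∑ i ∈ s, T.J f a b (c i) d := map_sum (T.L3 f a b d) c s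
lemma J_sum4 (f a b c : A) (d : ι → A) :
    T.J f a b c (∑ i ∈ s, d i) = ∑ i ∈ s, T.J f a b c (d i) := map_sum (T.L4 f a b c) d s
end sums

lemma J_sub1 (f a a' b c d : A) : T.J f (a - a') b c d = T.J f a b c d - T.J f a' b c d :=
  map_sub (T.L1 f b c d) a a'
lemma J_sub2 (f a b b' c d : A) : T.J f a (b - b') c d = T.J f a b c d - T.J f a b' c d :=
  map_sub (T.L2 f a c d) b b'
lemma J_sub3 (f a b c c' d : A) : T.J f a b (c - c') d = T.J f a b c d - T.J f a b c' d :=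
  map_sub (T.L3 f a b d) c c'
lemma J_sub4 (f a b c d d' : A) : T.J f a b c (d - d') = T.J f a b c d - T.J f a b c d' :=
  map_sub (T.L4 f a b c) d d'

lemma J_swap12 (f a b c d : A) : T.J f b a c d = - T.J f a b c d := by
  have h := (T.I f).map_swap ![a, b, c, d] (i := 0) (j := 1) (by decide)
  have e : (![a, b, c, d] ∘ Equiv.swap (0 : Fin 4) 1) = ![b, a, c, d] := by
    ext i; fin_cases i <;> rfl
  rw [e] at h; exact h
lemma J_swap13 (f a b c d : A) : T.J f c b a d = - T.J f a b c d := by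
  have h := (T.I f).map_swap ![a, b, c, d] (i := 0) (j := 2) (by decide)
  have e : (![a, b, c, d] ∘ Equiv.swap (0 : Fin 4) 2) = ![c, b, a, d] := by
    ext i; fin_cases i <;> rfl
  rw [e] at h; exact h
lemma J_swap14 (f a b c d : A) : T.J f d b c a = - T.J f a b c d := by
  have h := (T.I f).map_swap ![a, b, c, d] (i := 0) (j := 3) (by decide)
  have e : (![a, b, c, d] ∘ Equiv.swap (0 : Fin 4) 3) = ![d, b, c, a] := by
    ext i; fin_cases i <;> rfl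
  rw [e] at h; exact h

lemma J_stokes (a b c d : A) : T.J 1 a b c d = 0 := T.stokes _

lemma J_leib (f g h b c d : A) :
    T.J f (g * h) b c d = T.J (f * g) h b c d + T.J (f * h) g b c d := by
  have := T.leibniz f g h ![g, b, c, d]
  simpa only [upd1, J] using this

lemma J_loc (f a b c d : A)
    (h : ∀ x, (∀ᶠ y in 𝓝 x, (f : X → ℝ) y = 0) ∨ (∃ r : ℝ, ∀ᶠ y in 𝓝 x, (a : X → ℝ) y = r) ∨
      (∃ r : ℝ, ∀ᶠ y in 𝓝 x, (b : X → ℝ) y = r) ∨ (∃ r : ℝ, ∀ᶠ y in 𝓝 x, (c : X → ℝ) y = r) ∨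
      (∃ r : ℝ, ∀ᶠ y in 𝓝 x, (d : X → ℝ) y = r)) : T.J f a b c d = 0 := by
  apply T.loc
  intro x
  rcases h x with h | h | h | h | h
  · exact Or.inl h
  · exact Or.inr ⟨0, h⟩
  · exact Or.inr ⟨1, h⟩
  · exact Or.inr ⟨2, h⟩
  · exact Or.inr ⟨3, h⟩

lemma J_one1 (f b c d : A) : T.J f 1 b c d = 0 := by
  have := T.J_leib f 1 1 b c d
  simp only [mul_one] at this
  linarith
lemma J_one2 (f a c d : A) : T.J f a 1 c d = 0 := by
  rw [← neg_eq_zero, ← T.J_swap12]; exact T.J_one1 ..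
lemma J_one3 (f a b d : A) : T.J f a b 1 d = 0 := by
  rw [← neg_eq_zero, ← T.J_swap13]; exact T.J_one1 ..
lemma J_one4 (f a b c : A) : T.J f a b c 1 = 0 := by
  rw [← neg_eq_zero, ← T.J_swap14]; exact T.J_one1 ..

/-- integration by parts -/
lemma J_parts (f g b c d : A) : T.J f g b c d = - T.J g f b c d := by
  have h := T.J_leib 1 f g b c d
  rw [T.J_stokes, one_mul, one_mul] at h
  linarith

end TopInt

/-- Alexander-Spanier coboundary on real cochains (all functions on tuples). -/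
def dAS {q : ℕ} (F : (Fin (q + 1) → X) → ℝ) : (Fin (q + 2) → X) → ℝ :=
  fun x => ∑ i : Fin (q + 2), (-1) ^ (i : ℕ) * F (fun k => x (i.succAbove k))

lemma dAS3 (G : (Fin 4 → X) → ℝ) (x₀ x₁ x₂ x₃ x₄ : X) :
    dAS G ![x₀, x₁, x₂, x₃, x₄] = G ![x₁, x₂, x₃, x₄] - G ![x₀, x₂, x₃, x₄]
      + G ![x₀, x₁, x₃, x₄] - G ![x₀, x₁, x₂, x₄] + G ![x₀, x₁, x₂, x₃] := by
  unfold dAS
  rw [Fin.sum_univ_five]
  have e0 : (fun k => ![x₀, x₁, x₂, x₃, x₄] ((0 : Fin 5).succAbove k)) = ![x₁, x₂, x₃, x₄] := by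
    ext i; fin_cases i <;> rfl
  have e1 : (fun k => ![x₀, x₁, x₂, x₃, x₄] ((1 : Fin 5).succAbove k)) = ![x₀, x₂, x₃, x₄] := by
    ext i; fin_cases i <;> rfl
  have e2 : (fun k => ![x₀, x₁, x₂, x₃, x₄] ((2 : Fin 5).succAbove k)) = ![x₀, x₁, x₃, x₄] := by
    ext i; fin_cases i <;> rfl
  have e3 : (fun k => ![x₀, x₁, x₂, x₃, x₄] ((3 : Fin 5).succAbove k)) = ![x₀, x₁, x₂, x₄] := by
    ext i; fin_cases i <;> rfl
  have e4 : (fun k => ![x₀, x₁, x₂, x₃, x₄] ((4 : Fin 5).succAbove k)) = ![x₀, x₁, x₂, x₃] := by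
    ext i; fin_cases i <;> rfl
  rw [e0, e1, e2, e3, e4]
  norm_num
  ring

/-- A finite partition of unity with a vertex for each member. -/
structure Part (A : Subalgebra ℝ (X → ℝ)) (ι : Type*) [Fintype ι] where
  ψ : ι → A
  v : ι → X
  sum_one : ∑ a, ψ a = 1

section lam

variable {ι : Type*} [Fintype ι]

lemma sum5_0 (Φ : ι → ι → ι → ι → ι → ℝ) :
    ∑ a0, ∑ a1, ∑ a2, ∑ a3, ∑ a4, Φ a0 a1 a2 a3 a4 =
      ∑ a1, ∑ a2, ∑ a3, ∑ a4, ∑ a0, Φ a0 a1 a2 a3 a4 := by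
  rw [Finset.sum_comm]
  refine Finset.sum_congr rfl fun a1 _ => ?_
  rw [Finset.sum_comm]
  refine Finset.sum_congr rfl fun a2 _ => ?_
  rw [Finset.sum_comm]
  refine Finset.sum_congr rfl fun a3 _ => ?_
  rw [Finset.sum_comm]

lemma sum5_1 (Φ : ι → ι → ι → ι → ι → ℝ) :
    ∑ a0, ∑ a1, ∑ a2, ∑ a3, ∑ a4, Φ a0 a1 a2 a3 a4 =
      ∑ a0, ∑ a2, ∑ a3, ∑ a4, ∑ a1, Φ a0 a1 a2 a3 a4 := by
  refine Finset.sum_congr rfl fun a0 _ => ?_
  rw [Finset.sum_comm]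
  refine Finset.sum_congr rfl fun a2 _ => ?_
  rw [Finset.sum_comm]
  refine Finset.sum_congr rfl fun a3 _ => ?_
  rw [Finset.sum_comm]

lemma sum5_2 (Φ : ι → ι → ι → ι → ι → ℝ) :
    ∑ a0, ∑ a1, ∑ a2, ∑ a3, ∑ a4, Φ a0 a1 a2 a3 a4 =
      ∑ a0, ∑ a1, ∑ a3, ∑ a4, ∑ a2, Φ a0 a1 a2 a3 a4 := by
  refine Finset.sum_congr rfl fun a0 _ => ?_
  refine Finset.sum_congr rfl fun a1 _ => ?_
  rw [Finset.sum_comm]
  refine Finset.sum_congr rfl fun a3 _ => ?_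
  rw [Finset.sum_comm]

lemma sum5_3 (Φ : ι → ι → ι → ι → ι → ℝ) :
    ∑ a0, ∑ a1, ∑ a2, ∑ a3, ∑ a4, Φ a0 a1 a2 a3 a4 =
      ∑ a0, ∑ a1, ∑ a2, ∑ a4, ∑ a3, Φ a0 a1 a2 a3 a4 := by
  refine Finset.sum_congr rfl fun a0 _ => ?_
  refine Finset.sum_congr rfl fun a1 _ => ?_
  refine Finset.sum_congr rfl fun a2 _ => ?_
  rw [Finset.sum_comm]

variable [TopologicalSpace X] {A : Subalgebra ℝ (X → ℝ)} (T : TopInt A) (P : Part A ι)

/-- `lam F = ∑ F(v_{a₀},…,v_{a₄}) ∫ ψ_{a₀} dψ_{a₁}∧…∧dψ_{a₄}` -/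
def lam (F : (Fin 5 → X) → ℝ) : ℝ :=
  ∑ a0, ∑ a1, ∑ a2, ∑ a3, ∑ a4, F ![P.v a0, P.v a1, P.v a2, P.v a3, P.v a4] *
    T.J (P.ψ a0) (P.ψ a1) (P.ψ a2) (P.ψ a3) (P.ψ a4)

lemma lam_add (F G : (Fin 5 → X) → ℝ) : lam T P (F + G) = lam T P F + lam T P G := by
  simp only [lam, Pi.add_apply, add_mul, Finset.sum_add_distrib]

lemma lam_sub (F G : (Fin 5 → X) → ℝ) : lam T P (F - G) = lam T P F - lam T P G := by
  simp only [lam, Pi.sub_apply, sub_mul, Finset.sum_sub_distrib]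

lemma lam_smul (r : ℝ) (F : (Fin 5 → X) → ℝ) : lam T P (r • F) = r * lam T P F := by
  simp only [lam, Pi.smul_apply, smul_eq_mul, Finset.mul_sum, mul_assoc]

lemma lam_sum {κ : Type*} (s : Finset κ) (F : κ → (Fin 5 → X) → ℝ) :
    lam T P (∑ k ∈ s, F k) = ∑ k ∈ s, lam T P (F k) := by
  classical
  induction s using Finset.induction_on with
  | empty => simp [lam]
  | insert k s hk ih => rw [Finset.sum_insert hk, Finset.sum_insert hk, lam_add, ih]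

/-- `lam` kills exact coboundaries. -/
theorem lam_dAS (G : (Fin 4 → X) → ℝ) : lam T P (dAS G) = 0 := by
  unfold lam
  simp only [dAS3, add_mul, sub_mul, Finset.sum_add_distrib, Finset.sum_sub_distrib]
  have h0 : ∑ a0, ∑ a1, ∑ a2, ∑ a3, ∑ a4, G ![P.v a1, P.v a2, P.v a3, P.v a4] *
      T.J (P.ψ a0) (P.ψ a1) (P.ψ a2) (P.ψ a3) (P.ψ a4) = 0 := by
    rw [sum5_0]
    simp only [← Finset.mul_sum, ← T.J_sum0, P.sum_one, T.J_stokes, mul_zero,
      Finset.sum_const_zero]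
  have h1 : ∑ a0, ∑ a1, ∑ a2, ∑ a3, ∑ a4, G ![P.v a0, P.v a2, P.v a3, P.v a4] *
      T.J (P.ψ a0) (P.ψ a1) (P.ψ a2) (P.ψ a3) (P.ψ a4) = 0 := by
    rw [sum5_1]
    simp only [← Finset.mul_sum, ← T.J_sum1, P.sum_one, T.J_one1, mul_zero,
      Finset.sum_const_zero]
  have h2 : ∑ a0, ∑ a1, ∑ a2, ∑ a3, ∑ a4, G ![P.v a0, P.v a1, P.v a3, P.v a4] *
      T.J (P.ψ a0) (P.ψ a1) (P.ψ a2) (P.ψ a3) (P.ψ a4) = 0 := by
    rw [sum5_2]
    simp only [← Finset.mul_sum, ← T.J_sum2, P.sum_one, T.J_one2, mul_zero,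
      Finset.sum_const_zero]
  have h3 : ∑ a0, ∑ a1, ∑ a2, ∑ a3, ∑ a4, G ![P.v a0, P.v a1, P.v a2, P.v a4] *
      T.J (P.ψ a0) (P.ψ a1) (P.ψ a2) (P.ψ a3) (P.ψ a4) = 0 := by
    rw [sum5_3]
    simp only [← Finset.mul_sum, ← T.J_sum3, P.sum_one, T.J_one3, mul_zero,
      Finset.sum_const_zero]
  have h4 : ∑ a0, ∑ a1, ∑ a2, ∑ a3, ∑ a4, G ![P.v a0, P.v a1, P.v a2, P.v a3] *
      T.J (P.ψ a0) (P.ψ a1) (P.ψ a2) (P.ψ a3) (P.ψ a4) = 0 := by
    simp only [← Finset.mul_sum, ← T.J_sum4, P.sum_one, T.J_one4, mul_zero,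
      Finset.sum_const_zero]
  rw [h0, h1, h2, h3, h4]
  ring

/-- cup product of two 2-cochains -/
def cup22 (f g : (Fin 3 → X) → ℝ) : (Fin 5 → X) → ℝ :=
  fun x => f ![x 0, x 1, x 2] * g ![x 2, x 3, x 4]

omit [TopologicalSpace X] in
lemma dAS2 (G : (Fin 3 → X) → ℝ) (x₀ x₁ x₂ x₃ : X) :
    dAS G ![x₀, x₁, x₂, x₃] = G ![x₁, x₂, x₃] - G ![x₀, x₂, x₃]
      + G ![x₀, x₁, x₃] - G ![x₀, x₁, x₂] := by
  unfold dAS
  rw [Fin.sum_univ_four]
  have e0 : (fun k => ![x₀, x₁, x₂, x₃] ((0 : Fin 4).succAbove k)) = ![x₁, x₂, x₃] := by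
    ext i; fin_cases i <;> rfl
  have e1 : (fun k => ![x₀, x₁, x₂, x₃] ((1 : Fin 4).succAbove k)) = ![x₀, x₂, x₃] := by
    ext i; fin_cases i <;> rfl
  have e2 : (fun k => ![x₀, x₁, x₂, x₃] ((2 : Fin 4).succAbove k)) = ![x₀, x₁, x₃] := by
    ext i; fin_cases i <;> rfl
  have e3 : (fun k => ![x₀, x₁, x₂, x₃] ((3 : Fin 4).succAbove k)) = ![x₀, x₁, x₂] := by
    ext i; fin_cases i <;> rfl
  rw [e0, e1, e2, e3]
  norm_num
  ring

/-- `∫ W(f) ∧ W(g)` where `W(f) = ∑ f(v_{a₀},v_{a₁},v_{a₂}) ψ_{a₀} dψ_{a₁}∧dψ_{a₂}` -/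
def prodW (P : Part A ι) (f g : (Fin 3 → X) → ℝ) : ℝ :=
  ∑ a0, ∑ a1, ∑ a2, ∑ b0, ∑ b1, ∑ b2, f ![P.v a0, P.v a1, P.v a2] *
    (g ![P.v b0, P.v b1, P.v b2] *
      T.J (P.ψ a0 * P.ψ b0) (P.ψ a1) (P.ψ a2) (P.ψ b1) (P.ψ b2))

end lam

section fine

variable {ι : Type*} [Fintype ι] [PseudoMetricSpace X] {A : Subalgebra ℝ (X → ℝ)}
  (T : TopInt A) (P : Part A ι)

/-- the supports are small around the vertices -/
def Part.Fine (P : Part A ι) (η : ℝ) : Prop :=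
  ∀ a x, x ∈ tsupport (P.ψ a : X → ℝ) → dist x (P.v a) < η

variable {P}

lemma not_mem_tsupport_iff' {f : X → ℝ} {x : X} : x ∉ tsupport f ↔ ∀ᶠ y in 𝓝 x, f y = 0 := by
  rw [notMem_tsupport_iff_eventuallyEq]; rfl

/-- If `J` of a tuple of members does not vanish, the vertices are close to a common point. -/
lemma exists_near {η : ℝ} (hP : P.Fine η) (f : A) (a1 a2 a3 a4 : ι)
    (h : T.J f (P.ψ a1) (P.ψ a2) (P.ψ a3) (P.ψ a4) ≠ 0) :
    ∃ x, x ∈ tsupport (f : X → ℝ) ∧ dist x (P.v a1) < η ∧ dist x (P.v a2) < η ∧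
      dist x (P.v a3) < η ∧ dist x (P.v a4) < η := by
  by_contra hcon
  apply h
  apply T.J_loc
  intro x
  by_cases h0 : x ∈ tsupport (f : X → ℝ)
  swap
  · exact Or.inl (not_mem_tsupport_iff'.1 h0)
  by_cases h1 : x ∈ tsupport (P.ψ a1 : X → ℝ)
  swap
  · exact Or.inr (Or.inl ⟨0, not_mem_tsupport_iff'.1 h1⟩)
  by_cases h2 : x ∈ tsupport (P.ψ a2 : X → ℝ)
  swap
  · exact Or.inr (Or.inr (Or.inl ⟨0, not_mem_tsupport_iff'.1 h2⟩))
  by_cases h3 : x ∈ tsupport (P.ψ a3 : X → ℝ)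
  swap
  · exact Or.inr (Or.inr (Or.inr (Or.inl ⟨0, not_mem_tsupport_iff'.1 h3⟩)))
  by_cases h4 : x ∈ tsupport (P.ψ a4 : X → ℝ)
  swap
  · exact Or.inr (Or.inr (Or.inr (Or.inr ⟨0, not_mem_tsupport_iff'.1 h4⟩)))
  exact absurd ⟨x, h0, hP _ _ h1, hP _ _ h2, hP _ _ h3, hP _ _ h4⟩ hcon

lemma dist_lt_of_near {η ε : ℝ} (hη : 2 * η ≤ ε) {x y z : X} (hy : dist x y < η)
    (hz : dist x z < η) : dist y z < ε := by
  have := dist_triangle_left y z x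
  linarith

/-- `F` vanishes on tuples of diameter `< ε`. -/
def LZ {q : ℕ} (ε : ℝ) (F : (Fin (q + 1) → X) → ℝ) : Prop :=
  ∀ x : Fin (q + 1) → X, (∀ i j, dist (x i) (x j) < ε) → F x = 0

theorem lam_eq_zero {η ε : ℝ} (hP : P.Fine η) (hη : 2 * η ≤ ε) {F : (Fin 5 → X) → ℝ}
    (hF : LZ ε F) : lam T P F = 0 := by
  unfold lam
  refine Finset.sum_eq_zero fun a0 _ => Finset.sum_eq_zero fun a1 _ =>
    Finset.sum_eq_zero fun a2 _ => Finset.sum_eq_zero fun a3 _ => Finset.sum_eq_zero fun a4 _ => ?_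
  by_cases hJ : T.J (P.ψ a0) (P.ψ a1) (P.ψ a2) (P.ψ a3) (P.ψ a4) = 0
  · rw [hJ, mul_zero]
  · obtain ⟨x, h0, h1, h2, h3, h4⟩ := exists_near T hP _ _ _ _ _ hJ
    have h0 := hP _ _ h0
    rw [hF, zero_mul]
    have key : ∀ i, dist x ((![P.v a0, P.v a1, P.v a2, P.v a3, P.v a4] : Fin 5 → X) i) < η := by
      intro i; fin_cases i <;> assumption
    intro i j
    exact dist_lt_of_near hη (key i) (key j)

theorem lam_congr {η ε : ℝ} (hP : P.Fine η) (hη : 2 * η ≤ ε) {F G : (Fin 5 → X) → ℝ}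
    (hF : LZ ε (F - G)) : lam T P F = lam T P G := by
  have := lam_eq_zero T hP hη hF
  rw [lam_sub] at this
  linarith

/-- `∫ W(f) ∧ W(g) = lam (f ∪ g)` for `g` closed on small tuples. -/
theorem prodW_eq_lam {η ε : ℝ} (hP : P.Fine η) (hη : 2 * η ≤ ε) (f g : (Fin 3 → X) → ℝ)
    (hg : LZ ε (dAS g)) : prodW T P f g = lam T P (cup22 f g) := by
  have hterm : ∀ a0 a1 a2 b0 b1 b2 : ι,
      g ![P.v b0, P.v b1, P.v b2] *
        T.J (P.ψ a0 * P.ψ b0) (P.ψ a1) (P.ψ a2) (P.ψ b1) (P.ψ b2) =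
      (g ![P.v a2, P.v b1, P.v b2] - g ![P.v a2, P.v b0, P.v b2] + g ![P.v a2, P.v b0, P.v b1]) *
        T.J (P.ψ a0 * P.ψ b0) (P.ψ a1) (P.ψ a2) (P.ψ b1) (P.ψ b2) := by
    intro a0 a1 a2 b0 b1 b2
    by_cases hJ : T.J (P.ψ a0 * P.ψ b0) (P.ψ a1) (P.ψ a2) (P.ψ b1) (P.ψ b2) = 0
    · rw [hJ, mul_zero, mul_zero]
    · obtain ⟨x, h0, h1, h2, h3, h4⟩ := exists_near T hP _ _ _ _ _ hJ
      have hb0 : x ∈ tsupport (P.ψ b0 : X → ℝ) := by
        have : ((P.ψ a0 * P.ψ b0 : A) : X → ℝ) = (P.ψ a0 : X → ℝ) * (P.ψ b0 : X → ℝ) := rfl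
        rw [this] at h0
        exact tsupport_mul_subset_right h0
      have hb0 := hP _ _ hb0
      have key : ∀ i, dist x ((![P.v a2, P.v b0, P.v b1, P.v b2] : Fin 4 → X) i) < η := by
        intro i; fin_cases i <;> assumption
      have := hg ![P.v a2, P.v b0, P.v b1, P.v b2]
        (fun i j => dist_lt_of_near hη (key i) (key j))
      rw [dAS2] at this
      congr 1
      linarith
  have hsum : ∀ a0 a1 a2 : ι, ∑ b0, ∑ b1, ∑ b2, g ![P.v b0, P.v b1, P.v b2] *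
        T.J (P.ψ a0 * P.ψ b0) (P.ψ a1) (P.ψ a2) (P.ψ b1) (P.ψ b2) =
      ∑ b1, ∑ b2, g ![P.v a2, P.v b1, P.v b2] * T.J (P.ψ a0) (P.ψ a1) (P.ψ a2) (P.ψ b1) (P.ψ b2) := by
    intro a0 a1 a2
    simp only [hterm a0 a1 a2]
    simp only [add_mul, sub_mul, Finset.sum_add_distrib, Finset.sum_sub_distrib]
    have e1 : ∑ b0, ∑ b1, ∑ b2, g ![P.v a2, P.v b1, P.v b2] *
        T.J (P.ψ a0 * P.ψ b0) (P.ψ a1) (P.ψ a2) (P.ψ b1) (P.ψ b2) =
        ∑ b1, ∑ b2, g ![P.v a2, P.v b1, P.v b2] *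
          T.J (P.ψ a0) (P.ψ a1) (P.ψ a2) (P.ψ b1) (P.ψ b2) := by
      rw [Finset.sum_comm]
      refine Finset.sum_congr rfl fun b1 _ => ?_
      rw [Finset.sum_comm]
      refine Finset.sum_congr rfl fun b2 _ => ?_
      rw [← Finset.mul_sum, ← T.J_sum0, ← Finset.mul_sum, P.sum_one, mul_one]
    have e2 : ∑ b0, ∑ b1, ∑ b2, g ![P.v a2, P.v b0, P.v b2] *
        T.J (P.ψ a0 * P.ψ b0) (P.ψ a1) (P.ψ a2) (P.ψ b1) (P.ψ b2) = 0 := by
      refine Finset.sum_eq_zero fun b0 _ => ?_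
      rw [Finset.sum_comm]
      refine Finset.sum_eq_zero fun b2 _ => ?_
      rw [← Finset.mul_sum, ← T.J_sum3, P.sum_one, T.J_one3, mul_zero]
    have e3 : ∑ b0, ∑ b1, ∑ b2, g ![P.v a2, P.v b0, P.v b1] *
        T.J (P.ψ a0 * P.ψ b0) (P.ψ a1) (P.ψ a2) (P.ψ b1) (P.ψ b2) = 0 := by
      refine Finset.sum_eq_zero fun b0 _ => Finset.sum_eq_zero fun b1 _ => ?_
      rw [← Finset.mul_sum, ← T.J_sum4, P.sum_one, T.J_one4, mul_zero]
    rw [e1, e2, e3]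
    ring
  unfold prodW lam
  refine Finset.sum_congr rfl fun a0 _ => Finset.sum_congr rfl fun a1 _ =>
    Finset.sum_congr rfl fun a2 _ => ?_
  simp only [← Finset.mul_sum]
  rw [hsum]
  simp only [Finset.mul_sum]
  refine Finset.sum_congr rfl fun b1 _ => Finset.sum_congr rfl fun b2 _ => ?_
  simp only [cup22]
  rw [mul_assoc]
  rfl

end fine

end Vale.Agent.P267.H533
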