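import Vale.Agent.P267.H533.Lam

/-!
# UNI-LAM, part 3: the value of `lam` on the generator of a chart
-/

open scoped BigOperators Topology

noncomputable section

namespace Vale.Agent.P267.H533

universe u

variable {X : Type u}

/-- The product `∏ (h_i(x_{i+1}) - h_i(x_i))`, `i = 0,…,3`. -/
def stepCochain (h : Fin 4 → X → ℝ) : (Fin 5 → X) → ℝ :=
  fun x => ∏ i : Fin 4, (h i (x i.succ) - h i (x i.castSucc))

lemma stepCochain_apply (h : Fin 4 → X → ℝ) (x₀ x₁ x₂ x₃ x₄ : X) :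
    stepCochain h ![x₀, x₁, x₂, x₃, x₄] =
      (h 0 x₁ - h 0 x₀) * (h 1 x₂ - h 1 x₁) * (h 2 x₃ - h 2 x₂) * (h 3 x₄ - h 3 x₃) := by
  unfold stepCochain
  rw [Fin.prod_univ_four]
  rfl

open Classical in
/-- restriction of a cochain to tuples in `U`, extended by zero -/
def trunc {q : ℕ} (U : Set X) (F : (Fin (q + 1) → X) → ℝ) : (Fin (q + 1) → X) → ℝ :=
  fun x => if ∀ k, x k ∈ U then F x else 0

section expand

variable {ι : Type*} [Fintype ι] [TopologicalSpace X] {A : Subalgebra ℝ (X → ℝ)}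
  (T : TopInt A) (P : Part A ι)

/-- the smoothed function `∑ h(v_a) ψ_a` -/
def smoothed (P : Part A ι) (h : X → ℝ) : A := ∑ a, h (P.v a) • P.ψ a

lemma sum_slot1 (h : X → ℝ) (r : ℝ) (f b c d : A) :
    ∑ a, (h (P.v a) - r) * T.J f (P.ψ a) b c d = T.J f (smoothed P h) b c d := by
  simp only [sub_mul, Finset.sum_sub_distrib, ← Finset.mul_sum, ← T.J_sum1, P.sum_one, T.J_one1,
    mul_zero, sub_zero, smoothed]
  simp only [T.J_sum1, T.J_smul1]
lemma sum_slot2 (h : X → ℝ) (r : ℝ) (f b c d : A) :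
    ∑ a, (h (P.v a) - r) * T.J f b (P.ψ a) c d = T.J f b (smoothed P h) c d := by
  simp only [sub_mul, Finset.sum_sub_distrib, ← Finset.mul_sum, ← T.J_sum2, P.sum_one, T.J_one2,
    mul_zero, sub_zero, smoothed]
  simp only [T.J_sum2, T.J_smul2]
lemma sum_slot3 (h : X → ℝ) (r : ℝ) (f b c d : A) :
    ∑ a, (h (P.v a) - r) * T.J f b c (P.ψ a) d = T.J f b c (smoothed P h) d := by
  simp only [sub_mul, Finset.sum_sub_distrib, ← Finset.mul_sum, ← T.J_sum3, P.sum_one, T.J_one3,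
    mul_zero, sub_zero, smoothed]
  simp only [T.J_sum3, T.J_smul3]
lemma sum_slot4 (h : X → ℝ) (r : ℝ) (f b c d : A) :
    ∑ a, (h (P.v a) - r) * T.J f b c d (P.ψ a) = T.J f b c d (smoothed P h) := by
  simp only [sub_mul, Finset.sum_sub_distrib, ← Finset.mul_sum, ← T.J_sum4, P.sum_one, T.J_one4,
    mul_zero, sub_zero, smoothed]
  simp only [T.J_sum4, T.J_smul4]

/-- the iterated sum of a step cochain -/
theorem sum_stepCochain (h : Fin 4 → X → ℝ) (χ : A) :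
    ∑ a0, ∑ a1, ∑ a2, ∑ a3, ∑ a4, stepCochain h ![P.v a0, P.v a1, P.v a2, P.v a3, P.v a4] *
      T.J (χ * P.ψ a0) (P.ψ a1) (P.ψ a2) (P.ψ a3) (P.ψ a4) =
    T.J χ (smoothed P (h 0)) (smoothed P (h 1)) (smoothed P (h 2)) (smoothed P (h 3)) := by
  simp only [stepCochain_apply]
  have e4 : ∀ a0 a1 a2 a3, ∑ a4, (h 0 (P.v a1) - h 0 (P.v a0)) * (h 1 (P.v a2) - h 1 (P.v a1)) *
      (h 2 (P.v a3) - h 2 (P.v a2)) * (h 3 (P.v a4) - h 3 (P.v a3)) *
      T.J (χ * P.ψ a0) (P.ψ a1) (P.ψ a2) (P.ψ a3) (P.ψ a4) =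
      (h 0 (P.v a1) - h 0 (P.v a0)) * (h 1 (P.v a2) - h 1 (P.v a1)) *
      ((h 2 (P.v a3) - h 2 (P.v a2)) *
      T.J (χ * P.ψ a0) (P.ψ a1) (P.ψ a2) (P.ψ a3) (smoothed P (h 3))) := by
    intro a0 a1 a2 a3
    rw [← sum_slot4 T P (h 3) (h 3 (P.v a3))]
    simp only [Finset.mul_sum, mul_assoc]
  simp only [e4]
  have e3 : ∀ a0 a1 a2, ∑ a3, (h 0 (P.v a1) - h 0 (P.v a0)) * (h 1 (P.v a2) - h 1 (P.v a1)) *
      ((h 2 (P.v a3) - h 2 (P.v a2)) *
      T.J (χ * P.ψ a0) (P.ψ a1) (P.ψ a2) (P.ψ a3) (smoothed P (h 3))) =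
      (h 0 (P.v a1) - h 0 (P.v a0)) * ((h 1 (P.v a2) - h 1 (P.v a1)) *
      T.J (χ * P.ψ a0) (P.ψ a1) (P.ψ a2) (smoothed P (h 2)) (smoothed P (h 3))) := by
    intro a0 a1 a2
    rw [← sum_slot3 T P (h 2) (h 2 (P.v a2))]
    simp only [Finset.mul_sum, mul_assoc]
  simp only [e3]
  have e2 : ∀ a0 a1, ∑ a2, (h 0 (P.v a1) - h 0 (P.v a0)) * ((h 1 (P.v a2) - h 1 (P.v a1)) *
      T.J (χ * P.ψ a0) (P.ψ a1) (P.ψ a2) (smoothed P (h 2)) (smoothed P (h 3))) =
      (h 0 (P.v a1) - h 0 (P.v a0)) *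
      T.J (χ * P.ψ a0) (P.ψ a1) (smoothed P (h 1)) (smoothed P (h 2)) (smoothed P (h 3)) := by
    intro a0 a1
    rw [← sum_slot2 T P (h 1) (h 1 (P.v a1))]
    simp only [Finset.mul_sum]
  simp only [e2]
  have e1 : ∀ a0, ∑ a1, (h 0 (P.v a1) - h 0 (P.v a0)) *
      T.J (χ * P.ψ a0) (P.ψ a1) (smoothed P (h 1)) (smoothed P (h 2)) (smoothed P (h 3)) =
      T.J (χ * P.ψ a0) (smoothed P (h 0)) (smoothed P (h 1)) (smoothed P (h 2))
        (smoothed P (h 3)) := by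
    intro a0
    rw [← sum_slot1 T P (h 0) (h 0 (P.v a0))]
  simp only [e1]
  rw [← T.J_sum0, ← Finset.mul_sum, P.sum_one, mul_one]

/-- Uniqueness of `∫ χ dt₀∧dt₁∧dt₂∧dt₃` for step-like functions. -/
theorem J_step_unique (χ : A) (Z : Fin 4 → Set X) (t w : Fin 4 → A)
    (hχ : ∀ x, (∀ i, x ∈ Z i) → ∃ r : ℝ, ∀ᶠ y in 𝓝 x, (χ : X → ℝ) y = r)
    (h : ∀ x ∈ tsupport (χ : X → ℝ), ∀ i, x ∉ Z i → ∃ r : ℝ,
      (∀ᶠ y in 𝓝 x, (t i : X → ℝ) y = r) ∧ (∀ᶠ y in 𝓝 x, (w i : X → ℝ) y = r)) :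
    T.J χ (w 0) (w 1) (w 2) (w 3) = T.J χ (t 0) (t 1) (t 2) (t 3) := by
  -- the key vanishing: one slot carries the difference, moved to slot 0
  have diff0 : ∀ i, ∀ x ∈ tsupport (χ : X → ℝ), x ∉ Z i →
      ∀ᶠ y in 𝓝 x, ((w i - t i : A) : X → ℝ) y = 0 := by
    intro i x hx hZ
    obtain ⟨r, h1, h2⟩ := h x hx i hZ
    filter_upwards [h1, h2] with y e1 e2
    have : ((w i - t i : A) : X → ℝ) y = (w i : X → ℝ) y - (t i : X → ℝ) y := rfl
    rw [this, e1, e2, sub_self]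
  have ct : ∀ i, ∀ x ∈ tsupport (χ : X → ℝ), x ∉ Z i →
      ∃ r : ℝ, ∀ᶠ y in 𝓝 x, (t i : X → ℝ) y = r := fun i x hx hZ => by
    obtain ⟨r, h1, h2⟩ := h x hx i hZ; exact ⟨r, h1⟩
  have cw : ∀ i, ∀ x ∈ tsupport (χ : X → ℝ), x ∉ Z i →
      ∃ r : ℝ, ∀ᶠ y in 𝓝 x, (w i : X → ℝ) y = r := fun i x hx hZ => by
    obtain ⟨r, h1, h2⟩ := h x hx i hZ; exact ⟨r, h2⟩
  have van : ∀ (i j k l : Fin 4) (b c d : A), (∀ m : Fin 4, m = i ∨ m = j ∨ m = k ∨ m = l) →
      (∀ x ∈ tsupport (χ : X → ℝ), x ∉ Z j → ∃ r : ℝ, ∀ᶠ y in 𝓝 x, (b : X → ℝ) y = r) →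
      (∀ x ∈ tsupport (χ : X → ℝ), x ∉ Z k → ∃ r : ℝ, ∀ᶠ y in 𝓝 x, (c : X → ℝ) y = r) →
      (∀ x ∈ tsupport (χ : X → ℝ), x ∉ Z l → ∃ r : ℝ, ∀ᶠ y in 𝓝 x, (d : X → ℝ) y = r) →
      T.J χ (w i - t i) b c d = 0 := by
    intro i j k l b c d hm hb hc hd
    rw [T.J_parts, neg_eq_zero]
    apply T.J_loc
    intro x
    by_cases hx : x ∈ tsupport (χ : X → ℝ)
    swap
    · exact Or.inr (Or.inl ⟨0, by
        rw [notMem_tsupport_iff_eventuallyEq] at hx; exact hx⟩)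
    by_cases hi : x ∈ Z i
    swap
    · exact Or.inl (diff0 i x hx hi)
    by_cases hj : x ∈ Z j
    swap
    · exact Or.inr (Or.inr (Or.inl (hb x hx hj)))
    by_cases hk : x ∈ Z k
    swap
    · exact Or.inr (Or.inr (Or.inr (Or.inl (hc x hx hk))))
    by_cases hl : x ∈ Z l
    swap
    · exact Or.inr (Or.inr (Or.inr (Or.inr (hd x hx hl))))
    refine Or.inr (Or.inl (hχ x fun m => ?_))
    rcases hm m with h | h | h | h <;> rw [h] <;> assumption
  have v0 : T.J χ (w 0 - t 0) (w 1) (w 2) (w 3) = 0 :=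
    van 0 1 2 3 _ _ _ (by decide) (cw 1) (cw 2) (cw 3)
  have v1 : T.J χ (t 0) (w 1 - t 1) (w 2) (w 3) = 0 := by
    rw [← neg_eq_zero, ← T.J_swap12]
    exact van 1 0 2 3 _ _ _ (by decide) (ct 0) (cw 2) (cw 3)
  have v2 : T.J χ (t 0) (t 1) (w 2 - t 2) (w 3) = 0 := by
    rw [← neg_eq_zero, ← T.J_swap13]
    exact van 2 1 0 3 _ _ _ (by decide) (ct 1) (ct 0) (cw 3)
  have v3 : T.J χ (t 0) (t 1) (t 2) (w 3 - t 3) = 0 := by
    rw [← neg_eq_zero, ← T.J_swap14]
    exact van 3 1 2 0 _ _ _ (by decide) (ct 1) (ct 2) (ct 0)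
  rw [T.J_sub1] at v0
  rw [T.J_sub2] at v1
  rw [T.J_sub3] at v2
  rw [T.J_sub4] at v3
  linarith

end expand

section metric

variable {ι : Type*} [Fintype ι] [PseudoMetricSpace X] {A : Subalgebra ℝ (X → ℝ)}
  (T : TopInt A) (P : Part A ι)

omit [PseudoMetricSpace X] in
lemma coe_sum_smul (P : Part A ι) (h : X → ℝ) (y : X) :
    (smoothed P h : X → ℝ) y = ∑ a, h (P.v a) * (P.ψ a : X → ℝ) y := by
  unfold smoothed
  rw [AddSubmonoidClass.coe_finsetSum, Finset.sum_apply]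
  rfl

omit [PseudoMetricSpace X] in
lemma sum_psi (P : Part A ι) (y : X) : ∑ a, (P.ψ a : X → ℝ) y = 1 := by
  have h1 : ((∑ a, P.ψ a : A) : X → ℝ) y = ((1 : A) : X → ℝ) y := by rw [P.sum_one]
  rw [AddSubmonoidClass.coe_finsetSum, Finset.sum_apply] at h1
  rw [h1]; rfl

/-- the smoothed function is constant where `h` is constant nearby -/
lemma smoothed_eq {η : ℝ} (hη : 0 < η) (hP : P.Fine η) {h : X → ℝ} {x : X} {r : ℝ}
    (hr : ∀ y, dist x y < 2 * η → h y = r) :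
    ∀ᶠ y in 𝓝 x, (smoothed P h : X → ℝ) y = r := by
  filter_upwards [Metric.ball_mem_nhds x hη] with y hy
  rw [coe_sum_smul]
  have : ∀ a, h (P.v a) * (P.ψ a : X → ℝ) y = r * (P.ψ a : X → ℝ) y := by
    intro a
    by_cases h0 : (P.ψ a : X → ℝ) y = 0
    · rw [h0, mul_zero, mul_zero]
    · have h1 := hP a y (subset_tsupport _ h0)
      rw [hr]
      have h2 : dist y x < η := hy
      have := dist_triangle_left x (P.v a) y
      linarith
  simp only [this, ← Finset.mul_sum, sum_psi, mul_one]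

/-- Value of `lam` on a truncated step cochain, general form. -/
theorem lam_trunc_step {η : ℝ} (hη : 0 < η) (hP : P.Fine η) (U : Set X) (h : Fin 4 → X → ℝ)
    (χ : A) (Z : Fin 4 → Set X) (t : Fin 4 → A)
    (H1 : ∀ x, ¬ (∀ᶠ y in 𝓝 x, (χ : X → ℝ) y = 1) → ∀ y : Fin 5 → X,
      (∀ k, y k ∈ U ∧ dist x (y k) < η) → stepCochain h y = 0)
    (H2 : ∀ x ∈ tsupport (χ : X → ℝ), ∀ y, dist x y < η → y ∈ U)
    (H3 : ∀ x ∈ tsupport (χ : X → ℝ), ∀ i, x ∉ Z i → ∃ r : ℝ,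
      (∀ᶠ y in 𝓝 x, (t i : X → ℝ) y = r) ∧ (∀ y, dist x y < 2 * η → h i y = r))
    (H4 : ∀ x, (∀ i, x ∈ Z i) → ∃ r : ℝ, ∀ᶠ y in 𝓝 x, (χ : X → ℝ) y = r) :
    lam T P (trunc U (stepCochain h)) = T.J χ (t 0) (t 1) (t 2) (t 3) := by
  rw [← J_step_unique T χ Z t (fun i => smoothed P (h i)) H4 ?_, ← sum_stepCochain]
  · unfold lam
    refine Finset.sum_congr rfl fun a0 _ => Finset.sum_congr rfl fun a1 _ =>
      Finset.sum_congr rfl fun a2 _ => Finset.sum_congr rfl fun a3 _ =>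
      Finset.sum_congr rfl fun a4 _ => ?_
    have hsplit : T.J (P.ψ a0) (P.ψ a1) (P.ψ a2) (P.ψ a3) (P.ψ a4) =
        T.J ((1 - χ) * P.ψ a0) (P.ψ a1) (P.ψ a2) (P.ψ a3) (P.ψ a4) +
        T.J (χ * P.ψ a0) (P.ψ a1) (P.ψ a2) (P.ψ a3) (P.ψ a4) := by
      rw [← T.J_add0]
      congr 1
      ring
    have e1 : trunc U (stepCochain h) ![P.v a0, P.v a1, P.v a2, P.v a3, P.v a4] *
        T.J ((1 - χ) * P.ψ a0) (P.ψ a1) (P.ψ a2) (P.ψ a3) (P.ψ a4) = 0 := by
      by_contra hne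
      have hJ := right_ne_zero_of_mul hne
      have hF := left_ne_zero_of_mul hne
      obtain ⟨x, h0, h1, h2, h3, h4⟩ := exists_near T hP _ _ _ _ _ hJ
      have hc : (((1 - χ) * P.ψ a0 : A) : X → ℝ) = (fun y => 1 - (χ : X → ℝ) y) *
        (P.ψ a0 : X → ℝ) := rfl
      rw [hc] at h0
      have h01 := tsupport_mul_subset_left h0
      have h02 := hP _ _ (tsupport_mul_subset_right h0)
      have hx : ¬ (∀ᶠ y in 𝓝 x, (χ : X → ℝ) y = 1) := by
        intro hev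
        apply (notMem_tsupport_iff_eventuallyEq.2 _) h01
        filter_upwards [hev] with y hy
        simp [hy]
      unfold trunc at hF
      split_ifs at hF with hU
      · apply hF
        apply H1 x hx
        intro k
        refine ⟨hU k, ?_⟩
        fin_cases k <;> assumption
      · exact hF rfl
    have e2 : trunc U (stepCochain h) ![P.v a0, P.v a1, P.v a2, P.v a3, P.v a4] *
        T.J (χ * P.ψ a0) (P.ψ a1) (P.ψ a2) (P.ψ a3) (P.ψ a4) =
        stepCochain h ![P.v a0, P.v a1, P.v a2, P.v a3, P.v a4] *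
        T.J (χ * P.ψ a0) (P.ψ a1) (P.ψ a2) (P.ψ a3) (P.ψ a4) := by
      by_cases hJ : T.J (χ * P.ψ a0) (P.ψ a1) (P.ψ a2) (P.ψ a3) (P.ψ a4) = 0
      · rw [hJ, mul_zero, mul_zero]
      · obtain ⟨x, h0, h1, h2, h3, h4⟩ := exists_near T hP _ _ _ _ _ hJ
        have hc : ((χ * P.ψ a0 : A) : X → ℝ) = (χ : X → ℝ) * (P.ψ a0 : X → ℝ) := rfl
        rw [hc] at h0
        have h01 := tsupport_mul_subset_left h0
        have h02 := hP _ _ (tsupport_mul_subset_right h0)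
        congr 1
        unfold trunc
        rw [if_pos]
        intro k
        apply H2 x h01
        fin_cases k <;> assumption
    rw [hsplit, mul_add, e1, zero_add, e2]
  · intro x hx i hi
    obtain ⟨r, h1, h2⟩ := H3 x hx i hi
    exact ⟨r, h1, smoothed_eq P hη hP h2⟩

end metric

section chart

variable [PseudoMetricSpace X] {A : Subalgebra ℝ (X → ℝ)} (T : TopInt A)

open Classical in
/-- the indicator of `{c > 0}` as a real function -/
def posInd (c : X → ℝ) : X → ℝ := fun x => if 0 < c x then 1 else 0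

/-- Value of `lam` on the generator of a chart: for all sufficiently fine partitions it equals
`∫ χ dt₀∧dt₁∧dt₂∧dt₃` for any step-like functions `t_i` of the coordinates `c_i`. -/
theorem exists_lam_chart (U : Set X) (hK : IsCompact (closure U)) (hUo : IsOpen U)
    (c : Fin 4 → X → ℝ) (hc : ∀ i, ContinuousOn (c i) (closure U)) (p : X)
    (hp : ∀ x ∈ closure U, (∀ i, c i x = 0) → x = p)
    (χ : A) (hχU : tsupport (χ : X → ℝ) ⊆ U) (hχp : ∀ᶠ y in 𝓝 p, (χ : X → ℝ) y = 1)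
    (t : Fin 4 → A) (δ : ℝ) (hδ : 0 < δ)
    (hχδ : ∀ x ∈ tsupport (χ : X → ℝ), (∀ i, |c i x| < δ) → ∀ᶠ y in 𝓝 x, (χ : X → ℝ) y = 1)
    (ht1 : ∀ i, ∀ x ∈ tsupport (χ : X → ℝ), δ ≤ c i x → ∀ᶠ y in 𝓝 x, (t i : X → ℝ) y = 1)
    (ht0 : ∀ i, ∀ x ∈ tsupport (χ : X → ℝ), c i x ≤ -δ → ∀ᶠ y in 𝓝 x, (t i : X → ℝ) y = 0) :
    ∃ η₀ > 0, ∀ η, 0 < η → η ≤ η₀ → ∀ (ι : Type) [Fintype ι] (P : Part A ι), P.Fine η →
      lam T P (trunc U (stepCochain (fun i => posInd (c i)))) =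
        T.J χ (t 0) (t 1) (t 2) (t 3) := by
  -- a radius on which `χ = 1`
  obtain ⟨ρ, hρ, hρball⟩ := Metric.eventually_nhds_iff_ball.1 (eventually_eventually_nhds.2 hχp)
  -- a `δ₁` controlling the common zero set
  have hδ₁ : ∃ δ₁ > 0, ∀ x ∈ closure U, (∀ i, |c i x| ≤ δ₁) → dist x p < ρ / 2 := by
    set K' : Set X := closure U ∩ {x | ρ / 2 ≤ dist x p} with hK'
    have hK'c : IsCompact K' := hK.inter_right (isClosed_le continuous_const
      (continuous_id.dist continuous_const))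
    by_cases hne : K'.Nonempty
    · have hcont : ContinuousOn (fun x => ∑ i, |c i x|) K' := by
        refine continuousOn_finsetSum _ fun i _ => ?_
        exact ((hc i).mono Set.inter_subset_left).abs
      obtain ⟨x₀, hx₀, hmin⟩ := hK'c.exists_isMinOn hne hcont
      have hpos : 0 < ∑ i, |c i x₀| := by
        rcases (Finset.sum_nonneg (fun i _ => abs_nonneg (c i x₀)) :
          0 ≤ ∑ i, |c i x₀|).lt_or_eq with h | h
        · exact h
        · exfalso
          have hz := (Finset.sum_eq_zero_iff_of_nonneg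
            (fun i _ => abs_nonneg (c i x₀))).1 h.symm
          have : x₀ = p := hp x₀ hx₀.1 (fun i => abs_eq_zero.1 (hz i (Finset.mem_univ i)))
          have h2 : ρ / 2 ≤ dist x₀ p := hx₀.2
          rw [this, dist_self] at h2
          linarith
      refine ⟨(∑ i, |c i x₀|) / 5, by positivity, fun x hx hx' => ?_⟩
      by_contra hcon
      have hxK : x ∈ K' := ⟨hx, not_lt.1 hcon⟩
      have h1 : ∑ i, |c i x₀| ≤ ∑ i, |c i x| := hmin hxK
      have h2 : ∑ i : Fin 4, |c i x| ≤ ∑ i : Fin 4, (∑ i, |c i x₀|) / 5 :=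
        Finset.sum_le_sum fun i _ => hx' i
      rw [Finset.sum_const, Finset.card_univ, Fintype.card_fin, nsmul_eq_mul] at h2
      norm_num at h2
      linarith
    · refine ⟨1, one_pos, fun x hx _ => ?_⟩
      by_contra hcon
      exact hne ⟨x, hx, not_lt.1 hcon⟩
  obtain ⟨δ₁, hδ₁pos, hδ₁⟩ := hδ₁
  -- uniform continuity
  have huc : ∀ i, ∃ η > 0, ∀ x ∈ closure U, ∀ y ∈ closure U, dist x y < η →
      |c i x - c i y| < min δ δ₁ := by
    intro i
    have := hK.uniformContinuousOn_of_continuous (hc i)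
    rw [Metric.uniformContinuousOn_iff] at this
    obtain ⟨η, hη, h⟩ := this (min δ δ₁) (lt_min hδ hδ₁pos)
    exact ⟨η, hη, fun x hx y hy hxy => by simpa [Real.dist_eq] using h x hx y hy hxy⟩
  choose ηi hηi hηi' using huc
  -- thickening of the support of `χ`
  have hthick : ∃ η > 0, ∀ x ∈ tsupport (χ : X → ℝ), ∀ y, dist x y < η → y ∈ U := by
    have hKχ : IsCompact (tsupport (χ : X → ℝ)) :=
      hK.of_isClosed_subset (isClosed_tsupport _) (hχU.trans subset_closure)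
    obtain ⟨η, hη, h⟩ := hKχ.exists_thickening_subset_open hUo hχU
    refine ⟨η, hη, fun x hx y hxy => h ?_⟩
    rw [Metric.mem_thickening_iff]
    exact ⟨x, hx, by rw [dist_comm]; exact hxy⟩
  obtain ⟨η₁, hη₁, hη₁'⟩ := hthick
  obtain ⟨m, hm⟩ : ∃ m : ℝ, 0 < m ∧ ∀ i, m ≤ ηi i := by
    refine ⟨min (min (ηi 0) (ηi 1)) (min (ηi 2) (ηi 3)),
      lt_min (lt_min (hηi 0) (hηi 1)) (lt_min (hηi 2) (hηi 3)), fun i => ?_⟩
    fin_cases i
    · exact (min_le_left _ _).trans (min_le_left _ _)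
    · exact (min_le_left _ _).trans (min_le_right _ _)
    · exact (min_le_right _ _).trans (min_le_left _ _)
    · exact (min_le_right _ _).trans (min_le_right _ _)
  refine ⟨min (min (m / 3) (η₁ / 3)) (ρ / 4), by
    have := hm.1
    positivity, fun η hη hηle ι _ P hP => ?_⟩
  have hηm : 3 * η ≤ m := by
    have := (hηle.trans (min_le_left _ _)).trans (min_le_left _ _)
    linarith
  have hηη₁ : 3 * η ≤ η₁ := by
    have := (hηle.trans (min_le_left _ _)).trans (min_le_right _ _)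
    linarith
  have hηρ : 4 * η ≤ ρ := by
    have := hηle.trans (min_le_right _ _)
    linarith
  apply lam_trunc_step T P hη hP U _ χ (fun i => {x | |c i x| < δ} ∩ tsupport (χ : X → ℝ)) t
  · -- H1
    intro x hx y hy
    by_contra hne
    apply hx
    have hfac : ∀ i : Fin 4, posInd (c i) (y i.succ) - posInd (c i) (y i.castSucc) ≠ 0 := by
      intro i h0
      apply hne
      unfold stepCochain
      exact Finset.prod_eq_zero (Finset.mem_univ i) h0
    have hdist : ∀ k l, dist (y k) (y l) < m := by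
      intro k l
      have := dist_triangle_left (y k) (y l) x
      have h1 := (hy k).2
      have h2 := (hy l).2
      linarith
    have hsmall' : ∀ i : Fin 4, |c i (y 0)| ≤ δ₁ := by
      intro i
      have hd1 : |c i (y 0) - c i (y i.succ)| < δ₁ :=
        (hηi' i _ (subset_closure (hy 0).1) _ (subset_closure (hy _).1)
          ((hdist _ _).trans_le (hm.2 i))).trans_le (min_le_right _ _)
      have hd2 : |c i (y 0) - c i (y i.castSucc)| < δ₁ :=
        (hηi' i _ (subset_closure (hy 0).1) _ (subset_closure (hy _).1)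
          ((hdist _ _).trans_le (hm.2 i))).trans_le (min_le_right _ _)
      have hs := hfac i
      unfold posInd at hs
      rw [abs_lt] at hd1 hd2
      rw [abs_le]
      by_cases hp1 : 0 < c i (y i.succ) <;> by_cases hp2 : 0 < c i (y i.castSucc)
      · simp [hp1, hp2] at hs
      · constructor <;> linarith
      · constructor <;> linarith
      · simp [hp1, hp2] at hs
    have hy0 := hδ₁ (y 0) (subset_closure (hy 0).1) hsmall'
    apply hρball
    rw [Metric.mem_ball]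
    have := dist_triangle x (y 0) p
    have h2 := (hy 0).2
    linarith
  · -- H2
    intro x hx y hxy
    exact hη₁' x hx y (by linarith)
  · -- H3
    intro x hx i hi
    have hxc : δ ≤ |c i x| := by
      by_contra hcon
      exact hi ⟨not_le.1 hcon, hx⟩
    have hclose : ∀ y, dist x y < 2 * η → |c i x - c i y| < δ := by
      intro y hy
      have hyU : y ∈ U := hη₁' x hx y (by linarith)
      exact (hηi' i x (subset_closure (hχU hx)) y (subset_closure hyU)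
        ((by linarith : dist x y < m).trans_le (hm.2 i))).trans_le (min_le_left _ _)
    rcases le_abs.1 hxc with h | h
    · refine ⟨1, ht1 i x hx h, fun y hy => ?_⟩
      have := hclose y hy
      rw [abs_lt] at this
      unfold posInd
      rw [if_pos (by linarith)]
    · refine ⟨0, ht0 i x hx (by linarith), fun y hy => ?_⟩
      have := hclose y hy
      rw [abs_lt] at this
      unfold posInd
      rw [if_neg (by linarith)]
  · -- H4
    intro x hx
    exact ⟨1, hχδ x (hx 0).2 (fun i => (hx i).1)⟩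

end chart

end Vale.Agent.P267.H533
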